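import Mathlib

/-!
Definitions for the hand-ins on the l1-sum case of the Tingley problem.
-/

namespace Vale.Agent.Lib.P084

variable {E : Type*} [NormedAddCommGroup E] [NormedSpace ℝ E]

/-- `face u` is the set of unit vectors `w` on which every norm-at-most-one linear functional that
takes the value `1` at `u` also takes the value `1`.  For a unit vector `u` this is the
intersection of all the supporting faces of the unit ball that contain `u`. -/
def face (u : E) : Set E :=
  {w | ‖w‖ = 1 ∧ ∀ φ : StrongDual ℝ E, ‖φ‖ ≤ 1 → φ u = 1 → φ w = 1}

/-- A normed space has compact faces when `face u` is norm compact for every unit vector `u`.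
Every finite-dimensional space and every strictly convex space has this property. -/
def HasCompactFaces (E : Type*) [NormedAddCommGroup E] [NormedSpace ℝ E] : Prop :=
  ∀ u : E, ‖u‖ = 1 → IsCompact (face u)

end Vale.Agent.Lib.P084
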