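import Mathlib
import Vale.Agent.Lib.P084.Defs

/-!
Elementary facts on faces and extreme points of unit balls.
-/

namespace Vale.Agent.Lib.P084

open Metric

variable {E : Type*} [NormedAddCommGroup E] [NormedSpace ℝ E]

/-- Unit vectors that are extreme points of the closed unit ball. -/
def IsExt (v : E) : Prop := ‖v‖ = 1 ∧ v ∈ (closedBall (0:E) 1).extremePoints ℝ

theorem exists_functional (u : E) (hu : ‖u‖ = 1) : ∃ φ : StrongDual ℝ E, ‖φ‖ ≤ 1 ∧ φ u = 1 := by
  obtain ⟨g, hg, hg'⟩ := exists_dual_vector'' ℝ u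
  refine ⟨g, hg, ?_⟩
  rw [hg', hu]; simp

theorem functional_le (φ : StrongDual ℝ E) (hφ : ‖φ‖ ≤ 1) (x : E) : φ x ≤ ‖x‖ := by
  have h1 := φ.le_opNorm x
  have h2 := le_abs_self (φ x)
  have h3 : |φ x| = ‖φ x‖ := rfl
  have h4 := norm_nonneg x
  nlinarith

theorem self_mem_face (u : E) (hu : ‖u‖ = 1) : u ∈ face u := ⟨hu, fun _ _ h => h⟩

theorem face_subset (u w : E) (hw : w ∈ face u) : face w ⊆ face u := by
  rintro x ⟨hx1, hx2⟩
  exact ⟨hx1, fun φ hφ h => hx2 φ hφ (hw.2 φ hφ h)⟩

theorem isExt_of_mem_extremePoints_face (u : E) (hu : ‖u‖ = 1) (e : E)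
    (he : e ∈ (face u).extremePoints ℝ) : IsExt e := by
  have heface : e ∈ face u := he.1
  refine ⟨heface.1, ?_⟩
  rw [mem_extremePoints]
  refine ⟨by simp [heface.1], ?_⟩
  intro x1 hx1 x2 hx2 hseg
  obtain ⟨a, b, ha, hb, hab, rfl⟩ := hseg
  have hx1' : ‖x1‖ ≤ 1 := by simpa using hx1
  have hx2' : ‖x2‖ ≤ 1 := by simpa using hx2
  -- both endpoints lie in the face
  have key : ∀ φ : StrongDual ℝ E, ‖φ‖ ≤ 1 → φ u = 1 → φ x1 = 1 ∧ φ x2 = 1 := by
    intro φ hφ hφu
    have h := heface.2 φ hφ hφu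
    rw [map_add, map_smul, map_smul, smul_eq_mul, smul_eq_mul] at h
    have h1 := (functional_le φ hφ x1).trans hx1'
    have h2 := (functional_le φ hφ x2).trans hx2'
    constructor <;> nlinarith
  obtain ⟨φ0, hφ0, hφ0u⟩ := exists_functional u hu
  have hn1 : ‖x1‖ = 1 := le_antisymm hx1' (by
    have := functional_le φ0 hφ0 x1
    rw [(key φ0 hφ0 hφ0u).1] at this
    exact this)
  have hn2 : ‖x2‖ = 1 := le_antisymm hx2' (by
    have := functional_le φ0 hφ0 x2
    rw [(key φ0 hφ0 hφ0u).2] at this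
    exact this)
  have m1 : x1 ∈ face u := ⟨hn1, fun φ hφ h => (key φ hφ h).1⟩
  have m2 : x2 ∈ face u := ⟨hn2, fun φ hφ h => (key φ hφ h).2⟩
  have := (mem_extremePoints.mp he).2 x1 m1 x2 m2 ⟨a, b, ha, hb, hab, rfl⟩
  exact this

theorem exists_isExt_mem_face (hCF : HasCompactFaces E) (u : E) (hu : ‖u‖ = 1) :
    ∃ e, e ∈ face u ∧ IsExt e := by
  obtain ⟨e, he⟩ := (hCF u hu).extremePoints_nonempty ⟨u, self_mem_face u hu⟩
  exact ⟨e, he.1, isExt_of_mem_extremePoints_face u hu e he⟩

theorem IsExt.neg {v : E} (hv : IsExt v) : IsExt (-v) := by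
  refine ⟨by rw [norm_neg]; exact hv.1, ?_⟩
  rw [mem_extremePoints]
  refine ⟨by simp [hv.1], ?_⟩
  intro x1 hx1 x2 hx2 hseg
  obtain ⟨a, b, ha, hb, hab, hc⟩ := hseg
  have hv2 := (mem_extremePoints.mp hv.2).2 (-x1) (by simpa using hx1) (-x2) (by simpa using hx2)
    ⟨a, b, ha, hb, hab, by
      have : a • (-x1) + b • (-x2) = -(a • x1 + b • x2) := by module
      rw [this, hc, neg_neg]⟩
  constructor
  · rw [← hv2.1, neg_neg]
  · rw [← hv2.2, neg_neg]

/-- Metric rigidity at an extreme point. -/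
theorem IsExt.eq_smul {v b : E} (hv : IsExt v) {s : ℝ} (hs0 : 0 < s) (hs1 : s < 1)
    (hb : ‖b‖ = s) (hbv : ‖b - v‖ = 1 - s) : b = s • v := by
  have hs' : 0 < 1 - s := by linarith
  set x1 : E := s⁻¹ • b with hx1
  set x2 : E := (1 - s)⁻¹ • (v - b) with hx2
  have h1 : ‖x1‖ = 1 := by
    rw [hx1, norm_smul, norm_inv, Real.norm_of_nonneg hs0.le, hb, inv_mul_cancel₀ hs0.ne']
  have h2 : ‖x2‖ = 1 := by
    rw [hx2, norm_smul, norm_inv, Real.norm_of_nonneg hs'.le, norm_sub_rev, hbv,
      inv_mul_cancel₀ hs'.ne']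
  have hseg : s • x1 + (1 - s) • x2 = v := by
    rw [hx1, hx2, smul_smul, smul_smul, mul_inv_cancel₀ hs0.ne', mul_inv_cancel₀ hs'.ne']
    simp
  have := (mem_extremePoints.mp hv.2).2 x1 (by simp [h1]) x2 (by simp [h2])
    ⟨s, 1 - s, hs0, hs', by ring, hseg⟩
  have h3 : x1 = v := this.1
  rw [← h3, hx1, smul_smul, mul_inv_cancel₀ hs0.ne', one_smul]

/-- A nonzero vector is separated by some extreme point. -/
theorem exists_isExt_sep (hCF : HasCompactFaces E) (b : E) (hb : b ≠ 0) :
    ∃ e, IsExt e ∧ ‖b - e‖ < 1 + ‖b‖ ∧ ‖b + e‖ = 1 + ‖b‖ := by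
  have hnb : 0 < ‖b‖ := norm_pos_iff.mpr hb
  set bh : E := ‖b‖⁻¹ • b with hbh
  have hbh1 : ‖bh‖ = 1 := by
    rw [hbh, norm_smul, norm_inv, norm_norm, inv_mul_cancel₀ hnb.ne']
  obtain ⟨e, hef, hext⟩ := exists_isExt_mem_face hCF bh hbh1
  have hb_eq : b = ‖b‖ • bh := by
    rw [hbh, smul_smul, mul_inv_cancel₀ hnb.ne', one_smul]
  refine ⟨e, hext, ?_, ?_⟩
  · -- strict inequality
    refine lt_of_le_of_ne ?_ ?_
    · have := norm_sub_le b e
      rw [hext.1] at this
      linarith
    · intro heq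
      have hne : b - e ≠ 0 := by
        intro h0
        rw [h0, norm_zero] at heq
        linarith
      obtain ⟨g, hg, hg'⟩ := exists_dual_vector'' ℝ (b - e)
      have hge : g (b - e) = 1 + ‖b‖ := by
        rw [hg', heq]; simp
      rw [map_sub] at hge
      have h1 := functional_le g hg b
      have h2 := functional_le g hg (-e)
      rw [map_neg, norm_neg, hext.1] at h2
      have h3 : g b = ‖b‖ := by linarith
      have h4 : g e = -1 := by linarith
      have h5 : g bh = 1 := by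
        rw [hbh, map_smul, smul_eq_mul, h3, inv_mul_cancel₀ hnb.ne']
      have h6 := hef.2 g hg h5
      linarith
  · -- equality
    obtain ⟨φ, hφ, hφb⟩ := exists_functional bh hbh1
    have h1 := hef.2 φ hφ hφb
    have h2 := functional_le φ hφ (b + e)
    rw [map_add, h1, hb_eq, map_smul, smul_eq_mul, hφb] at h2
    have hnorm : ‖‖b‖ • bh‖ = ‖b‖ := by rw [← hb_eq]
    rw [← hb_eq] at h2
    have h3 := norm_add_le b e
    rw [hext.1] at h3
    linarith

/-- The faces of a finite-dimensional space are compact. -/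
theorem hasCompactFaces_of_finiteDimensional [FiniteDimensional ℝ E] : HasCompactFaces E := by
  intro u _
  have : ProperSpace E := FiniteDimensional.proper_real E
  apply Metric.isCompact_of_isClosed_isBounded
  · have h1 : IsClosed {w : E | ‖w‖ = 1} := isClosed_eq continuous_norm continuous_const
    have h2 : IsClosed (⋂ φ : StrongDual ℝ E, ⋂ (_ : ‖φ‖ ≤ 1), ⋂ (_ : φ u = 1), {w : E | φ w = 1}) :=
      isClosed_iInter fun φ => isClosed_iInter fun _ => isClosed_iInter fun _ =>
        isClosed_eq φ.continuous continuous_const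
    have : face u = {w : E | ‖w‖ = 1} ∩
        (⋂ φ : StrongDual ℝ E, ⋂ (_ : ‖φ‖ ≤ 1), ⋂ (_ : φ u = 1), {w : E | φ w = 1}) := by
      ext w
      simp [face]
    rw [this]
    exact h1.inter h2
  · refine (isBounded_closedBall (x := (0:E)) (r := 1)).subset ?_
    intro w hw
    simp [hw.1]

/-- The faces of a strictly convex space are singletons, hence compact. -/
theorem hasCompactFaces_of_strictConvex [StrictConvexSpace ℝ E] : HasCompactFaces E := by
  intro u hu
  have : face u = {u} := by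
    ext w
    constructor
    · rintro ⟨hw1, hw2⟩
      obtain ⟨φ, hφ, hφu⟩ := exists_functional u hu
      have h := hw2 φ hφ hφu
      have h2 : ‖u + w‖ = ‖u‖ + ‖w‖ := by
        apply le_antisymm (norm_add_le u w)
        have := functional_le φ hφ (u + w)
        rw [map_add, hφu, h] at this
        rw [hu, hw1]
        linarith
      have hr : SameRay ℝ u w := sameRay_iff_norm_add.mpr h2
      have := (sameRay_iff_inv_norm_smul_eq_of_ne (by
        intro h0; rw [h0, norm_zero] at hu; exact zero_ne_one hu) (by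
        intro h0; rw [h0, norm_zero] at hw1; exact zero_ne_one hw1)).mp hr
      rw [hu, hw1] at this
      simpa using this.symm
    · rintro rfl
      exact self_mem_face _ hu
  rw [this]
  exact isCompact_singleton

end Vale.Agent.Lib.P084
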