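import Mathlib
import Vale.Agent.Lib.P084.Faces

/-!
First part of the analysis of a surjective isometry from the sphere of an l1-sum.
-/

namespace Vale.Agent.Lib.P084

open Metric

variable {A B Y : Type*} [NormedAddCommGroup A] [NormedSpace ℝ A]
  [NormedAddCommGroup B] [NormedSpace ℝ B] [NormedAddCommGroup Y] [NormedSpace ℝ Y]

/-- A map `T` on pairs behaving as a surjective isometry from the unit sphere of the l1-sum. -/
structure SphereIso (T : A → B → Y) : Prop where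
  norm_eq : ∀ a b, ‖a‖ + ‖b‖ = 1 → ‖T a b‖ = 1
  dist_eq : ∀ a b a' b', ‖a‖ + ‖b‖ = 1 → ‖a'‖ + ‖b'‖ = 1 →
    ‖T a b - T a' b'‖ = ‖a - a'‖ + ‖b - b'‖
  surj : ∀ y, ‖y‖ = 1 → ∃ a b, ‖a‖ + ‖b‖ = 1 ∧ T a b = y

theorem SphereIso.swap {T : A → B → Y} (h : SphereIso T) : SphereIso (fun b a => T a b) where
  norm_eq := fun b a hab => h.norm_eq a b (by linarith)
  dist_eq := fun b a b' a' h1 h2 => by
    rw [h.dist_eq a b a' b' (by linarith) (by linarith)]; ring
  surj := fun y hy => by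
    obtain ⟨a, b, hab, hT⟩ := h.surj y hy
    exact ⟨b, a, by linarith, hT⟩

/-- Two unit vectors at distance two stay far apart after scaling. -/
theorem far_scale {p q : Y} (hp : ‖p‖ = 1) (hq : ‖q‖ = 1) (hpq : ‖p - q‖ = 2) {s s' : ℝ}
    (hs : 0 ≤ s) (hs' : 0 ≤ s') : ‖s • p - s' • q‖ = s + s' := by
  apply le_antisymm
  · calc ‖s • p - s' • q‖ ≤ ‖s • p‖ + ‖s' • q‖ := norm_sub_le _ _
      _ = s + s' := by
        rw [norm_smul, norm_smul, hp, hq, Real.norm_of_nonneg hs, Real.norm_of_nonneg hs']; ring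
  · rcases le_total s s' with h | h
    · have h1 : s' • (p - q) = (s • p - s' • q) + (s' - s) • p := by module
      have h2 : ‖s' • (p - q)‖ = 2 * s' := by
        rw [norm_smul, hpq, Real.norm_of_nonneg hs']; ring
      have h3 := norm_add_le (s • p - s' • q) ((s' - s) • p)
      rw [← h1, h2, norm_smul, hp, Real.norm_of_nonneg (by linarith)] at h3
      linarith
    · have h1 : s • (p - q) = (s • p - s' • q) + (s - s') • (-q) := by module
      have h2 : ‖s • (p - q)‖ = 2 * s := by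
        rw [norm_smul, hpq, Real.norm_of_nonneg hs]; ring
      have h3 := norm_add_le (s • p - s' • q) ((s - s') • (-q))
      rw [← h1, h2, norm_smul, norm_neg, hq, Real.norm_of_nonneg (by linarith)] at h3
      linarith

namespace SphereIso

variable {T : A → B → Y} (hT : SphereIso T)
include hT

/-- The antipode of a point of the `A`-part stays in the `A`-part. -/
theorem neg_mem_A (u : A) (hu : ‖u‖ = 1) : ∃ u', ‖u'‖ = 1 ∧ T u' 0 = -T u 0 := by
  have hu0 : ‖u‖ + ‖(0:B)‖ = 1 := by simp [hu]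
  obtain ⟨c, d, hcd, hT'⟩ := hT.surj (-T u 0) (by rw [norm_neg]; exact hT.norm_eq u 0 hu0)
  suffices hd : d = 0 by
    subst hd
    exact ⟨c, by simpa using hcd, hT'⟩
  by_contra hd
  have hnd : 0 < ‖d‖ := norm_pos_iff.mpr hd
  set v : B := -(‖d‖⁻¹ • d) with hv
  have hv1 : ‖v‖ = 1 := by
    rw [hv, norm_neg, norm_smul, norm_inv, norm_norm, inv_mul_cancel₀ hnd.ne']
  have hd1 : ‖d‖ ≤ 1 := by
    have := norm_nonneg c
    linarith
  set t : ℝ := ‖d‖ / 4 with ht
  have ht0 : 0 < t := by positivity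
  have ht1 : t < 1 := by rw [ht]; linarith
  have hpt : ‖(1 - t) • u‖ + ‖-(t • v)‖ = 1 := by
    rw [norm_neg, norm_smul, norm_smul, hu, hv1, Real.norm_of_nonneg (by linarith),
      Real.norm_of_nonneg ht0.le]
    ring
  obtain ⟨c', d', hcd', hT''⟩ := hT.surj (-T ((1 - t) • u) (-(t • v)))
    (by rw [norm_neg]; exact hT.norm_eq _ _ hpt)
  -- distance two from the point
  have h1 : ‖c' - (1 - t) • u‖ + ‖d' + t • v‖ = 2 := by
    have := hT.dist_eq c' d' ((1 - t) • u) (-(t • v)) hcd' hpt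
    rw [hT''] at this
    have h2 : -T ((1 - t) • u) (-(t • v)) - T ((1 - t) • u) (-(t • v))
        = (-2:ℝ) • T ((1 - t) • u) (-(t • v)) := by module
    rw [h2, norm_smul, hT.norm_eq _ _ hpt, sub_neg_eq_add] at this
    simpa using this.symm
  have h3 : ‖c' - (1 - t) • u‖ ≤ ‖c'‖ + (1 - t) := by
    have := norm_sub_le c' ((1 - t) • u)
    rw [norm_smul, hu, Real.norm_of_nonneg (by linarith)] at this
    linarith
  have h4 : ‖d' + t • v‖ ≤ ‖d'‖ + t := by
    have := norm_add_le d' (t • v)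
    rw [norm_smul, hv1, Real.norm_of_nonneg ht0.le] at this
    linarith
  have h5 : ‖d' + t • v‖ = ‖d'‖ + t := by linarith
  -- hence `d' + v` has norm `‖d'‖ + 1`
  have h6 : ‖d'‖ + 1 ≤ ‖d' + v‖ := by
    have h7 : d' + t • v = (1 - t) • d' + t • (d' + v) := by module
    have h8 := norm_add_le ((1 - t) • d') (t • (d' + v))
    rw [← h7, norm_smul, norm_smul, Real.norm_of_nonneg (by linarith),
      Real.norm_of_nonneg ht0.le, h5] at h8
    have h9 : t * (‖d'‖ + 1) ≤ t * ‖d' + v‖ := by nlinarith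
    exact le_of_mul_le_mul_left h9 ht0
  -- the points are close
  have h10 : ‖c' - c‖ + ‖d' - d‖ = 2 * t := by
    have := hT.dist_eq c' d' c d hcd' hcd
    rw [hT'', hT'] at this
    have h11 : -T ((1 - t) • u) (-(t • v)) - -T u 0 = T u 0 - T ((1 - t) • u) (-(t • v)) := by abel
    rw [h11, hT.dist_eq u 0 _ _ hu0 hpt] at this
    have h12 : u - (1 - t) • u = t • u := by module
    rw [h12, norm_smul, hu, Real.norm_of_nonneg ht0.le] at this
    have h13 : (0:B) - -(t • v) = t • v := by simp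
    rw [h13, norm_smul, hv1, Real.norm_of_nonneg ht0.le] at this
    linarith
  have h14 : ‖d' - d‖ ≤ 2 * t := by
    have := norm_nonneg (c' - c)
    linarith
  -- compute `d + v`
  have h15 : d + v = (1 - ‖d‖⁻¹) • d := by
    rw [hv]; module
  have h16 : ‖d + v‖ = 1 - ‖d‖ := by
    have hle : ‖d‖⁻¹ ≥ 1 := by
      rw [ge_iff_le, one_le_inv₀ hnd]; exact hd1
    have : d + v = (-(‖d‖⁻¹ - 1)) • d := by rw [h15]; congr 1; ring
    rw [this, norm_smul, norm_neg, Real.norm_of_nonneg (by linarith), sub_mul, inv_mul_cancel₀ hnd.ne', one_mul]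
  -- contradiction
  have h17 : ‖d' + v‖ ≤ ‖d + v‖ + ‖d' - d‖ := by
    have : d' + v = (d + v) + (d' - d) := by abel
    rw [this]
    exact norm_add_le _ _
  have h18 : ‖d‖ ≤ ‖d'‖ + ‖d' - d‖ := by
    have : d = d' - (d' - d) := by abel
    nth_rw 1 [this]
    exact norm_sub_le _ _
  rw [ht] at h14
  linarith

theorem neg_mem_B (v : B) (hv : ‖v‖ = 1) : ∃ v', ‖v'‖ = 1 ∧ T 0 v' = -T 0 v :=
  hT.swap.neg_mem_A v hv

theorem dist_AB (u : A) (v : B) (hu : ‖u‖ = 1) (hv : ‖v‖ = 1) : ‖T u 0 - T 0 v‖ = 2 := by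
  rw [hT.dist_eq u 0 0 v (by simp [hu]) (by simp [hv])]
  simp [hu, hv]; norm_num

theorem norm_A0 (u : A) (hu : ‖u‖ = 1) : ‖T u 0‖ = 1 := hT.norm_eq u 0 (by simp [hu])

theorem norm_0B (v : B) (hv : ‖v‖ = 1) : ‖T 0 v‖ = 1 := hT.norm_eq 0 v (by simp [hv])

/-- The `A`-part and the `B`-part of the target are l1-orthogonal. -/
theorem norm_comb (u : A) (v : B) (hu : ‖u‖ = 1) (hv : ‖v‖ = 1) {a b : ℝ} (ha : 0 ≤ a) (hb : 0 ≤ b) :
    ‖a • T u 0 + b • T 0 v‖ = a + b := by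
  obtain ⟨v', hv', hTv'⟩ := hT.neg_mem_B v hv
  have h := far_scale (hT.norm_A0 u hu) (hT.norm_0B v' hv') (hT.dist_AB u v' hu hv') ha hb
  rw [hTv'] at h
  have h2 : a • T u 0 - b • -T 0 v = a • T u 0 + b • T 0 v := by module
  rwa [h2] at h

/-- The basic position lemma. -/
theorem position (a : A) (b : B) (hab : ‖a‖ + ‖b‖ = 1) (u : A) (v : B) (hu : ‖u‖ = 1) (hv : ‖v‖ = 1)
    {s : ℝ} (h1 : ‖T a b - T u 0‖ = 2 * s) (h2 : ‖T a b - T 0 v‖ = 2 * (1 - s)) :
    ‖a‖ = 1 - s ∧ ‖a - u‖ = s ∧ ‖b‖ = s ∧ ‖b - v‖ = 1 - s := by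
  rw [hT.dist_eq a b u 0 hab (by simp [hu]), sub_zero] at h1
  rw [hT.dist_eq a b 0 v hab (by simp [hv]), sub_zero] at h2
  have h3 : (1:ℝ) ≤ ‖a‖ + ‖a - u‖ := by
    have := norm_sub_le a (a - u)
    simp only [sub_sub_cancel] at this
    rw [hu] at this
    exact this
  have h4 : (1:ℝ) ≤ ‖b‖ + ‖b - v‖ := by
    have := norm_sub_le b (b - v)
    simp only [sub_sub_cancel] at this
    rw [hv] at this
    exact this
  refine ⟨by linarith, by linarith, by linarith, by linarith⟩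

theorem exists_a_of_ext (u : A) (v : B) (hu : ‖u‖ = 1) (hv : IsExt v) {s : ℝ} (hs0 : 0 < s)
    (hs1 : s < 1) :
    ∃ a : A, ‖a‖ = 1 - s ∧ ‖a - u‖ = s ∧ T a (s • v) = (1 - s) • T u 0 + s • T 0 v := by
  have hs' : 0 < 1 - s := by linarith
  have hy : ‖(1 - s) • T u 0 + s • T 0 v‖ = 1 := by
    rw [hT.norm_comb u v hu hv.1 hs'.le hs0.le]; ring
  obtain ⟨a, b, hab, hTab⟩ := hT.surj _ hy
  have h1 : ‖T a b - T u 0‖ = 2 * s := by
    rw [hTab]
    have : (1 - s) • T u 0 + s • T 0 v - T u 0 = (-s) • (T u 0 - T 0 v) := by module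
    rw [this, norm_smul, hT.dist_AB u v hu hv.1, norm_neg, Real.norm_of_nonneg hs0.le]; ring
  have h2 : ‖T a b - T 0 v‖ = 2 * (1 - s) := by
    rw [hTab]
    have : (1 - s) • T u 0 + s • T 0 v - T 0 v = (1 - s) • (T u 0 - T 0 v) := by module
    rw [this, norm_smul, hT.dist_AB u v hu hv.1, Real.norm_of_nonneg hs'.le]; ring
  obtain ⟨p1, p2, p3, p4⟩ := hT.position a b hab u v hu hv.1 h1 h2
  have hb : b = s • v := hv.eq_smul hs0 hs1 p3 p4
  exact ⟨a, p1, p2, by rw [← hb]; exact hTab⟩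

theorem a_indep {u : A} {v v' : B} (hv : ‖v‖ = 1) (hv' : ‖v'‖ = 1) {s : ℝ} (hs0 : 0 < s) (hs1 : s < 1)
    {a a' : A} (ha : ‖a‖ = 1 - s) (ha' : ‖a'‖ = 1 - s)
    (h : T a (s • v) = (1 - s) • T u 0 + s • T 0 v)
    (h' : T a' (s • v') = (1 - s) • T u 0 + s • T 0 v') : a = a' := by
  have hp : ‖a‖ + ‖s • v‖ = 1 := by
    rw [ha, norm_smul, hv, Real.norm_of_nonneg hs0.le]; ring
  have hp' : ‖a'‖ + ‖s • v'‖ = 1 := by
    rw [ha', norm_smul, hv', Real.norm_of_nonneg hs0.le]; ring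
  have h1 := hT.dist_eq a (s • v) a' (s • v') hp hp'
  rw [h, h'] at h1
  have h2 : (1 - s) • T u 0 + s • T 0 v - ((1 - s) • T u 0 + s • T 0 v') = s • (T 0 v - T 0 v') := by
    module
  have h3 := hT.dist_eq 0 v 0 v' (by simp [hv]) (by simp [hv'])
  rw [h2, norm_smul, h3] at h1
  have h4 : s • v - s • v' = s • (v - v') := by module
  rw [h4, norm_smul] at h1
  simp only [sub_self, norm_zero, zero_add] at h1
  have h5 : ‖a - a'‖ = 0 := by linarith
  exact sub_eq_zero.mp (norm_eq_zero.mp h5)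

omit hT in
/-- `IsA T s u a`: the point `a` is the `A`-coordinate of the point of the sphere of the l1-sum that
is sent to the convex combination `(1 - s) T(u,0) + s T(0,v)`, for every extreme point `v`. -/
def IsA (T : A → B → Y) (s : ℝ) (u a : A) : Prop :=
  ‖a‖ = 1 - s ∧ ‖a - u‖ = s ∧ ∀ v : B, IsExt v → T a (s • v) = (1 - s) • T u 0 + s • T 0 v

theorem exists_isA (u : A) (hu : ‖u‖ = 1) {v0 : B} (hv0 : IsExt v0) {s : ℝ} (hs0 : 0 < s) (hs1 : s < 1) :
    ∃ a, IsA T s u a := by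
  obtain ⟨a, h1, h2, h3⟩ := hT.exists_a_of_ext u v0 hu hv0 hs0 hs1
  refine ⟨a, h1, h2, fun v hv => ?_⟩
  obtain ⟨a', h1', _, h3'⟩ := hT.exists_a_of_ext u v hu hv hs0 hs1
  have := hT.a_indep hv0.1 hv.1 hs0 hs1 h1 h1' h3 h3'
  rw [this]; exact h3'

theorem isA_dist {u u' a a' : A} (hu : ‖u‖ = 1) (hu' : ‖u'‖ = 1) {v0 : B} (hv0 : IsExt v0) {s : ℝ}
    (hs0 : 0 < s) (hs1 : s < 1) (h : IsA T s u a) (h' : IsA T s u' a') :
    ‖a - a'‖ = (1 - s) * ‖u - u'‖ := by
  have hs' : 0 < 1 - s := by linarith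
  have hp : ‖a‖ + ‖s • v0‖ = 1 := by
    rw [h.1, norm_smul, hv0.1, Real.norm_of_nonneg hs0.le]; ring
  have hp' : ‖a'‖ + ‖s • v0‖ = 1 := by
    rw [h'.1, norm_smul, hv0.1, Real.norm_of_nonneg hs0.le]; ring
  have h1 := hT.dist_eq a (s • v0) a' (s • v0) hp hp'
  rw [h.2.2 v0 hv0, h'.2.2 v0 hv0] at h1
  have h2 : (1 - s) • T u 0 + s • T 0 v0 - ((1 - s) • T u' 0 + s • T 0 v0)
      = (1 - s) • (T u 0 - T u' 0) := by module
  rw [h2, norm_smul, Real.norm_of_nonneg hs'.le, hT.dist_eq u 0 u' 0 (by simp [hu]) (by simp [hu'])] at h1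
  simp only [sub_self, norm_zero, add_zero] at h1
  exact h1.symm

/-- Preservation of extreme points under the antipodal map of the target. -/
theorem neg_ext {u0 : A} (hu0 : IsExt u0) (v : B) (hv : IsExt v) :
    ∃ v', IsExt v' ∧ T 0 v' = -T 0 v := by
  obtain ⟨v', hv', hTv'⟩ := hT.neg_mem_B v hv.1
  obtain ⟨u', hu', hTu'⟩ := hT.neg_mem_A u0 hu0.1
  refine ⟨v', ⟨hv', ?_⟩, hTv'⟩
  rw [mem_extremePoints]
  refine ⟨by simp [hv'], ?_⟩
  intro r1 hr1 r2 hr2 hseg
  obtain ⟨c1, c2, hc1, hc2, hc12, hcomb⟩ := hseg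
  have hr1' : ‖r1‖ ≤ 1 := by simpa using hr1
  have hr2' : ‖r2‖ ≤ 1 := by simpa using hr2
  have hn : (1:ℝ) ≤ c1 * ‖r1‖ + c2 * ‖r2‖ := by
    have := norm_add_le (c1 • r1) (c2 • r2)
    rw [hcomb, hv', norm_smul, norm_smul, Real.norm_of_nonneg hc1.le, Real.norm_of_nonneg hc2.le] at this
    exact this
  have hr1n : ‖r1‖ = 1 := le_antisymm hr1' (by nlinarith)
  have hr2n : ‖r2‖ = 1 := le_antisymm hr2' (by nlinarith)
  -- the common small parameter
  set s : ℝ := min c1 c2 with hs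
  have hs0 : 0 < s := lt_min hc1 hc2
  have hsc1 : s ≤ c1 := min_le_left _ _
  have hsc2 : s ≤ c2 := min_le_right _ _
  have hs1 : s < 1 := by linarith
  have hs' : 0 < 1 - s := by linarith
  -- unique point of the `u0,v` interval
  have key : ∀ r : B, ‖r‖ = 1 → ‖s • r - v'‖ = 1 - s →
      T ((1 - s) • u') (s • r) = -T ((1 - s) • u0) (s • v) := by
    intro r hr hrv
    have hp : ‖(1 - s) • u'‖ + ‖s • r‖ = 1 := by
      rw [norm_smul, norm_smul, hu', hr, Real.norm_of_nonneg hs0.le, Real.norm_of_nonneg hs'.le]; ring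
    set y := T ((1 - s) • u') (s • r) with hy
    have hyn : ‖-y‖ = 1 := by rw [norm_neg]; exact hT.norm_eq _ _ hp
    obtain ⟨a, b, hab, hTab⟩ := hT.surj (-y) hyn
    have h1 : ‖T a b - T u0 0‖ = 2 * s := by
      rw [hTab]
      have h10 : -y - T u0 0 = -(y - T u' 0) := by rw [hTu']; abel
      rw [h10, norm_neg, hy, hT.dist_eq _ _ u' 0 hp (by simp [hu'])]
      have h11 : (1 - s) • u' - u' = (-s) • u' := by module
      rw [h11, norm_smul, norm_neg, hu', Real.norm_of_nonneg hs0.le, sub_zero, norm_smul, hr,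
        Real.norm_of_nonneg hs0.le]
      ring
    have h2 : ‖T a b - T 0 v‖ = 2 * (1 - s) := by
      rw [hTab]
      have h10 : -y - T 0 v = -(y - T 0 v') := by rw [hTv']; abel
      rw [h10, norm_neg, hy, hT.dist_eq _ _ 0 v' hp (by simp [hv']), sub_zero, norm_smul, hu',
        Real.norm_of_nonneg hs'.le, hrv]
      ring
    obtain ⟨p1, p2, p3, p4⟩ := hT.position a b hab u0 v hu0.1 hv.1 h1 h2
    have hb : b = s • v := hv.eq_smul hs0 hs1 p3 p4
    have ha : a = (1 - s) • u0 := by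
      have := hu0.eq_smul hs'  (by linarith) p1 (by rw [p2]; ring)
      exact this
    rw [ha, hb] at hTab
    rw [hTab, neg_neg]
  have hr1v : ‖s • r1 - v'‖ = 1 - s := by
    apply le_antisymm
    · have h1 : s • r1 - v' = (-(c1 - s)) • r1 + (-c2) • r2 := by
        rw [← hcomb]; module
      rw [h1]
      have := norm_add_le ((-(c1 - s)) • r1) ((-c2) • r2)
      rw [norm_smul, norm_smul, hr1n, hr2n, norm_neg, norm_neg, Real.norm_of_nonneg (by linarith),
        Real.norm_of_nonneg hc2.le] at this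
      linarith
    · have := norm_sub_norm_le v' (v' - s • r1)
      have h2 : v' - (v' - s • r1) = s • r1 := by abel
      rw [h2, norm_smul, hr1n, hv', Real.norm_of_nonneg hs0.le] at this
      rw [norm_sub_rev]
      linarith
  have hr2v : ‖s • r2 - v'‖ = 1 - s := by
    apply le_antisymm
    · have h1 : s • r2 - v' = (-c1) • r1 + (-(c2 - s)) • r2 := by
        rw [← hcomb]; module
      rw [h1]
      have := norm_add_le ((-c1) • r1) ((-(c2 - s)) • r2)
      rw [norm_smul, norm_smul, hr1n, hr2n, norm_neg, norm_neg, Real.norm_of_nonneg hc1.le,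
        Real.norm_of_nonneg (by linarith)] at this
      linarith
    · have := norm_sub_norm_le v' (v' - s • r2)
      have h2 : v' - (v' - s • r2) = s • r2 := by abel
      rw [h2, norm_smul, hr2n, hv', Real.norm_of_nonneg hs0.le] at this
      rw [norm_sub_rev]
      linarith
  have e1 := key r1 hr1n hr1v
  have e2 := key r2 hr2n hr2v
  -- conclude `r1 = r2`
  have hp1 : ‖(1 - s) • u'‖ + ‖s • r1‖ = 1 := by
    rw [norm_smul, norm_smul, hu', hr1n, Real.norm_of_nonneg hs0.le, Real.norm_of_nonneg hs'.le]; ring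
  have hp2 : ‖(1 - s) • u'‖ + ‖s • r2‖ = 1 := by
    rw [norm_smul, norm_smul, hu', hr2n, Real.norm_of_nonneg hs0.le, Real.norm_of_nonneg hs'.le]; ring
  have hd := hT.dist_eq _ _ _ _ hp1 hp2
  rw [e1, e2, sub_self, norm_zero, sub_self, norm_zero, zero_add, ← smul_sub, norm_smul,
    Real.norm_of_nonneg hs0.le] at hd
  have hr12 : ‖r1 - r2‖ = 0 := by
    have : s * ‖r1 - r2‖ = 0 := hd.symm
    rcases mul_eq_zero.mp this with h | h
    · exact absurd h hs0.ne'
    · exact h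
  have hr12' : r1 = r2 := sub_eq_zero.mp (norm_eq_zero.mp hr12)
  subst hr12'
  have : v' = r1 := by
    rw [← hcomb, ← add_smul, hc12, one_smul]
  exact ⟨this.symm, this.symm⟩

end SphereIso

end Vale.Agent.Lib.P084
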