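import Mathlib

/-!
Mazur-Ulam for open unit balls: a surjective isometry between the open unit balls of two real
normed spaces that fixes the origin is the restriction of a linear isometry.  The proof follows
Vaisala's doubling argument: an isometric self-bijection of a bounded centrally symmetric set fixes
the centre.
-/

namespace Vale.Agent.Lib.P084

open Metric

section center

variable {E : Type*} [NormedAddCommGroup E] [NormedSpace ℝ E]
variable {F : Type*} [NormedAddCommGroup F] [NormedSpace ℝ F]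

/-- The point reflection of a centrally symmetric set, as an isometric equivalence. -/
noncomputable def reflectK (K : Set E) (c : E) (hK : ∀ z ∈ K, (2:ℝ) • c - z ∈ K) : K ≃ᵢ K where
  toFun z := ⟨(2:ℝ) • c - z, hK z z.2⟩
  invFun z := ⟨(2:ℝ) • c - z, hK z z.2⟩
  left_inv z := by ext; simp
  right_inv z := by ext; simp
  isometry_toFun := by
    refine Isometry.of_dist_eq (fun x y => ?_)
    rw [Subtype.dist_eq, Subtype.dist_eq, dist_eq_norm, dist_eq_norm]
    have : ((2:ℝ) • c - (x:E)) - ((2:ℝ) • c - (y:E)) = -((x:E) - y) := by abel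
    simp only [this, norm_neg]

theorem reflectK_val (K : Set E) (c : E) (hK : ∀ z ∈ K, (2:ℝ) • c - z ∈ K) (z : K) :
    ((reflectK K c hK z : K) : E) = (2:ℝ) • c - z := rfl

theorem fixed_center (K : Set E) (c : E) (hK : ∀ z ∈ K, (2:ℝ) • c - z ∈ K) (hc : c ∈ K)
    (hb : Bornology.IsBounded K) (g : K ≃ᵢ K) : g ⟨c, hc⟩ = ⟨c, hc⟩ := by
  set z0 : K := ⟨c, hc⟩ with hz0
  set R := reflectK K c hK with hR
  have hRz0 : R z0 = z0 := by
    ext
    simp only [hR, reflectK_val, hz0]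
    rw [two_smul]; abel
  -- the doubling step
  have step : ∀ g : K ≃ᵢ K, ∃ g' : K ≃ᵢ K, dist (g' z0) z0 = 2 * dist (g z0) z0 := by
    intro g
    refine ⟨g.trans (R.trans (g.symm.trans R)), ?_⟩
    have h1 : (g.trans (R.trans (g.symm.trans R))) z0 = R (g.symm (R (g z0))) := rfl
    rw [h1]
    calc dist (R (g.symm (R (g z0)))) z0
        = dist (R (g.symm (R (g z0)))) (R z0) := by rw [hRz0]
      _ = dist (g.symm (R (g z0))) z0 := R.dist_eq _ _
      _ = dist (g (g.symm (R (g z0)))) (g z0) := (g.dist_eq _ _).symm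
      _ = dist (R (g z0)) (g z0) := by rw [g.apply_symm_apply]
      _ = 2 * dist (g z0) z0 := by
        rw [Subtype.dist_eq, Subtype.dist_eq, dist_eq_norm, dist_eq_norm]
        have : ((R (g z0) : K) : E) - ((g z0 : K) : E) = (-(2:ℝ)) • (((g z0 : K) : E) - (z0 : E)) := by
          rw [hR, reflectK_val, hz0]
          module
        rw [this, norm_smul]
        simp
  have iter : ∀ n : ℕ, ∀ g : K ≃ᵢ K, ∃ g' : K ≃ᵢ K, dist (g' z0) z0 = 2 ^ n * dist (g z0) z0 := by
    intro n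
    induction n with
    | zero => intro g; exact ⟨g, by simp⟩
    | succ n ih =>
      intro g
      obtain ⟨g1, hg1⟩ := step g
      obtain ⟨g2, hg2⟩ := ih g1
      refine ⟨g2, ?_⟩
      rw [hg2, hg1]; ring
  obtain ⟨D, hD⟩ := hb.subset_closedBall c
  have hbound : ∀ a : K, dist a z0 ≤ D := by
    intro a
    have := hD a.2
    simpa [Subtype.dist_eq, hz0, mem_closedBall] using this
  by_contra hne
  have hpos : 0 < dist (g z0) z0 := dist_pos.mpr hne
  obtain ⟨n, hn⟩ := pow_unbounded_of_one_lt (D / dist (g z0) z0) (one_lt_two)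
  obtain ⟨g', hg'⟩ := iter n g
  have := hbound (g' z0)
  rw [hg'] at this
  rw [div_lt_iff₀ hpos] at hn
  linarith

theorem center_map (K : Set E) (K' : Set F) (c : E) (c' : F)
    (hK : ∀ z ∈ K, (2:ℝ) • c - z ∈ K) (hK' : ∀ z ∈ K', (2:ℝ) • c' - z ∈ K')
    (hc : c ∈ K) (hb : Bornology.IsBounded K) (f : K ≃ᵢ K') :
    ((f ⟨c, hc⟩ : K') : F) = c' := by
  set R' := reflectK K' c' hK' with hR'
  have h := fixed_center K c hK hc hb (f.trans (R'.trans f.symm))
  have h1 : (f.trans (R'.trans f.symm)) ⟨c, hc⟩ = f.symm (R' (f ⟨c, hc⟩)) := rfl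
  rw [h1] at h
  have h2 : R' (f ⟨c, hc⟩) = f ⟨c, hc⟩ := by
    have := congrArg f h
    rwa [f.apply_symm_apply] at this
  have h3 := congrArg (Subtype.val) h2
  rw [hR', reflectK_val] at h3
  have h4 : (2:ℝ) • ((f ⟨c, hc⟩ : K') : F) = (2:ℝ) • c' := by
    rw [sub_eq_iff_eq_add] at h3
    rw [h3, two_smul]
  exact smul_right_injective F (two_ne_zero' ℝ) h4

/-- A surjective isometry of open unit balls preserves midpoints when the relevant double balls
stay inside the open unit balls. -/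
theorem mid_of_ball (G : E → F)
    (hiso : ∀ x y : E, ‖x‖ < 1 → ‖y‖ < 1 → ‖G x - G y‖ = ‖x - y‖)
    (hsurj : ∀ y : F, ‖y‖ < 1 → ∃ x : E, ‖x‖ < 1 ∧ G x = y)
    (x y : E) (d : ℝ) (hx : ‖x‖ < 1) (hy : ‖y‖ < 1) (hd : ‖x - y‖ ≤ d)
    (hK1 : ∀ z : E, ‖z - x‖ ≤ d → ‖z - y‖ ≤ d → ‖z‖ < 1)
    (hK2 : ∀ w : F, ‖w - G x‖ ≤ d → ‖w - G y‖ ≤ d → ‖w‖ < 1) :
    G ((1/2:ℝ) • (x + y)) = (1/2:ℝ) • (G x + G y) := by
  set K : Set E := {z | ‖z - x‖ ≤ d ∧ ‖z - y‖ ≤ d} with hKdef
  set K' : Set F := {w | ‖w - G x‖ ≤ d ∧ ‖w - G y‖ ≤ d} with hK'def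
  set c : E := (1/2:ℝ) • (x + y) with hc
  set c' : F := (1/2:ℝ) • (G x + G y) with hc'
  have two_c : (2:ℝ) • c = x + y := by
    rw [hc, smul_smul]; norm_num
  have two_c' : (2:ℝ) • c' = G x + G y := by
    rw [hc', smul_smul]; norm_num
  have symK : ∀ z ∈ K, (2:ℝ) • c - z ∈ K := by
    rintro z ⟨h1, h2⟩
    refine ⟨?_, ?_⟩
    · rw [two_c]
      have : x + y - z - x = -(z - y) := by abel
      rw [this, norm_neg]; exact h2
    · rw [two_c]
      have : x + y - z - y = -(z - x) := by abel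
      rw [this, norm_neg]; exact h1
  have symK' : ∀ z ∈ K', (2:ℝ) • c' - z ∈ K' := by
    rintro z ⟨h1, h2⟩
    refine ⟨?_, ?_⟩
    · rw [two_c']
      have : G x + G y - z - G x = -(z - G y) := by abel
      rw [this, norm_neg]; exact h2
    · rw [two_c']
      have : G x + G y - z - G y = -(z - G x) := by abel
      rw [this, norm_neg]; exact h1
  have hcK : c ∈ K := by
    refine ⟨?_, ?_⟩
    · have : c - x = (-(1/2:ℝ)) • (x - y) := by
        rw [hc]; module
      rw [this, norm_smul]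
      have := norm_nonneg (x - y)
      norm_num
      linarith
    · have : c - y = (1/2:ℝ) • (x - y) := by
        rw [hc]; module
      rw [this, norm_smul]
      have := norm_nonneg (x - y)
      norm_num
      linarith
  have hb : Bornology.IsBounded K := by
    refine (isBounded_closedBall (x := x) (r := d)).subset ?_
    intro z hz
    rw [mem_closedBall, dist_eq_norm]
    exact hz.1
  have hG_mem : ∀ z : K, G z ∈ K' := by
    intro z
    have hz : ‖(z:E)‖ < 1 := hK1 z z.2.1 z.2.2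
    exact ⟨by rw [hiso z x hz hx]; exact z.2.1, by rw [hiso z y hz hy]; exact z.2.2⟩
  let f0 : K → K' := fun z => ⟨G z, hG_mem z⟩
  have hf0_iso : Isometry f0 := by
    refine Isometry.of_dist_eq (fun z w => ?_)
    rw [Subtype.dist_eq, Subtype.dist_eq, dist_eq_norm, dist_eq_norm]
    exact hiso z w (hK1 z z.2.1 z.2.2) (hK1 w w.2.1 w.2.2)
  have hf0_surj : Function.Surjective f0 := by
    rintro ⟨w, hw⟩
    obtain ⟨z, hz, rfl⟩ := hsurj w (hK2 w hw.1 hw.2)
    refine ⟨⟨z, ?_, ?_⟩, rfl⟩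
    · rw [← hiso z x hz hx]; exact hw.1
    · rw [← hiso z y hz hy]; exact hw.2
  let f : K ≃ᵢ K' := IsometryEquiv.mk (Equiv.ofBijective f0 ⟨hf0_iso.injective, hf0_surj⟩) hf0_iso
  have := center_map K K' c c' symK symK' hcK hb f
  exact this

/-- A map on the open unit ball that is norm preserving, preserves halving and is additive on a
small ball is the restriction of a linear isometry. -/
theorem linear_of_half_add (G : E → F)
    (hnorm : ∀ x : E, ‖x‖ < 1 → ‖G x‖ = ‖x‖)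
    (half : ∀ x : E, ‖x‖ < 1 → G ((1/2:ℝ) • x) = (1/2:ℝ) • G x)
    (small_add : ∀ x y : E, ‖x‖ < 1/3 → ‖y‖ < 1/3 → G (x + y) = G x + G y) :
    ∃ L : E →L[ℝ] F, (∀ x, ‖L x‖ = ‖x‖) ∧ ∀ x, ‖x‖ < 1 → G x = L x := by
  -- scaling
  let P : ℕ → E → F := fun k x => ((2:ℝ)^k) • G ((((2:ℝ)^k)⁻¹) • x)
  have hscale_norm : ∀ (k : ℕ) (x : E), ‖x‖ < (2:ℝ)^k → ‖((2:ℝ)^k)⁻¹ • x‖ < 1 := by
    intro k x hx
    rw [norm_smul, norm_inv, norm_pow, Real.norm_two]
    have h2 : (0:ℝ) < 2^k := by positivity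
    rw [inv_mul_lt_iff₀ h2]
    linarith
  have P_succ : ∀ (k : ℕ) (x : E), ‖x‖ < (2:ℝ)^k → P (k+1) x = P k x := by
    intro k x hx
    have h2 : (0:ℝ) < 2^k := by positivity
    have h1 := half _ (hscale_norm k x hx)
    show ((2:ℝ)^(k+1)) • G (((2:ℝ)^(k+1))⁻¹ • x) = ((2:ℝ)^k) • G (((2:ℝ)^k)⁻¹ • x)
    have h3 : ((2:ℝ)^(k+1))⁻¹ • x = (1/2:ℝ) • (((2:ℝ)^k)⁻¹ • x) := by
      rw [smul_smul, pow_succ]; congr 1; field_simp
    rw [h3, h1, smul_smul, pow_succ]
    congr 1; field_simp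
  have P_mono : ∀ (k m : ℕ) (x : E), ‖x‖ < (2:ℝ)^k → k ≤ m → P m x = P k x := by
    intro k m x hx hkm
    induction m, hkm using Nat.le_induction with
    | base => rfl
    | succ m hm ih =>
      have h2 : (2:ℝ)^k ≤ 2^m := pow_le_pow_right₀ (by norm_num) hm
      rw [P_succ m x (by linarith), ih]
  let K : E → ℕ := fun x => ⌈‖x‖⌉₊
  have hK : ∀ x : E, ‖x‖ < (2:ℝ)^(K x + 1) := by
    intro x
    have h1 : ‖x‖ ≤ (K x : ℝ) := Nat.le_ceil _
    have h2 : ((K x + 1 : ℕ) : ℝ) < (2:ℝ)^(K x + 1) := by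
      exact_mod_cast Nat.lt_two_pow_self
    push_cast at h2
    linarith
  let A : E → F := fun x => P (K x + 1) x
  have hA_eq : ∀ (x : E) (m : ℕ), ‖x‖ < (2:ℝ)^m → A x = P m x := by
    intro x m hm
    rcases le_total (K x + 1) m with h | h
    · exact (P_mono _ m x (hK x) h).symm
    · exact P_mono m _ x hm h
  have hA_add : ∀ x y : E, A (x + y) = A x + A y := by
    intro x y
    -- choose a large common scale
    obtain ⟨m, hm⟩ := pow_unbounded_of_one_lt (3 * (‖x‖ + ‖y‖ + ‖x + y‖ + 1)) (one_lt_two (α := ℝ))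
    have hpos1 := norm_nonneg x
    have hpos2 := norm_nonneg y
    have hpos3 := norm_nonneg (x + y)
    have h2 : (0:ℝ) < 2^m := by positivity
    have hx : ‖x‖ < (2:ℝ)^m := by linarith
    have hy : ‖y‖ < (2:ℝ)^m := by linarith
    have hxy : ‖x + y‖ < (2:ℝ)^m := by linarith
    rw [hA_eq x m hx, hA_eq y m hy, hA_eq (x + y) m hxy]
    show ((2:ℝ)^m) • G (((2:ℝ)^m)⁻¹ • (x + y)) = ((2:ℝ)^m) • G (((2:ℝ)^m)⁻¹ • x) + ((2:ℝ)^m) • G (((2:ℝ)^m)⁻¹ • y)
    rw [smul_add, small_add, smul_add]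
    · rw [norm_smul, norm_inv, norm_pow, Real.norm_two, inv_mul_lt_iff₀ h2]
      linarith
    · rw [norm_smul, norm_inv, norm_pow, Real.norm_two, inv_mul_lt_iff₀ h2]
      linarith
  have hA_norm : ∀ x : E, ‖A x‖ = ‖x‖ := by
    intro x
    show ‖((2:ℝ)^(K x + 1)) • G (((2:ℝ)^(K x + 1))⁻¹ • x)‖ = ‖x‖
    rw [norm_smul, hnorm _ (hscale_norm _ x (hK x)), norm_smul, norm_inv, norm_pow, Real.norm_two,
      ← mul_assoc]
    have h2 : (2:ℝ)^(K x + 1) ≠ 0 := by positivity
    rw [mul_inv_cancel₀ h2, one_mul]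
  let A0 : E →+ F := AddMonoidHom.mk' A hA_add
  have hA0_cont : Continuous A0 := by
    apply AddMonoidHomClass.continuous_of_bound A0 1
    intro x
    simp only [one_mul]
    exact (hA_norm x).le
  let L : E →L[ℝ] F :=
    { toFun := A0
      map_add' := A0.map_add
      map_smul' := fun c x => by simpa using map_real_smul A0 hA0_cont c x
      cont := hA0_cont }
  refine ⟨L, hA_norm, ?_⟩
  intro x hx
  have : A x = P 0 x := hA_eq x 0 (by simpa using hx)
  have h3 : P 0 x = G x := by simp [P]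
  rw [← h3, ← this]
  rfl

/-- **Mazur-Ulam for open balls.** -/
theorem mazur_ulam_ball (G : E → F) (h0 : G 0 = 0)
    (hiso : ∀ x y : E, ‖x‖ < 1 → ‖y‖ < 1 → ‖G x - G y‖ = ‖x - y‖)
    (hsurj : ∀ y : F, ‖y‖ < 1 → ∃ x : E, ‖x‖ < 1 ∧ G x = y) :
    ∃ L : E →L[ℝ] F, (∀ x, ‖L x‖ = ‖x‖) ∧ ∀ x, ‖x‖ < 1 → G x = L x := by
  have hnorm : ∀ x : E, ‖x‖ < 1 → ‖G x‖ = ‖x‖ := by
    intro x hx
    have := hiso x 0 hx (by simp)
    simpa [h0] using this
  -- halving
  have half : ∀ x : E, ‖x‖ < 1 → G ((1/2:ℝ) • x) = (1/2:ℝ) • G x := by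
    intro x hx
    have := mid_of_ball G hiso hsurj x 0 ‖x‖ hx (by simp) (by simp)
      (by
        intro z _ h2
        have : ‖z‖ ≤ ‖x‖ := by simpa using h2
        linarith)
      (by
        intro w _ h2
        have : ‖w‖ ≤ ‖x‖ := by simpa [h0] using h2
        linarith)
    simpa [h0] using this
  -- additivity on a small ball
  have small_add : ∀ x y : E, ‖x‖ < 1/3 → ‖y‖ < 1/3 → G (x + y) = G x + G y := by
    intro x y hx hy
    have hx1 : ‖x‖ < 1 := by linarith
    have hy1 : ‖y‖ < 1 := by linarith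
    have hxy : ‖x + y‖ < 1 := by
      have := norm_add_le x y
      linarith
    have hm := mid_of_ball G hiso hsurj x y ‖x - y‖ hx1 hy1 le_rfl
      (by
        intro z h1 _
        have h3 : ‖z‖ ≤ ‖z - x‖ + ‖x‖ := by
          have := norm_add_le (z - x) x
          simpa using this
        have h4 : ‖x - y‖ ≤ ‖x‖ + ‖y‖ := norm_sub_le x y
        linarith)
      (by
        intro w h1 _
        have h3 : ‖w‖ ≤ ‖w - G x‖ + ‖G x‖ := by
          have := norm_add_le (w - G x) (G x)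
          simpa using this
        rw [hnorm x hx1] at h3
        have h4 : ‖x - y‖ ≤ ‖x‖ + ‖y‖ := norm_sub_le x y
        linarith)
    have hh := half (x + y) hxy
    rw [hm] at hh
    have : (1/2:ℝ) • (G x + G y) = (1/2:ℝ) • G (x + y) := hh
    exact (smul_right_injective F (by norm_num : (1/2:ℝ) ≠ 0) this).symm
  exact linear_of_half_add G hnorm half small_add

end center

end Vale.Agent.Lib.P084
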