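import Mathlib
import Vale.Agent.Lib.P084.Core1
import Vale.Agent.Lib.P084.MUBall

/-!
Second part: the main formula on differences and the linearity of the `A`-part.
-/

namespace Vale.Agent.Lib.P084

open Metric

variable {A B Y : Type*} [NormedAddCommGroup A] [NormedSpace ℝ A]
  [NormedAddCommGroup B] [NormedSpace ℝ B] [NormedAddCommGroup Y] [NormedSpace ℝ Y]

/-- A norm that grows at unit speed at two points of a line keeps doing so further along. -/
theorem line_lemma {w q : Y} (hq : ‖q‖ = 1) {ν c0 c2 : ℝ} (h02 : c0 < c2)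
    (h0 : ‖w + c0 • q‖ = ν + c0) (h2 : ‖w + c2 • q‖ = ν + c2) {c : ℝ} (hc : c0 ≤ c) :
    ‖w + c • q‖ = ν + c := by
  apply le_antisymm
  · have h : w + c • q = (w + c0 • q) + (c - c0) • q := by module
    rw [h]
    have h1 := norm_add_le (w + c0 • q) ((c - c0) • q)
    rw [h0, norm_smul, hq, Real.norm_of_nonneg (by linarith)] at h1
    linarith
  · rcases le_total c c2 with hc2 | hc2
    · have h : w + c2 • q = (w + c • q) + (c2 - c) • q := by module
      have h1 := norm_add_le (w + c • q) ((c2 - c) • q)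
      rw [← h, h2, norm_smul, hq, Real.norm_of_nonneg (by linarith)] at h1
      linarith
    · have h : (c - c0) • (w + c2 • q) = (c2 - c0) • (w + c • q) + (c - c2) • (w + c0 • q) := by
        module
      have h1 := norm_add_le ((c2 - c0) • (w + c • q)) ((c - c2) • (w + c0 • q))
      rw [← h, norm_smul, norm_smul, norm_smul, h2, h0, Real.norm_of_nonneg (by linarith),
        Real.norm_of_nonneg (by linarith), Real.norm_of_nonneg (by linarith)] at h1
      have h3 : (c2 - c0) * (ν + c) ≤ (c2 - c0) * ‖w + c • q‖ := by nlinarith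
      exact le_of_mul_le_mul_left h3 (by linarith)

namespace SphereIso

variable {T : A → B → Y} (hT : SphereIso T)
include hT

/-- The norm of `w + c q` along the line through a difference of two convex combinations. -/
theorem comb_line {u u' a a' : A} {s s' : ℝ} (hs0 : 0 < s) (hs1 : s < 1) (hs0' : 0 < s') (hs1' : s' < 1)
    (h : IsA T s u a) (h' : IsA T s' u' a') {u0 : A} (hu0 : IsExt u0) {v : B} (hv : IsExt v) {c : ℝ}
    (hc : |s - s'| ≤ c) :
    ‖((1 - s) • T u 0 - (1 - s') • T u' 0) + c • T 0 v‖ = ‖a - a'‖ + c := by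
  set w : Y := (1 - s) • T u 0 - (1 - s') • T u' 0 with hw
  obtain ⟨vh, hvh, hTvh⟩ := hT.neg_ext hu0 v hv
  have hp : ∀ x : B, ‖x‖ = 1 → ‖a‖ + ‖s • x‖ = 1 := by
    intro x hx
    rw [h.1, norm_smul, hx, Real.norm_of_nonneg hs0.le]; ring
  have hp' : ∀ x : B, ‖x‖ = 1 → ‖a'‖ + ‖s' • x‖ = 1 := by
    intro x hx
    rw [h'.1, norm_smul, hx, Real.norm_of_nonneg hs0'.le]; ring
  have hq := hT.norm_0B v hv.1
  -- same extreme point
  have e1 : ∀ x : B, IsExt x → ‖w + (s - s') • T 0 x‖ = ‖a - a'‖ + |s - s'| := by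
    intro x hx
    have := hT.dist_eq a (s • x) a' (s' • x) (hp x hx.1) (hp' x hx.1)
    rw [h.2.2 x hx, h'.2.2 x hx] at this
    have h1 : (1 - s) • T u 0 + s • T 0 x - ((1 - s') • T u' 0 + s' • T 0 x)
        = w + (s - s') • T 0 x := by rw [hw]; module
    have h2 : s • x - s' • x = (s - s') • x := by module
    rw [h1, h2, norm_smul, hx.1, mul_one, Real.norm_eq_abs] at this
    exact this
  -- opposite extreme points
  have e2 : ‖w + (s + s') • T 0 v‖ = ‖a - a'‖ + (s + s') := by
    have := hT.dist_eq a (s • v) a' (s' • vh) (hp v hv.1) (hp' vh hvh.1)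
    rw [h.2.2 v hv, h'.2.2 vh hvh, hTvh] at this
    have h1 : (1 - s) • T u 0 + s • T 0 v - ((1 - s') • T u' 0 + s' • -T 0 v)
        = w + (s + s') • T 0 v := by rw [hw]; module
    have hvv : ‖v - vh‖ = 2 := by
      have h3 := hT.dist_eq 0 v 0 vh (by simp [hv.1]) (by simp [hvh.1])
      rw [hTvh] at h3
      have h4 : T 0 v - -T 0 v = (2:ℝ) • T 0 v := by rw [two_smul]; abel
      rw [h4, norm_smul, hq] at h3
      simp at h3
      linarith
    rw [h1, far_scale hv.1 hvh.1 hvv hs0.le hs0'.le] at this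
    exact this
  -- at the smaller parameter `|s - s'|`
  have e3 : ‖w + |s - s'| • T 0 v‖ = ‖a - a'‖ + |s - s'| := by
    rcases le_total 0 (s - s') with hle | hle
    · rw [abs_of_nonneg hle]
      have := e1 v hv
      rwa [abs_of_nonneg hle] at this
    · rw [abs_of_nonpos hle]
      have := e1 vh ⟨hvh.1, hvh.2⟩
      rw [hTvh, abs_of_nonpos hle] at this
      have h5 : w + (s - s') • -T 0 v = w + (-(s - s')) • T 0 v := by module
      rwa [h5] at this
  have hlt : |s - s'| < s + s' := by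
    rw [abs_lt]; constructor <;> linarith
  exact line_lemma hq hlt e3 e2 hc

/-- The main formula on differences. -/
theorem main_formula (hEB : ∀ b : B, b ≠ 0 → ∃ e, IsExt e ∧ ‖b - e‖ < 1 + ‖b‖ ∧ ‖b + e‖ = 1 + ‖b‖)
    {u u' a a' : A} {s s' : ℝ} (hu : ‖u‖ = 1) (hs0 : 0 < s) (hs1 : s < 1) (hs0' : 0 < s') (hs1' : s' < 1)
    (h : IsA T s u a) (h' : IsA T s' u' a') {u0 : A} (hu0 : IsExt u0) {v0 : B} (hv0 : IsExt v0) :
    ‖(1 - s) • T u 0 - (1 - s') • T u' 0‖ = ‖a - a'‖ ∧
      ∃ u'' : A, ‖u''‖ = 1 ∧ (1 - s) • T u 0 - (1 - s') • T u' 0 = ‖a - a'‖ • T u'' 0 := by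
  set w : Y := (1 - s) • T u 0 - (1 - s') • T u' 0 with hw
  set ν : ℝ := ‖a - a'‖ with hν
  have hc0ν : |s - s'| ≤ ν := by
    have := abs_norm_sub_norm_le a a'
    rw [h.1, h'.1] at this
    have h3 : (1 - s) - (1 - s') = -(s - s') := by ring
    rw [h3, abs_neg] at this
    exact this
  have hνw : ν ≤ ‖w‖ := by
    have hpos : |s - s'| ≤ |s - s'| := le_rfl
    have := hT.comb_line hs0 hs1 hs0' hs1' h h' hu0 hv0 hpos
    have h1 := norm_add_le w (|s - s'| • T 0 v0)
    rw [this, norm_smul, hT.norm_0B v0 hv0.1, mul_one, Real.norm_eq_abs, abs_abs] at h1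
    linarith
  by_cases hw0 : w = 0
  · have h0 : ν = 0 := by
      rw [hw0, norm_zero] at hνw
      exact le_antisymm hνw (norm_nonneg _)
    refine ⟨by rw [hw0, norm_zero, h0], u, hu, by rw [hw0, h0, zero_smul]⟩
  have hwpos : 0 < ‖w‖ := norm_pos_iff.mpr hw0
  set y : Y := ‖w‖⁻¹ • w with hy
  have hyn : ‖y‖ = 1 := by
    rw [hy, norm_smul, norm_inv, norm_norm, inv_mul_cancel₀ hwpos.ne']
  obtain ⟨a1, b1, hab1, hT1⟩ := hT.surj y hyn
  -- the key identity for all extreme points
  have key : ∀ e : B, IsExt e → ‖a1‖ + ‖b1 - e‖ = ν * ‖w‖⁻¹ + 1 := by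
    intro e he
    obtain ⟨eh, heh, hTeh⟩ := hT.neg_ext hu0 e he
    have h1 := hT.comb_line (c := ‖w‖) hs0 hs1 hs0' hs1' h h' hu0 heh (hc0ν.trans hνw)
    rw [hTeh] at h1
    have h2 := hT.dist_eq a1 b1 0 e hab1 (by simp [he.1])
    rw [hT1, sub_zero] at h2
    have h3 : y - T 0 e = ‖w‖⁻¹ • (w + ‖w‖ • -T 0 e) := by
      rw [hy, smul_add, smul_smul, inv_mul_cancel₀ hwpos.ne', one_smul]; abel
    rw [h3, norm_smul, h1, norm_inv, norm_norm] at h2
    rw [← h2]
    field_simp
    try rfl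
  -- `b1 = 0`
  have hb1 : b1 = 0 := by
    by_contra hne
    obtain ⟨e, he, he1, he2⟩ := hEB b1 hne
    have k1 := key e he
    have k2 := key (-e) he.neg
    rw [sub_neg_eq_add, he2] at k2
    linarith
  subst hb1
  have ha1 : ‖a1‖ = 1 := by simpa using hab1
  have hρ : ν * ‖w‖⁻¹ = 1 := by
    have k := key v0 hv0
    rw [ha1, zero_sub, norm_neg, hv0.1] at k
    linarith
  have hνeq : ν = ‖w‖ := by
    field_simp at hρ
    exact hρ
  refine ⟨hνeq.symm, a1, ha1, ?_⟩
  rw [hT1, hνeq, hy, smul_smul, mul_inv_cancel₀ hwpos.ne', one_smul]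

end SphereIso

/-- An isometric self-map of a compact set is onto. -/
theorem isometry_self_surj {E : Type*} [NormedAddCommGroup E] (K : Set E) (hK : IsCompact K)
    (f : E → E) (hf : ∀ x ∈ K, f x ∈ K) (hiso : ∀ x ∈ K, ∀ y ∈ K, ‖f x - f y‖ = ‖x - y‖) :
    ∀ x ∈ K, ∃ y ∈ K, f y = x := by
  intro x hx
  by_contra hne
  push Not at hne
  -- the image is compact
  have hcont : ContinuousOn f K := by
    rw [Metric.continuousOn_iff]
    intro a ha ε hε
    refine ⟨ε, hε, fun b hb hab => ?_⟩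
    rw [dist_eq_norm, hiso b hb a ha, ← dist_eq_norm]
    exact hab
  have himg : IsCompact (f '' K) := hK.image_of_continuousOn hcont
  have hnot : x ∉ f '' K := by
    rintro ⟨y, hy, hxy⟩
    exact hne y hy hxy
  obtain ⟨ε, hε, hball⟩ := Metric.isOpen_iff.mp himg.isClosed.isOpen_compl x hnot
  -- the orbit
  let g : ℕ → E := fun n => f^[n] x
  have hg_mem : ∀ n, g n ∈ K := by
    intro n
    induction n with
    | zero => exact hx
    | succ n ih =>
      have : g (n + 1) = f (g n) := Function.iterate_succ_apply' f n x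
      rw [this]; exact hf _ ih
  have hg_sep : ∀ n m : ℕ, ε ≤ ‖g n - g (n + m + 1)‖ := by
    intro n
    induction n with
    | zero =>
      intro m
      have : g (0 + m + 1) = f (g (0 + m)) := Function.iterate_succ_apply' f _ x
      rw [this]
      by_contra hlt
      push Not at hlt
      have hmem : f (g (0 + m)) ∈ ball x ε := by
        rw [mem_ball, dist_comm, dist_eq_norm]
        exact hlt
      exact hball hmem ⟨_, hg_mem _, rfl⟩
    | succ n ih =>
      intro m
      have e1 : g (n + 1) = f (g n) := Function.iterate_succ_apply' f n x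
      have e2 : g (n + 1 + m + 1) = f (g (n + m + 1)) := by
        have : n + 1 + m + 1 = (n + m + 1) + 1 := by ring
        rw [this]
        exact Function.iterate_succ_apply' f _ x
      rw [e1, e2, hiso _ (hg_mem _) _ (hg_mem _)]
      exact ih m
  obtain ⟨z, _, φ, hφ, hlim⟩ := hK.tendsto_subseq hg_mem
  have hcauchy := hlim.cauchySeq
  rw [Metric.cauchySeq_iff] at hcauchy
  obtain ⟨N, hN⟩ := hcauchy ε hε
  have hlt := hN N le_rfl (N + 1) (by omega)
  have hφlt : φ N < φ (N + 1) := hφ (Nat.lt_succ_self N)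
  obtain ⟨m, hm⟩ : ∃ m, φ (N + 1) = φ N + m + 1 := ⟨φ (N + 1) - φ N - 1, by omega⟩
  have := hg_sep (φ N) m
  rw [dist_eq_norm] at hlt
  simp only [Function.comp, hm] at hlt
  linarith

end Vale.Agent.Lib.P084
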