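import Mathlib
import Vale.Agent.Lib.P084.Core2

/-!
Third part: the `A`-part of the map is linear.
-/

namespace Vale.Agent.Lib.P084

open Metric

variable {A B Y : Type*} [NormedAddCommGroup A] [NormedSpace ℝ A]
  [NormedAddCommGroup B] [NormedSpace ℝ B] [NormedAddCommGroup Y] [NormedSpace ℝ Y]

namespace SphereIso

variable {T : A → B → Y} (hT : SphereIso T)
include hT

/-- Every point of the right norm is attained. -/
theorem surj_isA (hCF : HasCompactFaces A) {v0 : B} (hv0 : IsExt v0) {s : ℝ} (hs0 : 0 < s)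
    (hs1 : s < 1) (a : A) (ha : ‖a‖ = 1 - s) : ∃ u, ‖u‖ = 1 ∧ IsA T s u a := by
  have hs' : 0 < 1 - s := by linarith
  have hex : ∀ w : A, ∃ x, ‖w‖ = 1 → IsA T s w x := by
    intro w
    by_cases hw : ‖w‖ = 1
    · obtain ⟨x, hx⟩ := hT.exists_isA w hw hv0 hs0 hs1
      exact ⟨x, fun _ => hx⟩
    · exact ⟨0, fun h => absurd h hw⟩
  choose f hf using hex
  set Φ : A → A := fun w => (1 - s)⁻¹ • f w with hΦ
  set uh : A := (1 - s)⁻¹ • a with huh
  have huh1 : ‖uh‖ = 1 := by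
    rw [huh, norm_smul, norm_inv, Real.norm_of_nonneg hs'.le, ha, inv_mul_cancel₀ hs'.ne']
  have hΦface : ∀ w : A, ‖w‖ = 1 → Φ w ∈ face w := by
    intro w hw
    have hA := hf w hw
    refine ⟨?_, fun φ hφ hφw => ?_⟩
    · rw [hΦ]
      simp only
      rw [norm_smul, norm_inv, Real.norm_of_nonneg hs'.le, hA.1, inv_mul_cancel₀ hs'.ne']
    · have h1 := functional_le φ hφ (w - f w)
      rw [map_sub, hφw, norm_sub_rev, hA.2.1] at h1
      have h2 := functional_le φ hφ (f w)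
      rw [hA.1] at h2
      have h3 : φ (f w) = 1 - s := by linarith
      simp only [hΦ]
      rw [map_smul, smul_eq_mul, h3, inv_mul_cancel₀ hs'.ne']
  have hmaps : ∀ x ∈ face uh, Φ x ∈ face uh := by
    intro x hx
    exact face_subset uh x hx (hΦface x hx.1)
  have hiso : ∀ x ∈ face uh, ∀ y ∈ face uh, ‖Φ x - Φ y‖ = ‖x - y‖ := by
    intro x hx y hy
    have h1 := hT.isA_dist hx.1 hy.1 hv0 hs0 hs1 (hf x hx.1) (hf y hy.1)
    simp only [hΦ]
    rw [← smul_sub, norm_smul, norm_inv, Real.norm_of_nonneg hs'.le, h1, ← mul_assoc,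
      inv_mul_cancel₀ hs'.ne', one_mul]
  obtain ⟨w, hw, hΦw⟩ := isometry_self_surj (face uh) (hCF uh huh1) Φ hmaps hiso uh
    (self_mem_face uh huh1)
  refine ⟨w, hw.1, ?_⟩
  have h4 : f w = a := by
    have h5 : (1 - s)⁻¹ • f w = (1 - s)⁻¹ • a := hΦw
    exact smul_right_injective A (inv_ne_zero hs'.ne') h5
  rw [← h4]
  exact hf w hw.1

/-- Uniqueness of the base point. -/
theorem isA_unique {u u' a : A} (hu : ‖u‖ = 1) (hu' : ‖u'‖ = 1) {v0 : B} (hv0 : IsExt v0) {s : ℝ}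
    (hs0 : 0 < s) (hs1 : s < 1) (h : IsA T s u a) (h' : IsA T s u' a) : u = u' := by
  have h1 := hT.isA_dist hu hu' hv0 hs0 hs1 h h'
  rw [sub_self, norm_zero] at h1
  have hs' : 0 < 1 - s := by linarith
  have h2 : ‖u - u'‖ = 0 := by
    rcases mul_eq_zero.mp h1.symm with h | h
    · exact absurd h hs'.ne'
    · exact h
  exact sub_eq_zero.mp (norm_eq_zero.mp h2)

/-- The span of the `A`-part, as a submodule of the target. -/
def spanA (hCFB : HasCompactFaces B) {u0 : A} (hu0 : IsExt u0) {v0 : B} (hv0 : IsExt v0) :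
    Submodule ℝ Y where
  carrier := {y | ∃ r : ℝ, 0 ≤ r ∧ ∃ u : A, ‖u‖ = 1 ∧ y = r • T u 0}
  zero_mem' := ⟨0, le_rfl, u0, hu0.1, by simp⟩
  add_mem' := by
    rintro y1 y2 ⟨r1, hr1, u1, hu1, rfl⟩ ⟨r2, hr2, u2, hu2, rfl⟩
    rcases hr1.eq_or_lt with h0 | h1pos
    · exact ⟨r2, hr2, u2, hu2, by rw [← h0]; simp⟩
    rcases hr2.eq_or_lt with h0 | h2pos
    · exact ⟨r1, hr1, u1, hu1, by rw [← h0]; simp⟩
    obtain ⟨u2', hu2', hTu2'⟩ := hT.neg_mem_A u2 hu2
    set R : ℝ := r1 + r2 + 1 with hR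
    have hRpos : 0 < R := by positivity
    have hs1a : r1 / R < 1 := by rw [div_lt_one hRpos]; linarith
    have hs2a : r2 / R < 1 := by rw [div_lt_one hRpos]; linarith
    have hs1b : 0 < r1 / R := by positivity
    have hs2b : 0 < r2 / R := by positivity
    obtain ⟨a1, ha1⟩ := hT.exists_isA u1 hu1 hv0 (s := 1 - r1 / R) (by linarith) (by linarith)
    obtain ⟨a2, ha2⟩ := hT.exists_isA u2' hu2' hv0 (s := 1 - r2 / R) (by linarith) (by linarith)
    obtain ⟨_, u3, hu3, h3⟩ := hT.main_formula (exists_isExt_sep hCFB) hu1 (by linarith) (by linarith)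
      (by linarith) (by linarith) ha1 ha2 hu0 hv0
    refine ⟨R * ‖a1 - a2‖, by positivity, u3, hu3, ?_⟩
    rw [mul_smul, ← h3, hTu2']
    have e1 : (1 - (1 - r1 / R)) = r1 / R := by ring
    have e2 : (1 - (1 - r2 / R)) = r2 / R := by ring
    rw [e1, e2, smul_sub, smul_smul, smul_smul, mul_div_cancel₀ _ hRpos.ne',
      mul_div_cancel₀ _ hRpos.ne']
    module
  smul_mem' := by
    rintro c y ⟨r, hr, u, hu, rfl⟩
    rcases le_total 0 c with hc | hc
    · exact ⟨c * r, mul_nonneg hc hr, u, hu, by rw [smul_smul]⟩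
    · obtain ⟨u', hu', hTu'⟩ := hT.neg_mem_A u hu
      refine ⟨(-c) * r, mul_nonneg (by linarith) hr, u', hu', ?_⟩
      rw [hTu', smul_smul]
      module

end SphereIso

end Vale.Agent.Lib.P084
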