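import Mathlib
import Vale.Agent.Lib.P084.Core3

/-!
Fourth part: the linear maps on the two summands and the final formula.
-/

namespace Vale.Agent.Lib.P084

open Metric

variable {A B Y : Type*} [NormedAddCommGroup A] [NormedSpace ℝ A]
  [NormedAddCommGroup B] [NormedSpace ℝ B] [NormedAddCommGroup Y] [NormedSpace ℝ Y]

namespace SphereIso

variable {T : A → B → Y} (hT : SphereIso T)
include hT

theorem exists_linear_A (hCFA : HasCompactFaces A) (hCFB : HasCompactFaces B) {u0 : A}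
    (hu0 : IsExt u0) {v0 : B} (hv0 : IsExt v0) :
    ∃ L : A →L[ℝ] Y, (∀ a, ‖L a‖ = ‖a‖) ∧ ∀ u, ‖u‖ = 1 → T u 0 = L u := by
  set W := hT.spanA hCFB hu0 hv0 with hW
  have hex : ∀ a : A, ∃ y : W, ‖a‖ < 1 → ((a = 0 ∧ y = 0) ∨
      (a ≠ 0 ∧ ∃ u, ‖u‖ = 1 ∧ IsA T (1 - ‖a‖) u a ∧ (y : Y) = ‖a‖ • T u 0)) := by
    intro a
    by_cases ha : ‖a‖ < 1
    · by_cases ha0 : a = 0
      · exact ⟨0, fun _ => Or.inl ⟨ha0, rfl⟩⟩
      · have hapos : 0 < ‖a‖ := norm_pos_iff.mpr ha0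
        obtain ⟨u, hu, hA⟩ := hT.surj_isA hCFA hv0 (s := 1 - ‖a‖) (by linarith) (by linarith) a
          (by ring)
        exact ⟨⟨‖a‖ • T u 0, ‖a‖, hapos.le, u, hu, rfl⟩, fun _ => Or.inr ⟨ha0, u, hu, hA, rfl⟩⟩
    · exact ⟨0, fun h => absurd h ha⟩
  choose G hG using hex
  have hG0 : G 0 = 0 := by
    rcases hG 0 (by simp) with h | h
    · exact h.2
    · exact absurd rfl h.1
  have hGne : ∀ a : A, a ≠ 0 → ‖a‖ < 1 →
      ∃ u, ‖u‖ = 1 ∧ IsA T (1 - ‖a‖) u a ∧ (G a : Y) = ‖a‖ • T u 0 := by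
    intro a ha0 ha
    rcases hG a ha with h | h
    · exact absurd h.1 ha0
    · exact h.2
  have hGu : ∀ (u a : A) (s : ℝ), ‖u‖ = 1 → 0 < s → s < 1 → IsA T s u a →
      (G a : Y) = (1 - s) • T u 0 := by
    intro u a s hu hs0 hs1 hA
    have ha : ‖a‖ = 1 - s := hA.1
    have hane : a ≠ 0 := by
      rw [← norm_pos_iff, ha]; linarith
    obtain ⟨u1, hu1, hA1, hy⟩ := hGne a hane (by linarith)
    have h1 : 1 - ‖a‖ = s := by linarith
    rw [h1] at hA1
    have h2 := hT.isA_unique hu hu1 hv0 hs0 hs1 hA hA1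
    rw [hy, ha, h2]
  have hnormG : ∀ a : A, ‖a‖ < 1 → ‖(G a : Y)‖ = ‖a‖ := by
    intro a ha
    by_cases ha0 : a = 0
    · subst ha0
      rw [hG0]; simp
    · obtain ⟨u, hu, _, hy⟩ := hGne a ha0 ha
      rw [hy, norm_smul, norm_norm, hT.norm_A0 u hu, mul_one]
  have hiso : ∀ x y : A, ‖x‖ < 1 → ‖y‖ < 1 → ‖G x - G y‖ = ‖x - y‖ := by
    intro x y hx hy
    by_cases hx0 : x = 0
    · subst hx0
      rw [hG0, zero_sub, zero_sub, norm_neg, norm_neg]
      exact hnormG y hy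
    by_cases hy0 : y = 0
    · subst hy0
      rw [hG0, sub_zero, sub_zero]
      exact hnormG x hx
    obtain ⟨u, hu, hA, hGx⟩ := hGne x hx0 hx
    obtain ⟨u', hu', hA', hGy⟩ := hGne y hy0 hy
    have hxpos : 0 < ‖x‖ := norm_pos_iff.mpr hx0
    have hypos : 0 < ‖y‖ := norm_pos_iff.mpr hy0
    obtain ⟨h1, _⟩ := hT.main_formula (exists_isExt_sep hCFB) hu (s := 1 - ‖x‖) (s' := 1 - ‖y‖)
      (by linarith) (by linarith) (by linarith) (by linarith) hA hA' hu0 hv0
    have e1 : 1 - (1 - ‖x‖) = ‖x‖ := by ring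
    have e2 : 1 - (1 - ‖y‖) = ‖y‖ := by ring
    rw [e1, e2] at h1
    rw [← h1, ← hGx, ← hGy]
    rfl
  have hsurj : ∀ y : W, ‖y‖ < 1 → ∃ x : A, ‖x‖ < 1 ∧ G x = y := by
    rintro ⟨y, r, hr, u, hu, rfl⟩ hy
    have hyr : r < 1 := by
      have h1 : ‖r • T u 0‖ < 1 := hy
      rwa [norm_smul, hT.norm_A0 u hu, mul_one, Real.norm_of_nonneg hr] at h1
    rcases hr.eq_or_lt with h0 | hpos
    · refine ⟨0, by simp, ?_⟩
      rw [hG0]
      ext
      simp [← h0]
    · obtain ⟨a, hA⟩ := hT.exists_isA u hu hv0 (s := 1 - r) (by linarith) (by linarith)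
      have hnorm : ‖a‖ = r := by rw [hA.1]; ring
      refine ⟨a, by linarith, ?_⟩
      ext
      rw [hGu u a (1 - r) hu (by linarith) (by linarith) hA]
      have e1 : 1 - (1 - r) = r := by ring
      rw [e1]
  obtain ⟨L, hL, hGL⟩ := mazur_ulam_ball G hG0 hiso hsurj
  refine ⟨W.subtypeL.comp L, fun a => ?_, fun u hu => ?_⟩
  · simpa using hL a
  · -- approximation
    have hbound : ∀ s : ℝ, 0 < s → s < 1 → ‖T u 0 - L u‖ ≤ 2 * s := by
      intro s hs0 hs1
      obtain ⟨a, hA⟩ := hT.exists_isA u hu hv0 hs0 hs1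
      have ha1 : ‖a‖ < 1 := by rw [hA.1]; linarith
      have h1 : (G a : Y) = (1 - s) • T u 0 := hGu u a s hu hs0 hs1 hA
      rw [hGL a ha1] at h1
      have h2 : T u 0 - L u = (T u 0 - (L a : Y)) + ((L a : Y) - (L u : Y)) := by abel
      have h3 : ‖T u 0 - (L a : Y)‖ = s := by
        rw [h1]
        have h4 : T u 0 - (1 - s) • T u 0 = s • T u 0 := by module
        rw [h4, norm_smul, hT.norm_A0 u hu, mul_one, Real.norm_of_nonneg hs0.le]
      have h5 : ‖(L a : Y) - (L u : Y)‖ = s := by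
        have h6 : (L a : Y) - (L u : Y) = ((L (a - u) : W) : Y) := by simp
        rw [h6, Submodule.norm_coe, hL, hA.2.1]
      rw [h2]
      have := norm_add_le (T u 0 - (L a : Y)) ((L a : Y) - (L u : Y))
      linarith
    have h0 : ‖T u 0 - L u‖ = 0 := by
      apply le_antisymm _ (norm_nonneg _)
      by_contra hne
      push Not at hne
      set δ := ‖T u 0 - L u‖ with hδ
      have h1 := hbound (min (δ / 4) (1 / 2)) (lt_min (by linarith) (by norm_num))
        (lt_of_le_of_lt (min_le_right _ _) (by norm_num))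
      have h2 : min (δ / 4) (1 / 2) ≤ δ / 4 := min_le_left _ _
      linarith
    have := sub_eq_zero.mp (norm_eq_zero.mp h0)
    simpa using this

end SphereIso

/-- A point of the open ball reaches the unit sphere along any nonzero direction. -/
theorem exists_line_hit {E : Type*} [NormedAddCommGroup E] [NormedSpace ℝ E] (a d : E)
    (ha : ‖a‖ < 1) (hd : d ≠ 0) : ∃ l : ℝ, 0 < l ∧ ‖a + l • d‖ = 1 := by
  have hdpos : 0 < ‖d‖ := norm_pos_iff.mpr hd
  set M : ℝ := (1 + ‖a‖) / ‖d‖ with hM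
  have hMpos : 0 < M := by positivity
  have hcont : Continuous fun l : ℝ => ‖a + l • d‖ := by fun_prop
  have h0 : ‖a + (0:ℝ) • d‖ ≤ 1 := by simp [ha.le]
  have h1 : (1:ℝ) ≤ ‖a + M • d‖ := by
    have h2 := norm_sub_norm_le (M • d) (-a)
    rw [sub_neg_eq_add, norm_neg, norm_smul, Real.norm_of_nonneg hMpos.le, add_comm] at h2
    have h3 : M * ‖d‖ = 1 + ‖a‖ := by
      rw [hM]; field_simp
    linarith
  obtain ⟨l, hl, hl2⟩ := intermediate_value_Icc hMpos.le hcont.continuousOn ⟨h0, h1⟩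
  refine ⟨l, ?_, hl2⟩
  rcases hl.1.eq_or_lt with h | h
  · rw [← h] at hl2
    simp at hl2
    linarith
  · exact h

/-- A point is determined by its distances to the unit sphere. -/
theorem determination {E : Type*} [NormedAddCommGroup E] [NormedSpace ℝ E] {a a' : E}
    (h1 : ‖a‖ ≤ ‖a'‖) (h2 : ‖a'‖ ≤ 1)
    (h : ∀ u : E, ‖u‖ = 1 → ‖a' - u‖ = ‖a - u‖ + (‖a'‖ - ‖a‖)) : a = a' := by
  by_contra hne
  have hd : a' - a ≠ 0 := sub_ne_zero.mpr (Ne.symm hne)
  have hdpos : 0 < ‖a' - a‖ := norm_pos_iff.mpr hd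
  rcases (h1.trans h2).eq_or_lt with ha1 | ha1
  · have h3 := h a ha1
    rw [sub_self, norm_zero] at h3
    have h4 : ‖a'‖ = 1 := le_antisymm h2 (by rw [← ha1]; exact h1)
    rw [h4, ha1] at h3
    simp only [sub_self, add_zero] at h3
    exact hd (norm_eq_zero.mp h3)
  · obtain ⟨μ, hμ, hμ1⟩ := exists_line_hit a (-(a' - a)) ha1 (neg_ne_zero.mpr hd)
    obtain ⟨l, hl, hl1⟩ := exists_line_hit a (a' - a) ha1 hd
    have e1 := h _ hμ1
    have e2 := h _ hl1
    have f1 : a' - (a + μ • -(a' - a)) = (1 + μ) • (a' - a) := by module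
    have f2 : a - (a + μ • -(a' - a)) = μ • (a' - a) := by module
    have f3 : a' - (a + l • (a' - a)) = (1 - l) • (a' - a) := by module
    have f4 : a - (a + l • (a' - a)) = (-l) • (a' - a) := by module
    rw [f1, f2, norm_smul, norm_smul, Real.norm_of_nonneg (by linarith),
      Real.norm_of_nonneg hμ.le] at e1
    rw [f3, f4, norm_smul, norm_smul, norm_neg, Real.norm_of_nonneg hl.le] at e2
    have hκ : ‖a'‖ - ‖a‖ = ‖a' - a‖ := by linarith
    rw [hκ] at e2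
    have h5 : |1 - l| * ‖a' - a‖ = (l + 1) * ‖a' - a‖ := by
      rw [Real.norm_eq_abs] at e2
      linarith
    have h6 : |1 - l| = l + 1 := mul_right_cancel₀ hdpos.ne' h5
    have h7 : |1 - l| < l + 1 := by
      rw [abs_lt]; constructor <;> linarith
    linarith

/-- The symmetric form of the determination lemma. -/
theorem determination' {E : Type*} [NormedAddCommGroup E] [NormedSpace ℝ E] {a a' : E}
    (h1 : ‖a‖ ≤ 1) (h2 : ‖a'‖ ≤ 1)
    (h : ∀ u : E, ‖u‖ = 1 → ‖a' - u‖ = ‖a - u‖ + (‖a'‖ - ‖a‖)) : a = a' := by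
  rcases le_total ‖a‖ ‖a'‖ with hle | hle
  · exact determination hle h2 h
  · refine (determination hle h1 (fun u hu => ?_)).symm
    have := h u hu
    linarith

namespace SphereIso

variable {T : A → B → Y} (hT : SphereIso T)
include hT

/-- The final formula, given linear maps on the two summands. -/
theorem final_formula (LA : A →L[ℝ] Y) (LB : B →L[ℝ] Y)
    (hLA : ∀ a, ‖LA a‖ = ‖a‖) (hLB : ∀ b, ‖LB b‖ = ‖b‖)
    (hTA : ∀ u, ‖u‖ = 1 → T u 0 = LA u) (hTB : ∀ v, ‖v‖ = 1 → T 0 v = LB v) :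
    (∀ a b, ‖LA a + LB b‖ = ‖a‖ + ‖b‖) ∧ ∀ a b, ‖a‖ + ‖b‖ = 1 → T a b = LA a + LB b := by
  have hn : ∀ a b, ‖LA a + LB b‖ = ‖a‖ + ‖b‖ := by
    intro a b
    by_cases ha : a = 0
    · subst ha
      simp [hLB]
    by_cases hb : b = 0
    · subst hb
      simp [hLA]
    have hap : 0 < ‖a‖ := norm_pos_iff.mpr ha
    have hbp : 0 < ‖b‖ := norm_pos_iff.mpr hb
    set u : A := ‖a‖⁻¹ • a with hu
    set v : B := ‖b‖⁻¹ • b with hv
    have hu1 : ‖u‖ = 1 := by
      rw [hu, norm_smul, norm_inv, norm_norm, inv_mul_cancel₀ hap.ne']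
    have hv1 : ‖v‖ = 1 := by
      rw [hv, norm_smul, norm_inv, norm_norm, inv_mul_cancel₀ hbp.ne']
    have h1 : LA a = ‖a‖ • T u 0 := by
      rw [hTA u hu1, hu, map_smul, smul_smul, mul_inv_cancel₀ hap.ne', one_smul]
    have h2 : LB b = ‖b‖ • T 0 v := by
      rw [hTB v hv1, hv, map_smul, smul_smul, mul_inv_cancel₀ hbp.ne', one_smul]
    rw [h1, h2]
    exact hT.norm_comb u v hu1 hv1 hap.le hbp.le
  refine ⟨hn, fun a b hab => ?_⟩
  obtain ⟨a', b', hab', hT'⟩ := hT.surj (LA a + LB b) (by rw [hn, hab])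
  have hd1 : ∀ u : A, ‖u‖ = 1 → ‖a' - u‖ + ‖b'‖ = ‖a - u‖ + ‖b‖ := by
    intro u hu
    have h1 := hT.dist_eq a' b' u 0 hab' (by simp [hu])
    rw [hT', sub_zero, hTA u hu] at h1
    have h2 : LA a + LB b - LA u = LA (a - u) + LB b := by
      rw [map_sub]; abel
    rw [h2, hn] at h1
    exact h1.symm
  have hd2 : ∀ v : B, ‖v‖ = 1 → ‖a'‖ + ‖b' - v‖ = ‖a‖ + ‖b - v‖ := by
    intro v hv
    have h1 := hT.dist_eq a' b' 0 v hab' (by simp [hv])
    rw [hT', sub_zero, hTB v hv] at h1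
    have h2 : LA a + LB b - LB v = LA a + LB (b - v) := by
      rw [map_sub]; abel
    rw [h2, hn] at h1
    exact h1.symm
  have hna : ‖a‖ ≤ 1 := by have := norm_nonneg b; linarith
  have hnb : ‖b‖ ≤ 1 := by have := norm_nonneg a; linarith
  have hna' : ‖a'‖ ≤ 1 := by have := norm_nonneg b'; linarith
  have hnb' : ‖b'‖ ≤ 1 := by have := norm_nonneg a'; linarith
  have haa : a = a' := determination' hna hna' (fun u hu => by
    have := hd1 u hu
    linarith)
  have hbb : b = b' := determination' hnb hnb' (fun v hv => by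
    have := hd2 v hv
    linarith)
  rw [← hT', ← haa, ← hbb]

end SphereIso

/-- Existence of an extreme point under compact faces. -/
theorem exists_isExt [Nontrivial A] (hCF : HasCompactFaces A) : ∃ e : A, IsExt e := by
  obtain ⟨x, hx⟩ := exists_ne (0:A)
  have hp : 0 < ‖x‖ := norm_pos_iff.mpr hx
  obtain ⟨e, _, he⟩ := exists_isExt_mem_face hCF (‖x‖⁻¹ • x)
    (by rw [norm_smul, norm_inv, norm_norm, inv_mul_cancel₀ hp.ne'])
  exact ⟨e, he⟩

/-- The whole theorem for a map on pairs. -/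
theorem SphereIso.main [Nontrivial A] [Nontrivial B] (hCFA : HasCompactFaces A)
    (hCFB : HasCompactFaces B) {T : A → B → Y} (hT : SphereIso T) :
    ∃ (LA : A →L[ℝ] Y) (LB : B →L[ℝ] Y), (∀ a b, ‖LA a + LB b‖ = ‖a‖ + ‖b‖) ∧
      ∀ a b, ‖a‖ + ‖b‖ = 1 → T a b = LA a + LB b := by
  obtain ⟨u0, hu0⟩ := exists_isExt hCFA
  obtain ⟨v0, hv0⟩ := exists_isExt hCFB
  obtain ⟨LA, hLA, hTA⟩ := hT.exists_linear_A hCFA hCFB hu0 hv0
  obtain ⟨LB, hLB, hTB⟩ := hT.swap.exists_linear_A hCFB hCFA hv0 hu0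
  exact ⟨LA, LB, hT.final_formula LA LB hLA hLB hTA hTB⟩

end Vale.Agent.Lib.P084
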