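import Mathlib
import Vale.Agent.Lib.P084.Faces

/-!
General facts on surjective isometries of unit spheres: the map `tau` and the convexity of
images of faces.
-/

namespace Vale.Agent.Lib.P084

open Metric

variable {X Y : Type*} [NormedAddCommGroup X] [NormedSpace ℝ X]
  [NormedAddCommGroup Y] [NormedSpace ℝ Y]

/-- A total map that restricts to a surjective isometry of the unit spheres. -/
structure SphereMap (f : X → Y) : Prop where
  norm_eq : ∀ x, ‖x‖ = 1 → ‖f x‖ = 1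
  dist_eq : ∀ x y, ‖x‖ = 1 → ‖y‖ = 1 → ‖f x - f y‖ = ‖x - y‖
  surj : ∀ y, ‖y‖ = 1 → ∃ x, ‖x‖ = 1 ∧ f x = y

/-- Two vectors in the unit ball with sum of norm two lie on a common supporting functional. -/
theorem exists_common_functional {E : Type*} [NormedAddCommGroup E] [NormedSpace ℝ E] {y z : E}
    (hy : ‖y‖ ≤ 1) (hz : ‖z‖ ≤ 1) (h : ‖y + z‖ = 2) :
    ∃ ψ : StrongDual ℝ E, ‖ψ‖ ≤ 1 ∧ ψ y = 1 ∧ ψ z = 1 := by
  obtain ⟨ψ, hψ, hψ'⟩ := exists_dual_vector'' ℝ (y + z)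
  have h1 : ψ y + ψ z = 2 := by
    rw [← map_add, hψ', h]; simp
  have h2 := (functional_le ψ hψ y).trans hy
  have h3 := (functional_le ψ hψ z).trans hz
  exact ⟨ψ, hψ, by linarith, by linarith⟩

/-- If a functional of norm at most one equals one at `y` and `z` in the unit ball, the norm of the
sum is two. -/
theorem norm_add_eq_two {E : Type*} [NormedAddCommGroup E] [NormedSpace ℝ E] {y z : E}
    (hy : ‖y‖ ≤ 1) (hz : ‖z‖ ≤ 1) (ψ : StrongDual ℝ E) (hψ : ‖ψ‖ ≤ 1) (h1 : ψ y = 1)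
    (h2 : ψ z = 1) : ‖y + z‖ = 2 := by
  apply le_antisymm
  · have := norm_add_le y z
    linarith
  · have := functional_le ψ hψ (y + z)
    rw [map_add, h1, h2] at this
    linarith

/-- `IsTau f τ`: the map `τ` equals the map `x ↦ f⁻¹ (- f (- x))` on the unit sphere. -/
def IsTau (f : X → Y) (τ : X → X) : Prop := ∀ x, ‖x‖ = 1 → ‖τ x‖ = 1 ∧ f (τ x) = -f (-x)

namespace SphereMap

section basic

variable {f : X → Y} (hf : SphereMap f)
include hf

theorem inj {x y : X} (hx : ‖x‖ = 1) (hy : ‖y‖ = 1) (h : f x = f y) : x = y := by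
  have := hf.dist_eq x y hx hy
  rw [h, sub_self, norm_zero] at this
  exact sub_eq_zero.mp (norm_eq_zero.mp this.symm)

theorem exists_tau : ∃ τ : X → X, IsTau f τ := by
  have : ∀ x : X, ∃ w : X, ‖x‖ = 1 → ‖w‖ = 1 ∧ f w = -f (-x) := by
    intro x
    by_cases hx : ‖x‖ = 1
    · obtain ⟨w, hw, hfw⟩ := hf.surj (-f (-x))
        (by rw [norm_neg]; exact hf.norm_eq _ (by rwa [norm_neg]))
      exact ⟨w, fun _ => ⟨hw, hfw⟩⟩
    · exact ⟨0, fun h => absurd h hx⟩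
  choose τ hτ using this
  exact ⟨τ, hτ⟩

end basic

section tau

variable {f : X → Y} (hf : SphereMap f) {τ : X → X} (hτ : IsTau f τ)
include hf hτ

theorem tau_dist {x y : X} (hx : ‖x‖ = 1) (hy : ‖y‖ = 1) : ‖τ x - τ y‖ = ‖x - y‖ := by
  rw [← hf.dist_eq _ _ (hτ x hx).1 (hτ y hy).1, (hτ x hx).2, (hτ y hy).2]
  have h1 : ‖-x‖ = 1 := by rwa [norm_neg]
  have h2 : ‖-y‖ = 1 := by rwa [norm_neg]
  have h3 := hf.dist_eq (-x) (-y) h1 h2
  have h4 : -f (-x) - -f (-y) = -(f (-x) - f (-y)) := by abel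
  rw [h4, norm_neg, h3]
  have h5 : -x - -y = -(x - y) := by abel
  rw [h5, norm_neg]

theorem tau_add {x : X} (hx : ‖x‖ = 1) : ‖τ x + x‖ = 2 := by
  have h1 : ‖-x‖ = 1 := by rwa [norm_neg]
  have h2 := hf.dist_eq (τ x) (-x) (hτ x hx).1 h1
  rw [(hτ x hx).2] at h2
  have h3 : -f (-x) - f (-x) = (-2:ℝ) • f (-x) := by module
  rw [h3, norm_smul, hf.norm_eq _ h1, sub_neg_eq_add] at h2
  rw [← h2]; norm_num

theorem tau_inv {z : X} (hz : ‖z‖ = 1) : τ (-τ (-z)) = z := by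
  have h1 : ‖-z‖ = 1 := by rwa [norm_neg]
  have h2 := hτ (-z) h1
  have h3 : ‖-τ (-z)‖ = 1 := by rw [norm_neg]; exact h2.1
  have h4 := hτ _ h3
  apply hf.inj h4.1 hz
  rw [h4.2, neg_neg, h2.2, neg_neg, neg_neg]

/-- The main general fact: every functional norming `x` also norms `τ x`. -/
theorem tau_mem_face {x : X} (hx : ‖x‖ = 1) (φ : StrongDual ℝ X) (hφ : ‖φ‖ ≤ 1) (hφx : φ x = 1) :
    φ (τ x) = 1 := by
  obtain ⟨e, he⟩ : ∃ e, e = τ x := ⟨_, rfl⟩
  rw [← he]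
  have he1 : ‖e‖ = 1 := by rw [he]; exact (hτ x hx).1
  have hle : φ e ≤ 1 := by
    have := functional_le φ hφ e
    rwa [he1] at this
  by_contra hne
  obtain ⟨c, hc⟩ : ∃ c, c = 1 - φ e := ⟨_, rfl⟩
  have hcpos : 0 < c := by
    have : φ e < 1 := lt_of_le_of_ne hle hne
    linarith
  obtain ⟨t, ht⟩ : ∃ t, t = c / 8 := ⟨_, rfl⟩
  have htpos : 0 < t := by rw [ht]; positivity
  obtain ⟨p, hp⟩ : ∃ p, p = x + t • (x - e) := ⟨_, rfl⟩
  have hpx : ‖p - x‖ ≤ 2 * t := by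
    have h1 : p - x = t • (x - e) := by rw [hp]; abel
    have h2 := norm_sub_le x e
    rw [hx, he1] at h2
    rw [h1, norm_smul, Real.norm_of_nonneg htpos.le]
    nlinarith
  have hpn : 1 + t * c ≤ ‖p‖ := by
    have := functional_le φ hφ p
    rw [hp, map_add, map_smul, map_sub, hφx, smul_eq_mul, ← hp] at this
    have h2 : t * (1 - φ e) = t * c := by rw [hc]
    linarith
  have hp0 : 0 < ‖p‖ := by nlinarith
  obtain ⟨xt, hxt⟩ : ∃ xt, xt = ‖p‖⁻¹ • p := ⟨_, rfl⟩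
  have hxt1 : ‖xt‖ = 1 := by rw [hxt, norm_smul, norm_inv, norm_norm, inv_mul_cancel₀ hp0.ne']
  have hpeq : ‖p‖ • xt = p := by rw [hxt, smul_smul, mul_inv_cancel₀ hp0.ne', one_smul]
  obtain ⟨ψ, hψ, hψ1, hψ2⟩ := exists_common_functional (hτ xt hxt1).1.le hxt1.le
    (hf.tau_add hτ hxt1)
  have hψp : ψ p = ‖p‖ := by
    rw [← hpeq, map_smul, hψ2, smul_eq_mul, mul_one, hpeq]
  have hψx := functional_le ψ hψ x
  rw [hx] at hψx
  have hexpand : ψ p = (1 + t) * ψ x - t * ψ e := by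
    rw [hp, map_add, map_smul, map_sub, smul_eq_mul]; ring
  have hψe : ψ e ≤ 1 - c := by
    have h3 : t * ψ e ≤ t * (1 - c) := by nlinarith
    exact le_of_mul_le_mul_left h3 htpos
  have hdist : ‖τ xt - e‖ = ‖xt - x‖ := by rw [he]; exact hf.tau_dist hτ hxt1 hx
  have hxtx : ‖xt - x‖ ≤ 4 * t := by
    have h1 : xt - p = (1 - ‖p‖) • xt := by
      have h4 : (1 - ‖p‖) • xt = xt - ‖p‖ • xt := by module
      rw [h4, hpeq]
    have h2 : ‖xt - p‖ ≤ 2 * t := by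
      rw [h1, norm_smul, hxt1, mul_one, Real.norm_eq_abs]
      have h5 := abs_norm_sub_norm_le p x
      rw [hx] at h5
      rw [abs_sub_comm]
      linarith
    have h3 : xt - x = (xt - p) + (p - x) := by abel
    rw [h3]
    have := norm_add_le (xt - p) (p - x)
    linarith
  have hfin := functional_le ψ hψ (τ xt - e)
  rw [map_sub, hψ1, hdist] at hfin
  rw [ht] at hxtx
  linarith

end tau

section convex

variable {f : X → Y} (hf : SphereMap f)
include hf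

/-- The image of a closed set of unit vectors that is the common set of far points of a dense
subset is convex. -/
theorem convex_image (Q Good : Set X) (hQ1 : ∀ z ∈ Q, ‖z‖ = 1) (hQc : IsClosed Q)
    (hG : Good ⊆ Q) (hdense : ∀ p ∈ Q, ∀ ε > 0, ∃ z ∈ Good, ‖z - p‖ < ε)
    (hgood : ∀ z ∈ Good, ∀ w, ‖w‖ = 1 → (‖w + z‖ = 2 ↔ w ∈ Q)) : Convex ℝ (f '' Q) := by
  obtain ⟨τ, hτ⟩ := hf.exists_tau
  have hneg : ∀ x : X, ‖x‖ = 1 → ‖-x‖ = 1 := fun x hx => by rwa [norm_neg]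
  -- `σ` is the inverse of `τ`
  have hσ1 : ∀ z ∈ Good, -τ (-z) ∈ Q := by
    intro z hz
    have hz1 := hQ1 z (hG hz)
    have h1 := hτ (-z) (hneg z hz1)
    refine (hgood z hz (-τ (-z)) (by rw [norm_neg]; exact h1.1)).mp ?_
    have h2 := hf.tau_add hτ (hneg z hz1)
    have h3 : -τ (-z) + z = -(τ (-z) + -z) := by abel
    rw [h3, norm_neg, h2]
  have hτ1 : ∀ z ∈ Good, τ z ∈ Q := by
    intro z hz
    have hz1 := hQ1 z (hG hz)
    exact (hgood z hz (τ z) (hτ z hz1).1).mp (hf.tau_add hτ hz1)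
  have hσQ : ∀ p ∈ Q, -τ (-p) ∈ Q := by
    intro p hp
    have hp1 := hQ1 p hp
    rw [← hQc.closure_eq, Metric.mem_closure_iff]
    intro ε hε
    obtain ⟨z, hz, hzp⟩ := hdense p hp ε hε
    refine ⟨-τ (-z), hσ1 z hz, ?_⟩
    rw [dist_eq_norm]
    have h3 : -τ (-p) - -τ (-z) = τ (-z) - τ (-p) := by abel
    rw [h3, hf.tau_dist hτ (hneg z (hQ1 z (hG hz))) (hneg p hp1)]
    have h4 : -z - -p = -(z - p) := by abel
    rw [h4, norm_neg]
    exact hzp
  have hdenseτ : ∀ p ∈ Q, ∀ ε > 0, ∃ z ∈ Good, ‖τ z - p‖ < ε := by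
    intro p hp ε hε
    have hp1 := hQ1 p hp
    obtain ⟨z, hz, hzq⟩ := hdense _ (hσQ p hp) ε hε
    refine ⟨z, hz, ?_⟩
    have h5 : τ (-τ (-p)) = p := hf.tau_inv hτ hp1
    have h6 : ‖-τ (-p)‖ = 1 := hQ1 _ (hσQ p hp)
    have h7 := hf.tau_dist hτ (hQ1 z (hG hz)) h6
    rw [h5] at h7
    rw [h7]
    exact hzq
  -- star-shapedness
  have hstar : ∀ z ∈ Good, ∀ w ∈ Q, ∀ a b : ℝ, 0 ≤ a → 0 ≤ b → a + b = 1 →
      ∃ w' ∈ Q, f w' = a • f w + b • f (τ z) := by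
    intro z hz w hw a b ha hb hab
    have hz1 := hQ1 z (hG hz)
    have hw1 := hQ1 w hw
    have hc := (hτ z hz1)
    have hcn : ‖f (τ z)‖ = 1 := hf.norm_eq _ hc.1
    have hyn : ‖f w‖ = 1 := hf.norm_eq _ hw1
    have h1 : ‖f w + f (τ z)‖ = 2 := by
      have h2 := hf.dist_eq w (-z) hw1 (hneg z hz1)
      have h3 := (hgood z hz w hw1).mpr hw
      rw [sub_neg_eq_add, h3] at h2
      rw [hc.2, ← sub_eq_add_neg]
      exact h2
    obtain ⟨ψ, hψ, hψ1, hψ2⟩ := exists_common_functional hyn.le hcn.le h1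
    have hys : ψ (a • f w + b • f (τ z)) = 1 := by
      rw [map_add, map_smul, map_smul, hψ1, hψ2, smul_eq_mul, smul_eq_mul]; linarith
    have hysn : ‖a • f w + b • f (τ z)‖ ≤ 1 := by
      have := norm_add_le (a • f w) (b • f (τ z))
      rw [norm_smul, norm_smul, hyn, hcn, Real.norm_of_nonneg ha, Real.norm_of_nonneg hb] at this
      linarith
    have hysn2 : ‖a • f w + b • f (τ z)‖ = 1 := by
      apply le_antisymm hysn
      have := functional_le ψ hψ (a • f w + b • f (τ z))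
      rwa [hys] at this
    obtain ⟨w', hw', hfw'⟩ := hf.surj _ hysn2
    refine ⟨w', ?_, hfw'⟩
    refine (hgood z hz w' hw').mp ?_
    have h2 := hf.dist_eq w' (-z) hw' (hneg z hz1)
    rw [sub_neg_eq_add] at h2
    rw [← h2, hfw', sub_eq_add_neg, ← hc.2]
    exact norm_add_eq_two hysn hcn.le ψ hψ hys hψ2
  -- conclusion
  rintro _ ⟨w, hw, rfl⟩ _ ⟨p, hp, rfl⟩ a b ha hb hab
  have hw1 := hQ1 w hw
  have hp1 := hQ1 p hp
  have happrox : ∀ ε > 0, ∃ w' ∈ Q, ‖f w' - (a • f w + b • f p)‖ < ε := by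
    intro ε hε
    obtain ⟨z, hz, hzp⟩ := hdenseτ p hp ε hε
    obtain ⟨w', hw', hfw'⟩ := hstar z hz w hw a b ha hb hab
    refine ⟨w', hw', ?_⟩
    rw [hfw']
    have h1 : a • f w + b • f (τ z) - (a • f w + b • f p) = b • (f (τ z) - f p) := by module
    rw [h1, norm_smul, Real.norm_of_nonneg hb,
      hf.dist_eq _ _ (hτ z (hQ1 z (hG hz))).1 hp1]
    have hb1 : b ≤ 1 := by linarith
    have := norm_nonneg (τ z - p)
    nlinarith
  have hnorm : ‖a • f w + b • f p‖ = 1 := by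
    by_contra hne
    have hpos : 0 < |‖a • f w + b • f p‖ - 1| := abs_pos.mpr (sub_ne_zero.mpr hne)
    obtain ⟨w', hw', h⟩ := happrox _ hpos
    have h1 := abs_norm_sub_norm_le (f w') (a • f w + b • f p)
    rw [hf.norm_eq _ (hQ1 w' hw'), abs_sub_comm] at h1
    linarith
  obtain ⟨w0, hw0, hfw0⟩ := hf.surj _ hnorm
  refine ⟨w0, ?_, hfw0⟩
  rw [← hQc.closure_eq, Metric.mem_closure_iff]
  intro ε hε
  obtain ⟨w', hw', h⟩ := happrox ε hε
  refine ⟨w', hw', ?_⟩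
  rw [dist_eq_norm, norm_sub_rev, ← hf.dist_eq _ _ (hQ1 w' hw') hw0, hfw0]
  exact h

end convex

end SphereMap

end Vale.Agent.Lib.P084
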