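import Mathlib
import Vale.Agent.Lib.P084.Tau

/-!
Exposed points and smooth points of the unit ball of a finite-dimensional normed space.
-/

namespace Vale.Agent.Lib.P084

open Metric

variable {E : Type*} [NormedAddCommGroup E] [NormedSpace ℝ E]

/-- An exposed point of the closed unit ball. -/
def IsExposedPt (u : E) : Prop :=
  ‖u‖ = 1 ∧ ∃ φ : StrongDual ℝ E, ‖φ‖ ≤ 1 ∧ φ u = 1 ∧ ∀ w, ‖w‖ ≤ 1 → φ w = 1 → w = u

/-- A smooth point: at most one norming functional. -/
def IsSmoothPt (u : E) : Prop :=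
  ∀ φ ψ : StrongDual ℝ E, ‖φ‖ ≤ 1 → ‖ψ‖ ≤ 1 → φ u = 1 → ψ u = 1 → φ = ψ

theorem IsExposedPt.neg {u : E} (hu : IsExposedPt u) : IsExposedPt (-u) := by
  obtain ⟨h1, φ, hφ, hφu, hex⟩ := hu
  refine ⟨by rw [norm_neg]; exact h1, -φ, by rw [norm_neg]; exact hφ, by simp [hφu], ?_⟩
  intro w hw hφw
  have := hex (-w) (by rw [norm_neg]; exact hw) (by
    rw [map_neg]
    simpa using hφw)
  rw [← this, neg_neg]

theorem exposed_span [FiniteDimensional ℝ E] :
    Submodule.span ℝ {u : E | IsExposedPt u} = ⊤ := by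
  by_contra hne
  set W := Submodule.span ℝ {u : E | IsExposedPt u} with hW
  obtain ⟨η, hη0, hηW⟩ := Submodule.exists_le_ker_of_lt_top W (lt_top_iff_ne_top.mpr hne)
  -- a point in the unit ball on which `η` is positive
  obtain ⟨w0, hw0n, hw0⟩ : ∃ w0 : E, ‖w0‖ ≤ 1 ∧ 0 < η w0 := by
    obtain ⟨x, hx⟩ : ∃ x, η x ≠ 0 := by
      by_contra hall
      push Not at hall
      exact hη0 (LinearMap.ext hall)
    have hx0 : x ≠ 0 := by
      rintro rfl
      exact hx (map_zero η)
    have hp : 0 < ‖x‖ := norm_pos_iff.mpr hx0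
    set y : E := ‖x‖⁻¹ • x with hy
    have hy1 : ‖y‖ = 1 := by
      rw [hy, norm_smul, norm_inv, norm_norm, inv_mul_cancel₀ hp.ne']
    have hηy : η y ≠ 0 := by
      rw [hy, map_smul, smul_eq_mul]
      exact mul_ne_zero (inv_ne_zero hp.ne') hx
    rcases lt_or_gt_of_ne hηy with h | h
    · exact ⟨-y, by rw [norm_neg, hy1], by rw [map_neg]; linarith⟩
    · exact ⟨y, hy1.le, h⟩
  have : ProperSpace E := FiniteDimensional.proper_real E
  -- Euclidean structure
  let e : E ≃L[ℝ] EuclideanSpace ℝ (Fin (Module.finrank ℝ E)) := toEuclidean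
  let g : StrongDual ℝ (EuclideanSpace ℝ (Fin (Module.finrank ℝ E))) :=
    (LinearMap.toContinuousLinearMap η).comp (e.symm : EuclideanSpace ℝ (Fin (Module.finrank ℝ E)) →L[ℝ] E)
  let n := (InnerProductSpace.toDual ℝ (EuclideanSpace ℝ (Fin (Module.finrank ℝ E)))).symm g
  have hn : ∀ x : E, inner ℝ n (e x) = η x := by
    intro x
    have h1 : inner ℝ n (e x) = g (e x) := InnerProductSpace.toDual_symm_apply
    rw [h1]
    simp [g]
  set M : ℝ := ‖(e : E →L[ℝ] EuclideanSpace ℝ (Fin (Module.finrank ℝ E)))‖ with hM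
  have heb : ∀ x : E, ‖x‖ ≤ 1 → ‖e x‖ ≤ M := by
    intro x hx
    have h1 := (e : E →L[ℝ] EuclideanSpace ℝ (Fin (Module.finrank ℝ E))).le_opNorm x
    have h2 : 0 ≤ M := norm_nonneg _
    have h3 : ‖(e : E →L[ℝ] EuclideanSpace ℝ (Fin (Module.finrank ℝ E))) x‖ = ‖e x‖ := rfl
    rw [h3] at h1
    nlinarith
  set R : ℝ := (M ^ 2 + 1) / (2 * η w0) with hR
  have hRpos : 0 < R := by positivity
  -- the farthest point
  let F : E → ℝ := fun x => ‖e x + R • n‖
  have hFcont : Continuous F := by fun_prop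
  obtain ⟨z, hz, hzmax⟩ := (isCompact_closedBall (0:E) 1).exists_isMaxOn
    ⟨0, by simp⟩ hFcont.continuousOn
  have hzn : ‖z‖ ≤ 1 := by simpa using hz
  have hzmax' : ∀ x : E, ‖x‖ ≤ 1 → F x ≤ F z := by
    intro x hx
    exact hzmax (by simpa using hx)
  set d := e z + R • n with hd
  -- the functional
  let ξ : StrongDual ℝ E := (innerSL ℝ d).comp (e : E →L[ℝ] EuclideanSpace ℝ (Fin (Module.finrank ℝ E)))
  have hξ : ∀ x, ξ x = inner ℝ d (e x) := fun x => rfl
  have hstrict : ∀ x : E, ‖x‖ ≤ 1 → ξ x ≤ ξ z ∧ (ξ x = ξ z → x = z) := by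
    intro x hx
    have h1 : F x ≤ ‖d‖ := hzmax' x hx
    set q := e x + R • n with hq
    have h2 : ‖q‖ ≤ ‖d‖ := h1
    have hdiff : q - d = e x - e z := by rw [hq, hd]; abel
    have h3 : ξ x - ξ z = inner ℝ d (q - d) := by
      rw [hξ, hξ, hdiff, inner_sub_right]
    have h4 : ‖q - d‖ ^ 2 = ‖q‖ ^ 2 - 2 * inner ℝ q d + ‖d‖ ^ 2 := norm_sub_sq_real q d
    have h5 : inner ℝ d (q - d) = inner ℝ q d - ‖d‖ ^ 2 := by
      rw [inner_sub_right, real_inner_comm, real_inner_self_eq_norm_sq]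
    have h6 : ‖q‖ ^ 2 ≤ ‖d‖ ^ 2 := by
      have := norm_nonneg q
      nlinarith
    have h7 : inner ℝ q d - ‖d‖ ^ 2 ≤ - ‖q - d‖ ^ 2 / 2 := by
      rw [h4]; linarith
    have h8 := sq_nonneg ‖q - d‖
    constructor
    · linarith
    · intro heq
      have h9 : ‖q - d‖ ^ 2 ≤ 0 := by
        have : ξ x - ξ z = 0 := by linarith
        rw [h3, h5] at this
        linarith
      have h10 : ‖q - d‖ = 0 := by
        have := sq_nonneg ‖q - d‖
        nlinarith [norm_nonneg (q - d)]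
      have h11 : e x = e z := by
        rw [hdiff] at h10
        exact sub_eq_zero.mp (norm_eq_zero.mp h10)
      exact e.injective h11
  -- positivity
  have hmpos : 0 < ξ z := by
    have h1 := hstrict (-z) (by rwa [norm_neg])
    rw [map_neg] at h1
    have h2 : 0 ≤ ξ z := by linarith [h1.1]
    rcases h2.eq_or_lt with h3 | h3
    · exfalso
      -- the functional vanishes at `z`: then `z = 0` and every point of the ball equals `z`
      have hz0 : z = 0 := by
        have h4 : -z = z := h1.2 (by linarith)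
        have h5 : (2:ℝ) • z = 0 := by
          rw [two_smul]
          nth_rw 1 [← h4]
          abel
        exact (smul_eq_zero.mp h5).resolve_left (by norm_num)
      -- compare `w0` and `-w0`
      have h6 := hstrict w0 hw0n
      have h7 := hstrict (-w0) (by rwa [norm_neg])
      rw [map_neg] at h7
      have h8 : ξ w0 = ξ z := by linarith [h6.1, h7.1]
      have h9 := h6.2 h8
      rw [h9, hz0, map_zero] at hw0
      exact lt_irrefl _ hw0
    · exact h3
  set m := ξ z with hm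
  let φ : StrongDual ℝ E := m⁻¹ • ξ
  have hφv : ∀ x, φ x = m⁻¹ * ξ x := fun x => rfl
  have hφle : ∀ x : E, ‖x‖ ≤ 1 → φ x ≤ 1 := by
    intro x hx
    rw [hφv, inv_mul_le_iff₀ hmpos, mul_one]
    exact (hstrict x hx).1
  have hφnorm : ‖φ‖ ≤ 1 := by
    apply ContinuousLinearMap.opNorm_le_of_unit_norm zero_le_one
    intro x hx
    rw [Real.norm_eq_abs, abs_le]
    constructor
    · have := hφle (-x) (by rw [norm_neg, hx])
      rw [map_neg] at this
      linarith
    · exact hφle x hx.le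
  have hφz : φ z = 1 := by
    rw [hφv, inv_mul_cancel₀ hmpos.ne']
  have hexposed : IsExposedPt z := by
    refine ⟨?_, φ, hφnorm, hφz, ?_⟩
    · apply le_antisymm hzn
      have := functional_le φ hφnorm z
      rwa [hφz] at this
    · intro w hw hφw
      apply (hstrict w hw).2
      rw [hφv] at hφw
      have := congrArg (fun t => m * t) hφw
      simp only [mul_one] at this
      rw [← mul_assoc, mul_inv_cancel₀ hmpos.ne', one_mul] at this
      exact this
  -- contradiction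
  have hηz : η z = 0 := hηW (Submodule.subset_span hexposed)
  have hcmp : F w0 ≤ F z := hzmax' w0 hw0n
  have hsq : ‖e w0 + R • n‖ ^ 2 ≤ ‖e z + R • n‖ ^ 2 := by
    have h1 : ‖e w0 + R • n‖ ≤ ‖e z + R • n‖ := hcmp
    have := norm_nonneg (e w0 + R • n)
    nlinarith
  have i1 : inner ℝ (e w0) n = η w0 := by rw [real_inner_comm]; exact hn w0
  have i2 : inner ℝ (e z) n = 0 := by rw [real_inner_comm, hn z, hηz]
  rw [norm_add_sq_real, norm_add_sq_real, norm_smul, inner_smul_right, inner_smul_right,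
    i1, i2] at hsq
  have hM2 : ‖e z‖ ^ 2 ≤ M ^ 2 := by
    have h1 := heb z hzn
    have := norm_nonneg (e z)
    nlinarith
  have hmain : R * η w0 * 2 = M ^ 2 + 1 := by
    rw [hR]
    field_simp
  nlinarith [sq_nonneg ‖e w0‖]

theorem smooth_dense [FiniteDimensional ℝ E] (u : E) (hu : ‖u‖ = 1) {ε : ℝ} (hε : 0 < ε) :
    ∃ u' : E, ‖u'‖ = 1 ∧ ‖u' - u‖ < ε ∧ IsSmoothPt u' := by
  have hdense := dense_differentiableAt_norm (E := E)
  set δ : ℝ := min (ε / 2) (1 / 2) with hδ
  have hδpos : 0 < δ := lt_min (by positivity) (by norm_num)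
  obtain ⟨x, hxu, hxmem⟩ := Metric.dense_iff.mp hdense u δ hδpos
  have hxu' : ‖x - u‖ < δ := by
    rw [mem_ball, dist_eq_norm] at hxu
    exact hxu
  have hd1 : δ ≤ ε / 2 := min_le_left _ _
  have hd2 : δ ≤ 1 / 2 := min_le_right _ _
  have hxn : |‖x‖ - 1| < δ := by
    have := abs_norm_sub_norm_le x u
    rw [hu] at this
    linarith
  have hxpos : 0 < ‖x‖ := by
    have := (abs_lt.mp hxn).1
    linarith
  refine ⟨‖x‖⁻¹ • x, by rw [norm_smul, norm_inv, norm_norm, inv_mul_cancel₀ hxpos.ne'], ?_, ?_⟩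
  · have h1 : ‖x‖⁻¹ • x - x = (‖x‖⁻¹ - 1) • x := by module
    have h2 : ‖‖x‖⁻¹ • x - x‖ = |‖x‖ - 1| := by
      rw [h1, norm_smul, Real.norm_eq_abs]
      have h3 : ‖x‖⁻¹ - 1 = (1 - ‖x‖) / ‖x‖ := by field_simp
      rw [h3, abs_div, abs_of_pos hxpos, div_mul_cancel₀ _ hxpos.ne', abs_sub_comm]
    have h3 : ‖x‖⁻¹ • x - u = (‖x‖⁻¹ • x - x) + (x - u) := by abel
    rw [h3]
    have h4 := norm_add_le (‖x‖⁻¹ • x - x) (x - u)
    rw [h2] at h4
    linarith
  · -- every norming functional is the derivative of the norm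
    have hxd : DifferentiableAt ℝ (fun y : E => ‖y‖) x := hxmem
    have key : ∀ φ : StrongDual ℝ E, ‖φ‖ ≤ 1 → φ (‖x‖⁻¹ • x) = 1 →
        φ = fderiv ℝ (fun y : E => ‖y‖) x := by
      intro φ hφ hφx
      have hφx' : φ x = ‖x‖ := by
        rw [map_smul, smul_eq_mul] at hφx
        field_simp at hφx
        exact hφx
      have hmin : IsLocalMin (fun y : E => ‖y‖ - φ y) x := by
        apply Filter.Eventually.of_forall
        intro y
        have := functional_le φ hφ y
        simp only [hφx', sub_self]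
        linarith
      have h0 := hmin.fderiv_eq_zero
      have h1 : fderiv ℝ (fun y : E => ‖y‖ - φ y) x = fderiv ℝ (fun y : E => ‖y‖) x - φ := by
        rw [fderiv_fun_sub hxd φ.differentiableAt, φ.fderiv]
      rw [h1, sub_eq_zero] at h0
      exact h0.symm
    intro φ ψ hφ hψ h1 h2
    rw [key φ hφ h1, key ψ hψ h2]

end Vale.Agent.Lib.P084
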