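import Mathlib
import Vale.Agent.Lib.P084.MUBall
import Vale.Agent.Lib.P084.Faces

/-!
Mankiewicz's theorem for convex sets in finite-dimensional normed spaces: an isometry from a convex
set of a finite-dimensional normed space onto a convex set of a normed space is affine.
-/

namespace Vale.Agent.Lib.P084

open Metric

section ext

variable {E : Type*} [NormedAddCommGroup E] [NormedSpace ℝ E] [FiniteDimensional ℝ E]

omit [FiniteDimensional ℝ E] in
theorem isExt_of_extreme [Nontrivial E] {v : E} (hv : v ∈ (closedBall (0:E) 1).extremePoints ℝ) :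
    IsExt v := by
  refine ⟨?_, hv⟩
  have hv1 : ‖v‖ ≤ 1 := by simpa using hv.1
  by_contra hne
  have hlt : ‖v‖ < 1 := lt_of_le_of_ne hv1 hne
  have hv2 := mem_extremePoints.mp hv
  by_cases h0 : v = 0
  · obtain ⟨x, hx⟩ := exists_ne (0:E)
    have hxp : 0 < ‖x‖ := norm_pos_iff.mpr hx
    set w : E := ‖x‖⁻¹ • x with hw
    have hw1 : ‖w‖ = 1 := by
      rw [hw, norm_smul, norm_inv, norm_norm, inv_mul_cancel₀ hxp.ne']
    have := hv2.2 w (by simp [hw1]) (-w) (by simp [hw1])
      ⟨1/2, 1/2, by norm_num, by norm_num, by norm_num, by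
        rw [h0]; module⟩
    have h1 : w = v := this.1
    rw [h1, h0, norm_zero] at hw1
    exact zero_ne_one hw1
  · have hp : 0 < ‖v‖ := norm_pos_iff.mpr h0
    set w : E := ‖v‖⁻¹ • v with hw
    have hw1 : ‖w‖ = 1 := by
      rw [hw, norm_smul, norm_inv, norm_norm, inv_mul_cancel₀ hp.ne']
    have := hv2.2 w (by simp [hw1]) (0:E) (by simp)
      ⟨‖v‖, 1 - ‖v‖, hp, by linarith, by ring, by
        rw [hw, smul_zero, add_zero, smul_smul, mul_inv_cancel₀ hp.ne', one_smul]⟩
    have h1 : w = v := this.1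
    have h2 : (0:E) = v := this.2
    exact h0 h2.symm

/-- The extreme points of the unit ball span a finite-dimensional space. -/
theorem span_ext_eq_top : Submodule.span ℝ {v : E | IsExt v} = ⊤ := by
  by_cases hnt : Nontrivial E
  · have hcomp : IsCompact (closedBall (0:E) 1) := isCompact_closedBall _ _
    have hconv : Convex ℝ (closedBall (0:E) 1) := convex_closedBall _ _
    have hKM := closure_convexHull_extremePoints hcomp hconv
    set W := Submodule.span ℝ {v : E | IsExt v} with hW
    have hsub : (closedBall (0:E) 1).extremePoints ℝ ⊆ (W : Set E) := by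
      intro v hv
      exact Submodule.subset_span (isExt_of_extreme hv)
    have hclosed : IsClosed (W : Set E) := Submodule.closed_of_finiteDimensional W
    have hball : closedBall (0:E) 1 ⊆ (W : Set E) := by
      rw [← hKM]
      apply closure_minimal _ hclosed
      exact convexHull_min hsub W.convex
    rw [eq_top_iff]
    intro x _
    by_cases hx : x = 0
    · rw [hx]; exact W.zero_mem
    · have hp : 0 < ‖x‖ := norm_pos_iff.mpr hx
      have h1 : ‖x‖⁻¹ • x ∈ W := hball (by
        simp [norm_smul, inv_mul_cancel₀ hp.ne'])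
      have h2 := W.smul_mem ‖x‖ h1
      rwa [smul_smul, mul_inv_cancel₀ hp.ne', one_smul] at h2
  · have : Subsingleton E := not_nontrivial_iff_subsingleton.mp hnt
    rw [eq_top_iff]
    intro x _
    rw [Subsingleton.elim x 0]
    exact Submodule.zero_mem _

/-- A finite family of extreme points with controlled coordinates. -/
theorem exists_ext_coords : ∃ (n : ℕ) (e : Fin n → E) (C : ℝ), (∀ i, IsExt (e i)) ∧
    ∀ h : E, ∃ c : Fin n → ℝ, h = ∑ i, c i • e i ∧ ∑ i, |c i| ≤ C * ‖h‖ := by
  obtain ⟨b0, hb0, hspan, hli⟩ := exists_linearIndependent ℝ {v : E | IsExt v}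
  rw [span_ext_eq_top] at hspan
  have hfin : b0.Finite := hli.setFinite
  let B : Module.Basis b0 ℝ E := Module.Basis.mk hli (by
    rw [Subtype.range_coe, hspan])
  let _ : Fintype b0 := hfin.fintype
  let B' : Module.Basis (Fin (Fintype.card b0)) ℝ E := B.reindex (Fintype.equivFin b0)
  let Φ : E →L[ℝ] (Fin (Fintype.card b0) → ℝ) :=
    LinearMap.toContinuousLinearMap (B'.equivFun : E →ₗ[ℝ] (Fin (Fintype.card b0) → ℝ))
  refine ⟨Fintype.card b0, fun i => B' i, (Fintype.card b0 : ℝ) * ‖Φ‖, ?_, ?_⟩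
  · intro i
    have : B' i = (B ((Fintype.equivFin b0).symm i) : E) := by simp [B']
    show IsExt (B' i)
    rw [this]
    have h2 : B ((Fintype.equivFin b0).symm i) = (((Fintype.equivFin b0).symm i : b0) : E) := by
      simp [B]
    rw [h2]
    exact hb0 ((Fintype.equivFin b0).symm i).2
  · intro h
    refine ⟨fun i => B'.repr h i, (B'.sum_repr h).symm, ?_⟩
    have hbound : ∀ i, |B'.repr h i| ≤ ‖Φ‖ * ‖h‖ := by
      intro i
      have h1 : B'.repr h i = Φ h i := by simp [Φ]
      rw [h1]
      exact (norm_le_pi_norm (Φ h) i).trans (Φ.le_opNorm h)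
    calc ∑ i, |B'.repr h i| ≤ ∑ _i : Fin (Fintype.card b0), ‖Φ‖ * ‖h‖ :=
          Finset.sum_le_sum fun i _ => hbound i
      _ = (Fintype.card b0 : ℝ) * ‖Φ‖ * ‖h‖ := by
          simp [Finset.sum_const, Finset.card_univ, mul_assoc]

end ext

section core

variable {E F : Type*} [NormedAddCommGroup E] [NormedSpace ℝ E] [FiniteDimensional ℝ E]
  [NormedAddCommGroup F] [NormedSpace ℝ F]

omit [FiniteDimensional ℝ E] in
/-- An isometry onto a convex set is affine along segments in the direction of an extreme point. -/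
theorem affine_along_ext (Q : Set E) (K : Set F) (hK : Convex ℝ K) (f : E → F)
    (hiso : ∀ x ∈ Q, ∀ y ∈ Q, ‖f x - f y‖ = ‖x - y‖) (himg : f '' Q = K)
    {p q e : E} (hp : p ∈ Q) (hq : q ∈ Q) (he : IsExt e) {ρ : ℝ} (hρ : 0 < ρ) (hpq : q - p = ρ • e)
    {t : ℝ} (ht0 : 0 < t) (ht1 : t < 1) :
    f (p + t • (q - p)) = (1 - t) • f p + t • f q := by
  have hw : (1 - t) • f p + t • f q ∈ K :=
    hK (himg ▸ Set.mem_image_of_mem f hp) (himg ▸ Set.mem_image_of_mem f hq)
      (by linarith) ht0.le (by ring)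
  rw [← himg] at hw
  obtain ⟨z, hz, hfz⟩ := hw
  have hnpq : ‖q - p‖ = ρ := by
    rw [hpq, norm_smul, he.1, mul_one, Real.norm_of_nonneg hρ.le]
  have hfpq : ‖f q - f p‖ = ρ := by rw [hiso q hq p hp, hnpq]
  have h1 : ‖z - p‖ = t * ρ := by
    rw [← hiso z hz p hp, hfz]
    have : (1 - t) • f p + t • f q - f p = t • (f q - f p) := by module
    rw [this, norm_smul, Real.norm_of_nonneg ht0.le, hfpq]
  have h2 : ‖z - q‖ = (1 - t) * ρ := by
    rw [← hiso z hz q hq, hfz]
    have : (1 - t) • f p + t • f q - f q = (-(1 - t)) • (f q - f p) := by module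
    rw [this, norm_smul, norm_neg, Real.norm_of_nonneg (by linarith), hfpq]
  set b : E := ρ⁻¹ • (z - p) with hb
  have hb1 : ‖b‖ = t := by
    rw [hb, norm_smul, norm_inv, Real.norm_of_nonneg hρ.le, h1]
    field_simp
  have hb2 : ‖b - e‖ = 1 - t := by
    have h3 : b - e = ρ⁻¹ • (z - q) := by
      have h4 : z - q = (z - p) - ρ • e := by rw [← hpq]; abel
      rw [h4, hb, smul_sub (ρ⁻¹) (z - p) (ρ • e), smul_smul, inv_mul_cancel₀ hρ.ne', one_smul]
    rw [h3, norm_smul, norm_inv, Real.norm_of_nonneg hρ.le, h2]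
    field_simp
  have hb3 := he.eq_smul ht0 ht1 hb1 hb2
  have hz2 : z = p + t • (q - p) := by
    have h5 : z - p = ρ • b := by
      rw [hb, smul_smul, mul_inv_cancel₀ hρ.ne', one_smul]
    rw [hb3, smul_smul, mul_comm, ← smul_smul, ← hpq] at h5
    rw [← h5]; abel
  rw [← hz2, hfz]

/-- Core of Mankiewicz's theorem, for convex sets with interior points. -/
theorem mank_core (Q : Set E) (K : Set F) (hQ : Convex ℝ Q) (hK : Convex ℝ K)
    (hQi : (interior Q).Nonempty) (hKi : (interior K).Nonempty)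
    (f : E → F) (hiso : ∀ x ∈ Q, ∀ y ∈ Q, ‖f x - f y‖ = ‖x - y‖) (himg : f '' Q = K) :
    ∃ (L : E →L[ℝ] F) (c : F), ∀ x ∈ Q, f x = c + L x := by
  have hfK : ∀ x ∈ Q, f x ∈ K := fun x hx => himg ▸ Set.mem_image_of_mem f hx
  -- a point of the interior of `Q` sent into the interior of `K`
  obtain ⟨z0, hz0, hfz0⟩ : ∃ z0 ∈ interior Q, f z0 ∈ interior K := by
    obtain ⟨q, hq⟩ := hQi
    have hqQ := interior_subset hq
    have h1 : f q ∈ closure (interior K) := by
      rw [hK.closure_interior_eq_closure_of_nonempty_interior hKi]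
      exact subset_closure (hfK q hqQ)
    obtain ⟨ε, hε, hball⟩ := Metric.isOpen_iff.mp isOpen_interior q hq
    obtain ⟨w, hw, hwq⟩ := Metric.mem_closure_iff.mp h1 ε hε
    have hwK : w ∈ f '' Q := by rw [himg]; exact interior_subset hw
    obtain ⟨z, hz, rfl⟩ := hwK
    refine ⟨z, hball ?_, hw⟩
    rw [mem_ball, dist_eq_norm, ← hiso z hz q hqQ, ← dist_eq_norm, dist_comm]
    exact hwq
  obtain ⟨r1, hr1, hb1⟩ := Metric.isOpen_iff.mp isOpen_interior z0 hz0
  obtain ⟨r2, hr2, hb2⟩ := Metric.isOpen_iff.mp isOpen_interior (f z0) hfz0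
  set r := min r1 r2 with hr
  have hrpos : 0 < r := lt_min hr1 hr2
  have hb1' : ∀ x, ‖x - z0‖ < r → x ∈ Q := fun x hx =>
    interior_subset (hb1 (by
      rw [mem_ball, dist_eq_norm]; exact lt_of_lt_of_le hx (min_le_left _ _)))
  have hb2' : ∀ y, ‖y - f z0‖ < r → y ∈ K := fun y hy =>
    interior_subset (hb2 (by
      rw [mem_ball, dist_eq_norm]; exact lt_of_lt_of_le hy (min_le_right _ _)))
  have hz0Q : z0 ∈ Q := hb1' z0 (by simpa using hrpos)
  -- the rescaled map on the open unit ball
  let G : E → F := fun h => r⁻¹ • (f (z0 + r • h) - f z0)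
  have hin : ∀ h : E, ‖h‖ < 1 → z0 + r • h ∈ Q := by
    intro h hh
    apply hb1'
    rw [add_sub_cancel_left, norm_smul, Real.norm_of_nonneg hrpos.le]
    nlinarith
  have hG0 : G 0 = 0 := by simp [G]
  have hGiso : ∀ x y : E, ‖x‖ < 1 → ‖y‖ < 1 → ‖G x - G y‖ = ‖x - y‖ := by
    intro x y hx hy
    have h1 : G x - G y = r⁻¹ • (f (z0 + r • x) - f (z0 + r • y)) := by
      simp only [G]; module
    rw [h1, norm_smul, hiso _ (hin x hx) _ (hin y hy), norm_inv,
      Real.norm_of_nonneg hrpos.le]
    have h2 : z0 + r • x - (z0 + r • y) = r • (x - y) := by module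
    rw [h2, norm_smul, Real.norm_of_nonneg hrpos.le, ← mul_assoc, inv_mul_cancel₀ hrpos.ne',
      one_mul]
  have hGsurj : ∀ y : F, ‖y‖ < 1 → ∃ x : E, ‖x‖ < 1 ∧ G x = y := by
    intro y hy
    have h1 : f z0 + r • y ∈ K := by
      apply hb2'
      rw [add_sub_cancel_left, norm_smul, Real.norm_of_nonneg hrpos.le]
      nlinarith
    rw [← himg] at h1
    obtain ⟨z, hz, hfz⟩ := h1
    have h2 : ‖z - z0‖ = r * ‖y‖ := by
      rw [← hiso z hz z0 hz0Q, hfz, add_sub_cancel_left, norm_smul, Real.norm_of_nonneg hrpos.le]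
    refine ⟨r⁻¹ • (z - z0), ?_, ?_⟩
    · rw [norm_smul, norm_inv, Real.norm_of_nonneg hrpos.le, h2, ← mul_assoc,
        inv_mul_cancel₀ hrpos.ne', one_mul]
      exact hy
    · simp only [G]
      rw [smul_smul, mul_inv_cancel₀ hrpos.ne', one_smul, add_sub_cancel, hfz, add_sub_cancel_left,
        smul_smul, inv_mul_cancel₀ hrpos.ne', one_smul]
  obtain ⟨L, hL, hGL⟩ := mazur_ulam_ball G hG0 hGiso hGsurj
  -- the affine map
  let A : E → F := fun x => f z0 + L (x - z0)
  have hAball : ∀ x, ‖x - z0‖ < r → f x = A x := by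
    intro x hx
    have h1 : ‖r⁻¹ • (x - z0)‖ < 1 := by
      rw [norm_smul, norm_inv, Real.norm_of_nonneg hrpos.le, inv_mul_lt_iff₀ hrpos]
      linarith
    have h2 := hGL _ h1
    simp only [G] at h2
    rw [smul_smul, mul_inv_cancel₀ hrpos.ne', one_smul, add_sub_cancel, map_smul] at h2
    have h3 := congrArg (fun w => r • w) h2
    simp only [smul_smul, mul_inv_cancel₀ hrpos.ne', one_smul] at h3
    simp only [A]
    rw [← h3]; abel
  set Z : Set E := {x | x ∈ Q ∧ f x = A x} with hZ
  -- lines in extreme directions stay in `Z`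
  have hline : ∀ p q e : E, ∀ ρ0 > 0, (∀ x, ‖x - p‖ < ρ0 → x ∈ Z) → q ∈ Q → IsExt e →
      ∀ l : ℝ, q - p = l • e → q ∈ Z := by
    intro p q e ρ0 hρ0 hball hq he l hl
    have hp : p ∈ Q := (hball p (by simpa using hρ0)).1
    have hfp : f p = A p := (hball p (by simpa using hρ0)).2
    by_cases hl0 : l = 0
    · have : q = p := by
        rw [hl0, zero_smul] at hl
        exact sub_eq_zero.mp hl
      rw [this]
      exact hball p (by simpa using hρ0)
    -- a positive multiple of an extreme point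
    obtain ⟨e', ρ, he', hρ, hqp⟩ : ∃ (e' : E) (ρ : ℝ), IsExt e' ∧ 0 < ρ ∧ q - p = ρ • e' := by
      rcases lt_or_gt_of_ne hl0 with hneg | hpos
      · refine ⟨-e, -l, he.neg, by linarith, ?_⟩
        rw [hl]; module
      · exact ⟨e, l, he, hpos, hl⟩
    have hnorm : ‖q - p‖ = ρ := by
      rw [hqp, norm_smul, he'.1, mul_one, Real.norm_of_nonneg hρ.le]
    -- a small step
    set t : ℝ := min (1/2) (ρ0 / (2 * ρ)) with ht
    have ht0 : 0 < t := lt_min (by norm_num) (by positivity)
    have ht1 : t < 1 := lt_of_le_of_lt (min_le_left _ _) (by norm_num)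
    have htρ : t * ρ < ρ0 := by
      have h1 : t ≤ ρ0 / (2 * ρ) := min_le_right _ _
      have h2 : t * ρ ≤ ρ0 / (2 * ρ) * ρ := by nlinarith
      have h3 : ρ0 / (2 * ρ) * ρ = ρ0 / 2 := by field_simp
      linarith
    have hm : p + t • (q - p) ∈ Z := hball _ (by
      rw [add_sub_cancel_left, norm_smul, hnorm, Real.norm_of_nonneg ht0.le]
      exact htρ)
    have haff := affine_along_ext Q K hK f hiso himg hp hq he' hρ hqp ht0 ht1
    rw [hm.2, hfp] at haff
    simp only [A] at haff
    have h4 : p + t • (q - p) - z0 = (p - z0) + t • (q - p) := by abel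
    rw [h4, map_add, map_smul] at haff
    have h5 : t • (f q - (f z0 + L (q - z0))) = 0 := by
      have h6 : L (q - z0) = L (p - z0) + L (q - p) := by
        rw [← map_add]; congr 1; abel
      rw [h6, smul_sub]
      have h7 := haff
      have : t • f q = f z0 + (L (p - z0) + t • L (q - p)) - (1 - t) • (f z0 + L (p - z0)) := by
        rw [h7]; module
      rw [this]; module
    have h8 : f q - (f z0 + L (q - z0)) = 0 := by
      rcases smul_eq_zero.mp h5 with h | h
      · exact absurd h ht0.ne'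
      · exact h
    exact ⟨hq, sub_eq_zero.mp h8⟩
  -- invariance of the interior of `Z`
  have hZsub : interior Z ⊆ interior Q := interior_mono (fun x hx => hx.1)
  have hmove : ∀ (p e : E) (t : ℝ), p ∈ interior Z → IsExt e → p + t • e ∈ interior Q →
      p + t • e ∈ interior Z := by
    intro p e t hp he hq
    obtain ⟨ρ1, hρ1, hball1⟩ := Metric.isOpen_iff.mp isOpen_interior p hp
    obtain ⟨ρ2, hρ2, hball2⟩ := Metric.isOpen_iff.mp isOpen_interior (p + t • e) hq
    rw [mem_interior]
    refine ⟨ball (p + t • e) (min (ρ1 / 2) ρ2), ?_, isOpen_ball, by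
      simp only [mem_ball, dist_self]; exact lt_min (by positivity) hρ2⟩
    intro x hx
    have hx1 : ‖x - (p + t • e)‖ < ρ1 / 2 := by
      rw [mem_ball, dist_eq_norm] at hx
      exact lt_of_lt_of_le hx (min_le_left _ _)
    have hx2 : ‖x - (p + t • e)‖ < ρ2 := by
      rw [mem_ball, dist_eq_norm] at hx
      exact lt_of_lt_of_le hx (min_le_right _ _)
    have hxQ : x ∈ Q := interior_subset (hball2 (by
      rw [mem_ball, dist_eq_norm]; exact hx2))
    refine hline (x - t • e) x e (ρ1 / 2) (by positivity) ?_ hxQ he t (by abel)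
    intro y hy
    apply interior_subset
    apply hball1
    rw [mem_ball, dist_eq_norm]
    have h1 : y - p = (y - (x - t • e)) + (x - (p + t • e)) := by abel
    rw [h1]
    have := norm_add_le (y - (x - t • e)) (x - (p + t • e))
    linarith
  obtain ⟨n, e, C, hext, hcoord⟩ := exists_ext_coords (E := E)
  -- closedness in the interior of `Q`
  have hclosed : closure (interior Z) ∩ interior Q ⊆ interior Z := by
    rintro y ⟨hy1, hy2⟩
    obtain ⟨δ, hδ, hballδ⟩ := Metric.isOpen_iff.mp isOpen_interior y hy2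
    have hCpos : 0 < |C| + 1 := by positivity
    have hsmall : 0 < δ / (2 * (|C| + 1)) := by positivity
    obtain ⟨p, hp, hpy⟩ := Metric.mem_closure_iff.mp hy1 _ hsmall
    rw [dist_eq_norm] at hpy
    obtain ⟨c, hc1, hc2⟩ := hcoord (y - p)
    have hsum : ∑ i, |c i| < δ / 2 := by
      have h1 : C * ‖y - p‖ ≤ (|C| + 1) * ‖y - p‖ := by
        apply mul_le_mul_of_nonneg_right _ (norm_nonneg _)
        linarith [le_abs_self C]
      have h2 : (|C| + 1) * ‖y - p‖ < (|C| + 1) * (δ / (2 * (|C| + 1))) :=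
        mul_lt_mul_of_pos_left hpy hCpos
      have h3 : (|C| + 1) * (δ / (2 * (|C| + 1))) = δ / 2 := by field_simp
      linarith
    have hstep : ∀ s : Finset (Fin n), p + ∑ i ∈ s, c i • e i ∈ interior Z := by
      intro s
      induction s using Finset.induction_on with
      | empty => simpa using hp
      | insert i s hi ih =>
        rw [Finset.sum_insert hi]
        have h1 : p + (c i • e i + ∑ j ∈ s, c j • e j) = (p + ∑ j ∈ s, c j • e j) + c i • e i := by
          abel
        rw [h1]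
        apply hmove _ _ _ ih (hext i)
        apply hballδ
        rw [mem_ball, dist_eq_norm]
        have h2 : p + ∑ j ∈ s, c j • e j + c i • e i - y =
            (p - y) + (c i • e i + ∑ j ∈ s, c j • e j) := by abel
        rw [h2, ← Finset.sum_insert (f := fun j => c j • e j) hi]
        have h3 : ‖∑ j ∈ insert i s, c j • e j‖ ≤ ∑ j, |c j| := by
          calc ‖∑ j ∈ insert i s, c j • e j‖ ≤ ∑ j ∈ insert i s, ‖c j • e j‖ := norm_sum_le _ _
            _ = ∑ j ∈ insert i s, |c j| := by
                refine Finset.sum_congr rfl fun j _ => ?_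
                rw [norm_smul, (hext j).1, mul_one, Real.norm_eq_abs]
            _ ≤ ∑ j, |c j| :=
                Finset.sum_le_sum_of_subset_of_nonneg (Finset.subset_univ _)
                  (fun _ _ _ => abs_nonneg _)
        have h4 := norm_add_le (p - y) (∑ j ∈ insert i s, c j • e j)
        have h5 : ‖p - y‖ < δ / 2 := by
          have h6 : δ / (2 * (|C| + 1)) ≤ δ / 2 := by
            apply div_le_div_of_nonneg_left hδ.le (by norm_num)
            have := abs_nonneg C
            linarith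
          rw [norm_sub_rev]
          linarith
        linarith
    have := hstep Finset.univ
    rw [← hc1, add_sub_cancel] at this
    exact this
  -- conclusion
  have hz0Z : z0 ∈ interior Z := by
    rw [mem_interior]
    refine ⟨ball z0 r, ?_, isOpen_ball, by simpa using hrpos⟩
    intro x hx
    rw [mem_ball, dist_eq_norm] at hx
    exact ⟨hb1' x hx, hAball x hx⟩
  have hU : interior Q ⊆ interior Z :=
    hQ.interior.isPreconnected.subset_of_closure_inter_subset isOpen_interior
      ⟨z0, hz0, hz0Z⟩ hclosed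
  refine ⟨L, f z0 - L z0, fun x hx => ?_⟩
  have hcl : x ∈ closure (interior Q) := by
    rw [hQ.closure_interior_eq_closure_of_nonempty_interior ⟨z0, hz0⟩]
    exact subset_closure hx
  have hgoal : ∀ ε > 0, ‖f x - (f z0 - L z0 + L x)‖ < ε := by
    intro ε hε
    obtain ⟨w, hw, hwx⟩ := Metric.mem_closure_iff.mp hcl (ε / 2) (by positivity)
    rw [dist_eq_norm] at hwx
    have hwZ := (interior_subset (hU hw) : w ∈ Z)
    have h1 : f x - (f z0 - L z0 + L x) = (f x - f w) + L (w - x) := by
      have h2 : f w = f z0 + L (w - z0) := hwZ.2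
      rw [h2, map_sub, map_sub]; abel
    rw [h1]
    have h3 := norm_add_le (f x - f w) (L (w - x))
    rw [hiso x hx w hwZ.1, hL, norm_sub_rev w x] at h3
    linarith
  have h0 : ‖f x - (f z0 - L z0 + L x)‖ = 0 := by
    by_contra hne
    have hpos : 0 < ‖f x - (f z0 - L z0 + L x)‖ := lt_of_le_of_ne (norm_nonneg _) (Ne.symm hne)
    exact lt_irrefl _ (hgoal _ hpos)
  exact sub_eq_zero.mp (norm_eq_zero.mp h0)

end core

section reduction

theorem interior_nonempty_of_span_top {E : Type*} [NormedAddCommGroup E] [NormedSpace ℝ E]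
    [FiniteDimensional ℝ E] (C : Set E) (hC : Convex ℝ C) (h0 : (0:E) ∈ C)
    (hs : Submodule.span ℝ C = ⊤) : (interior C).Nonempty := by
  rw [hC.interior_nonempty_iff_affineSpan_eq_top,
    AffineSubspace.affineSpan_eq_top_iff_vectorSpan_eq_top_of_nonempty ℝ E E ⟨0, h0⟩, eq_top_iff,
    ← hs]
  apply Submodule.span_le.mpr
  intro c hc
  have := vsub_mem_vectorSpan ℝ hc h0
  simpa using this

/-- **Mankiewicz's theorem** for finite-dimensional spaces: an isometry from a convex set onto a
convex set is affine. -/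
theorem mankiewicz {X Y : Type*} [NormedAddCommGroup X] [NormedSpace ℝ X] [FiniteDimensional ℝ X]
    [NormedAddCommGroup Y] [NormedSpace ℝ Y] [FiniteDimensional ℝ Y]
    (Q : Set X) (hQ : Convex ℝ Q) (f : X → Y) (hiso : ∀ x ∈ Q, ∀ y ∈ Q, ‖f x - f y‖ = ‖x - y‖)
    (hK : Convex ℝ (f '' Q)) {x y : X} (hx : x ∈ Q) (hy : y ∈ Q) {t : ℝ} (ht0 : 0 ≤ t)
    (ht1 : t ≤ 1) : f ((1 - t) • x + t • y) = (1 - t) • f x + t • f y := by
  let SV : Set X := (fun z => z - x) '' Q
  let SW : Set Y := (fun z => z - f x) '' (f '' Q)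
  let V := Submodule.span ℝ SV
  let W := Submodule.span ℝ SW
  let Q' : Set V := {v | x + (v : X) ∈ Q}
  let K' : Set W := {w | f x + (w : Y) ∈ f '' Q}
  have hmemW : ∀ z ∈ Q, f z - f x ∈ W := fun z hz =>
    Submodule.subset_span ⟨f z, ⟨z, hz, rfl⟩, rfl⟩
  have hmemV : ∀ z ∈ Q, z - x ∈ V := fun z hz => Submodule.subset_span ⟨z, hz, rfl⟩
  classical
  let f' : V → W := fun v => if h : x + (v : X) ∈ Q then ⟨f (x + v) - f x, hmemW _ h⟩ else 0
  have hf' : ∀ (v : V) (_ : x + (v : X) ∈ Q), ((f' v : W) : Y) = f (x + v) - f x := by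
    intro v h
    simp only [f', dif_pos h]
  have hQ'conv : Convex ℝ Q' := by
    rintro v1 h1 v2 h2 a b ha hb hab
    show x + ((a • v1 + b • v2 : V) : X) ∈ Q
    have h3 : x + ((a • v1 + b • v2 : V) : X) = a • (x + (v1 : X)) + b • (x + (v2 : X)) := by
      have h4 : x = (a + b) • x := by rw [hab, one_smul]
      simp only [Submodule.coe_add, Submodule.coe_smul]
      nth_rw 1 [h4]
      module
    rw [h3]
    exact hQ h1 h2 ha hb hab
  have hK'conv : Convex ℝ K' := by
    rintro v1 h1 v2 h2 a b ha hb hab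
    show f x + ((a • v1 + b • v2 : W) : Y) ∈ f '' Q
    have h3 : f x + ((a • v1 + b • v2 : W) : Y) = a • (f x + (v1 : Y)) + b • (f x + (v2 : Y)) := by
      have h4 : f x = (a + b) • f x := by rw [hab, one_smul]
      simp only [Submodule.coe_add, Submodule.coe_smul]
      nth_rw 1 [h4]
      module
    rw [h3]
    exact hK h1 h2 ha hb hab
  have h0Q' : (0 : V) ∈ Q' := by
    show x + ((0 : V) : X) ∈ Q
    simpa using hx
  have h0K' : (0 : W) ∈ K' := by
    show f x + ((0 : W) : Y) ∈ f '' Q
    simpa using Set.mem_image_of_mem f hx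
  have hspanQ : Submodule.span ℝ Q' = ⊤ := by
    have h1 : Q' = ((↑) : V → X) ⁻¹' SV := by
      ext v
      constructor
      · intro hv
        exact ⟨x + (v : X), hv, by simp⟩
      · rintro ⟨z, hz, hzv⟩
        show x + (v : X) ∈ Q
        rw [← hzv]
        simpa using hz
    rw [h1]
    exact Submodule.span_span_coe_preimage
  have hspanK : Submodule.span ℝ K' = ⊤ := by
    have h1 : K' = ((↑) : W → Y) ⁻¹' SW := by
      ext v
      constructor
      · intro hv
        exact ⟨f x + (v : Y), hv, by simp⟩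
      · rintro ⟨z, hz, hzv⟩
        show f x + (v : Y) ∈ f '' Q
        rw [← hzv]
        simpa using hz
    rw [h1]
    exact Submodule.span_span_coe_preimage
  have hiso' : ∀ v1 ∈ Q', ∀ v2 ∈ Q', ‖f' v1 - f' v2‖ = ‖v1 - v2‖ := by
    intro v1 h1 v2 h2
    have h3 : ‖f' v1 - f' v2‖ = ‖((f' v1 : W) : Y) - ((f' v2 : W) : Y)‖ := rfl
    have h4 : ‖v1 - v2‖ = ‖(v1 : X) - (v2 : X)‖ := rfl
    rw [h3, h4, hf' v1 h1, hf' v2 h2]
    have h5 : f (x + (v1 : X)) - f x - (f (x + (v2 : X)) - f x) =
        f (x + (v1 : X)) - f (x + (v2 : X)) := by abel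
    rw [h5, hiso _ h1 _ h2]
    congr 1
    abel
  have himg' : f' '' Q' = K' := by
    ext w
    constructor
    · rintro ⟨v, hv, rfl⟩
      show f x + ((f' v : W) : Y) ∈ f '' Q
      rw [hf' v hv, add_sub_cancel]
      exact Set.mem_image_of_mem f hv
    · rintro hw
      obtain ⟨z, hz, hfz⟩ : f x + (w : Y) ∈ f '' Q := hw
      refine ⟨⟨z - x, hmemV z hz⟩, ?_, ?_⟩
      · show x + (z - x) ∈ Q
        simpa using hz
      · have h1 : x + ((⟨z - x, hmemV z hz⟩ : V) : X) ∈ Q := by
          show x + (z - x) ∈ Q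
          simpa using hz
        apply Subtype.ext
        rw [hf' _ h1]
        show f (x + (z - x)) - f x = _
        rw [add_sub_cancel, hfz, add_sub_cancel_left]
  obtain ⟨L, c, hLc⟩ := mank_core Q' K' hQ'conv hK'conv
    (interior_nonempty_of_span_top Q' hQ'conv h0Q' hspanQ)
    (interior_nonempty_of_span_top K' hK'conv h0K' hspanK) f' hiso' himg'
  have hc : c = 0 := by
    have h1 := hLc 0 h0Q'
    rw [map_zero, add_zero] at h1
    rw [← h1]
    apply Subtype.ext
    rw [hf' 0 h0Q']
    simp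
  set v : V := ⟨y - x, hmemV y hy⟩ with hv
  have hvQ : v ∈ Q' := by
    show x + (y - x) ∈ Q
    simpa using hy
  have htv : t • v ∈ Q' := by
    have h1 := hQ'conv h0Q' hvQ (by linarith : 0 ≤ 1 - t) ht0 (by ring)
    simpa using h1
  have e1 : ((f' v : W) : Y) = f y - f x := by
    rw [hf' v hvQ]
    show f (x + (y - x)) - f x = _
    rw [add_sub_cancel]
  have e2 : ((f' (t • v) : W) : Y) = f (x + t • (y - x)) - f x := by
    rw [hf' _ htv]
    rfl
  have e3 : f' (t • v) = t • f' v := by
    rw [hLc _ htv, hLc _ hvQ, hc, zero_add, zero_add, map_smul]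
  have e4 : (1 - t) • x + t • y = x + t • (y - x) := by module
  rw [e4]
  have e5 : f (x + t • (y - x)) - f x = t • (f y - f x) := by
    rw [← e2, e3, Submodule.coe_smul, e1]
  have e6 : f (x + t • (y - x)) = f x + t • (f y - f x) := by
    rw [← e5]; abel
  rw [e6]
  module

end reduction

end Vale.Agent.Lib.P084
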