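import Mathlib

open Metric

namespace Vale.Agent.Lib.P084

universe u v

/-- The Mazur-Ulam property of `X` (Tingley's problem), against every real normed space `Y` in the
universe `v`: every surjective isometry from the unit sphere of `X` onto the unit sphere of `Y` is
the restriction of a surjective linear isometry from `X` onto `Y`. -/
def MazurUlam (X : Type u) [NormedAddCommGroup X] [NormedSpace ℝ X] : Prop :=
  ∀ (Y : Type v) [NormedAddCommGroup Y] [NormedSpace ℝ Y]
    (f : sphere (0 : X) 1 → sphere (0 : Y) 1),
    (∀ x y, ‖(f x : Y) - (f y : Y)‖ = ‖(x : X) - (y : X)‖) → Function.Surjective f →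
    ∃ L : X ≃ₗᵢ[ℝ] Y, ∀ x, (f x : Y) = L x

end Vale.Agent.Lib.P084
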