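import Mathlib
import Vale.Agent.Lib.P084.Core4

/-!
Transfer of the theorem on pairs to the unit sphere of the l1-sum.
-/

namespace Vale.Agent.Lib.P084

open Metric

variable {A B Y : Type*} [NormedAddCommGroup A] [NormedSpace ℝ A]
  [NormedAddCommGroup B] [NormedSpace ℝ B] [NormedAddCommGroup Y] [NormedSpace ℝ Y]

theorem l1_sum_extends [Nontrivial A] [Nontrivial B] (hA : HasCompactFaces A)
    (hB : HasCompactFaces B)
    (f : sphere (0 : WithLp 1 (A × B)) 1 → sphere (0 : Y) 1)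
    (hiso : ∀ x y, ‖(f x : Y) - (f y : Y)‖ = ‖(x : WithLp 1 (A × B)) - (y : WithLp 1 (A × B))‖)
    (hsurj : Function.Surjective f) :
    ∃ L : WithLp 1 (A × B) ≃ₗᵢ[ℝ] Y, ∀ x, (f x : Y) = L x := by
  have hnorm : ∀ x : WithLp 1 (A × B), ‖x‖ = ‖x.fst‖ + ‖x.snd‖ := WithLp.prod_norm_eq_of_L1
  have hmem : ∀ a b, ‖a‖ + ‖b‖ = 1 → WithLp.toLp 1 (a, b) ∈ sphere (0 : WithLp 1 (A × B)) 1 := by
    intro a b hab
    rw [mem_sphere_zero_iff_norm, hnorm]
    exact hab
  let T : A → B → Y := fun a b =>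
    if h : ‖a‖ + ‖b‖ = 1 then (f ⟨WithLp.toLp 1 (a, b), hmem a b h⟩ : Y) else 0
  have hTeq : ∀ a b (h : ‖a‖ + ‖b‖ = 1), T a b = (f ⟨WithLp.toLp 1 (a, b), hmem a b h⟩ : Y) := by
    intro a b h
    exact dif_pos h
  have hT : SphereIso T :=
    { norm_eq := fun a b h => by
        rw [hTeq a b h]
        exact mem_sphere_zero_iff_norm.mp (f _).2
      dist_eq := fun a b a' b' h h' => by
        rw [hTeq a b h, hTeq a' b' h', hiso, hnorm]
        rfl
      surj := fun y hy => by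
        obtain ⟨x, hx⟩ := hsurj ⟨y, mem_sphere_zero_iff_norm.mpr hy⟩
        have hx1 : ‖(x : WithLp 1 (A × B)).fst‖ + ‖(x : WithLp 1 (A × B)).snd‖ = 1 := by
          rw [← hnorm]
          exact mem_sphere_zero_iff_norm.mp x.2
        refine ⟨_, _, hx1, ?_⟩
        rw [hTeq _ _ hx1]
        have : x = ⟨WithLp.toLp 1 ((x : WithLp 1 (A × B)).fst, (x : WithLp 1 (A × B)).snd),
            hmem _ _ hx1⟩ := by
          ext
          rfl
        rw [← this, hx] }
  obtain ⟨LA, LB, hn, hform⟩ := hT.main hA hB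
  let L0 : WithLp 1 (A × B) →ₗ[ℝ] Y :=
    { toFun := fun x => LA x.fst + LB x.snd
      map_add' := fun x y => by
        simp only [WithLp.add_fst, WithLp.add_snd, map_add]
        abel
      map_smul' := fun c x => by
        simp only [WithLp.smul_fst, WithLp.smul_snd, map_smul, RingHom.id_apply, smul_add] }
  have hL0n : ∀ x, ‖L0 x‖ = ‖x‖ := by
    intro x
    rw [hnorm]
    exact hn _ _
  let L1 : WithLp 1 (A × B) →ₗᵢ[ℝ] Y := ⟨L0, hL0n⟩
  have hL1f : ∀ x, (f x : Y) = L1 x := by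
    intro x
    have hx1 : ‖(x : WithLp 1 (A × B)).fst‖ + ‖(x : WithLp 1 (A × B)).snd‖ = 1 := by
      rw [← hnorm]
      exact mem_sphere_zero_iff_norm.mp x.2
    have h2 := hform _ _ hx1
    rw [hTeq _ _ hx1] at h2
    have h3 : x = ⟨WithLp.toLp 1 ((x : WithLp 1 (A × B)).fst, (x : WithLp 1 (A × B)).snd),
        hmem _ _ hx1⟩ := by
      ext
      rfl
    rw [h3]
    exact h2
  have hL1surj : Function.Surjective L1 := by
    intro y
    by_cases hy : y = 0
    · exact ⟨0, by rw [hy, map_zero]⟩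
    have hyp : 0 < ‖y‖ := norm_pos_iff.mpr hy
    have hy1 : ‖y‖⁻¹ • y ∈ sphere (0 : Y) 1 := by
      rw [mem_sphere_zero_iff_norm, norm_smul, norm_inv, norm_norm, inv_mul_cancel₀ hyp.ne']
    obtain ⟨x, hx⟩ := hsurj ⟨_, hy1⟩
    refine ⟨‖y‖ • (x : WithLp 1 (A × B)), ?_⟩
    rw [map_smul, ← hL1f, hx]
    simp only
    rw [smul_smul, mul_inv_cancel₀ hyp.ne', one_smul]
  refine ⟨LinearIsometryEquiv.ofSurjective L1 hL1surj, fun x => ?_⟩
  rw [hL1f x]
  rfl

end Vale.Agent.Lib.P084
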