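import Mathlib
import Vale.Agent.Lib.P084.Exposed
import Vale.Agent.Lib.P084.Mank

/-!
Surjective isometries from the unit sphere of the sup-sum of two spaces.
-/

namespace Vale.Agent.Lib.P084

open Metric

section aux

variable {E F : Type*} [NormedAddCommGroup E] [NormedSpace ℝ E] [NormedAddCommGroup F]
  [NormedSpace ℝ F]

/-- An isometric map on the closed unit ball that is affine on segments comes from a linear
isometry. -/
theorem linear_of_affine (g : E → F)
    (hiso : ∀ x y : E, ‖x‖ ≤ 1 → ‖y‖ ≤ 1 → ‖g x - g y‖ = ‖x - y‖)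
    (haff : ∀ x y : E, ‖x‖ ≤ 1 → ‖y‖ ≤ 1 → ∀ t : ℝ, 0 ≤ t → t ≤ 1 →
      g ((1 - t) • x + t • y) = (1 - t) • g x + t • g y) :
    ∃ L : E →L[ℝ] F, (∀ x, ‖L x‖ = ‖x‖) ∧ ∀ x, ‖x‖ ≤ 1 → g x = g 0 + L x := by
  let G : E → F := fun x => g x - g 0
  have hnorm : ∀ x, ‖x‖ < 1 → ‖G x‖ = ‖x‖ := by
    intro x hx
    have := hiso x 0 hx.le (by simp)
    simpa [G] using this
  have halfg : ∀ x, ‖x‖ ≤ 1 → g ((1/2:ℝ) • x) = (1/2:ℝ) • g 0 + (1/2:ℝ) • g x := by
    intro x hx
    have := haff 0 x (by simp) hx (1/2) (by norm_num) (by norm_num)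
    have e : (1 - (1/2:ℝ)) = 1/2 := by norm_num
    rw [e, smul_zero, zero_add] at this
    exact this
  have half : ∀ x, ‖x‖ < 1 → G ((1/2:ℝ) • x) = (1/2:ℝ) • G x := by
    intro x hx
    simp only [G]
    rw [halfg x hx.le]
    module
  have small_add : ∀ x y, ‖x‖ < 1/3 → ‖y‖ < 1/3 → G (x + y) = G x + G y := by
    intro x y hx hy
    have h2x : ‖(2:ℝ) • x‖ ≤ 1 := by
      rw [norm_smul]; norm_num; linarith
    have h2y : ‖(2:ℝ) • y‖ ≤ 1 := by
      rw [norm_smul]; norm_num; linarith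
    have h1 := haff ((2:ℝ) • x) ((2:ℝ) • y) h2x h2y (1/2) (by norm_num) (by norm_num)
    have e1 : (1 - (1/2:ℝ)) • ((2:ℝ) • x) + (1/2:ℝ) • ((2:ℝ) • y) = x + y := by module
    rw [e1] at h1
    have h3 := halfg ((2:ℝ) • x) h2x
    have h4 := halfg ((2:ℝ) • y) h2y
    have e2 : (1/2:ℝ) • ((2:ℝ) • x) = x := by module
    have e3 : (1/2:ℝ) • ((2:ℝ) • y) = y := by module
    rw [e2] at h3
    rw [e3] at h4
    simp only [G]
    rw [h1, h3, h4]
    module
  obtain ⟨L, hL, hGL⟩ := linear_of_half_add G hnorm half small_add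
  refine ⟨L, hL, fun x hx => ?_⟩
  have h1 : ‖(1/2:ℝ) • x‖ < 1 := by
    rw [norm_smul]; norm_num; linarith
  have h2 := hGL _ h1
  simp only [G] at h2
  rw [halfg x hx, map_smul] at h2
  have h3 : (1/2:ℝ) • (g x - g 0 - L x) = 0 := by
    have : (1/2:ℝ) • (g x - g 0 - L x) =
        ((1/2:ℝ) • g 0 + (1/2:ℝ) • g x - g 0) - (1/2:ℝ) • L x := by module
    rw [this, h2, sub_self]
  have h4 : g x - g 0 - L x = 0 := by
    rcases smul_eq_zero.mp h3 with h | h
    · norm_num at h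
    · exact h
  rw [← sub_eq_zero, ← h4]
  abel

/-- The image of a compact unit sphere under a sphere map gives a finite-dimensional target. -/
theorem finiteDimensional_target [FiniteDimensional ℝ E] {f : E → F} (hf : SphereMap f) :
    FiniteDimensional ℝ F := by
  by_cases hF : Nontrivial F
  · have : ProperSpace E := FiniteDimensional.proper_real E
    have hcont : ContinuousOn f (sphere (0:E) 1) := by
      rw [Metric.continuousOn_iff]
      intro a ha ε hε
      refine ⟨ε, hε, fun b hb hab => ?_⟩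
      rw [dist_eq_norm, hf.dist_eq b a (by simpa using hb) (by simpa using ha), ← dist_eq_norm]
      exact hab
    have hSY : IsCompact (f '' sphere (0:E) 1) := (isCompact_sphere (0:E) 1).image_of_continuousOn hcont
    -- the closed ball is the continuous image of a compact set
    have hcomp : IsCompact ((fun p : ℝ × F => p.1 • p.2) '' (Set.Icc (0:ℝ) 1 ×ˢ (f '' sphere (0:E) 1))) :=
      (isCompact_Icc.prod hSY).image (by fun_prop)
    have hball : closedBall (0:F) 1 =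
        (fun p : ℝ × F => p.1 • p.2) '' (Set.Icc (0:ℝ) 1 ×ˢ (f '' sphere (0:E) 1)) := by
      ext y
      constructor
      · intro hy
        have hy1 : ‖y‖ ≤ 1 := by simpa using hy
        by_cases hy0 : y = 0
        · obtain ⟨x0, hx0⟩ := exists_ne (0:F)
          have hp : 0 < ‖x0‖ := norm_pos_iff.mpr hx0
          obtain ⟨w, hw, hfw⟩ := hf.surj (‖x0‖⁻¹ • x0)
            (by rw [norm_smul, norm_inv, norm_norm, inv_mul_cancel₀ hp.ne'])
          refine ⟨(0, f w), ⟨⟨le_rfl, zero_le_one⟩, ⟨w, by simpa using hw, rfl⟩⟩, by simp [hy0]⟩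
        · have hp : 0 < ‖y‖ := norm_pos_iff.mpr hy0
          obtain ⟨w, hw, hfw⟩ := hf.surj (‖y‖⁻¹ • y)
            (by rw [norm_smul, norm_inv, norm_norm, inv_mul_cancel₀ hp.ne'])
          refine ⟨(‖y‖, f w), ⟨⟨hp.le, hy1⟩, ⟨w, by simpa using hw, rfl⟩⟩, ?_⟩
          simp only
          rw [hfw, smul_smul, mul_inv_cancel₀ hp.ne', one_smul]
      · rintro ⟨⟨r, _⟩, ⟨⟨hr0, hr1⟩, ⟨w, hw, rfl⟩⟩, rfl⟩
        have hw1 : ‖w‖ = 1 := by simpa using hw
        simp only [mem_closedBall, dist_zero_right]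
        rw [norm_smul, hf.norm_eq w hw1, mul_one, Real.norm_of_nonneg hr0]
        exact hr1
    rw [← hball] at hcomp
    exact FiniteDimensional.of_isCompact_closedBall ℝ zero_lt_one hcomp
  · have : Subsingleton F := not_nontrivial_iff_subsingleton.mp hF
    infer_instance

end aux

section sup

variable {A B Y : Type*} [NormedAddCommGroup A] [NormedSpace ℝ A]
  [NormedAddCommGroup B] [NormedSpace ℝ B] [NormedAddCommGroup Y] [NormedSpace ℝ Y]

theorem SphereMap.swap {f : A × B → Y} (hf : SphereMap f) :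
    SphereMap (fun x : B × A => f (x.2, x.1)) where
  norm_eq := fun x hx => hf.norm_eq _ (by
    rw [Prod.norm_def] at hx ⊢
    simpa [max_comm] using hx)
  dist_eq := fun x y hx hy => by
    rw [hf.dist_eq _ _ (by
      rw [Prod.norm_def] at hx ⊢
      simpa [max_comm] using hx) (by
      rw [Prod.norm_def] at hy ⊢
      simpa [max_comm] using hy)]
    rw [Prod.norm_def, Prod.norm_def]
    simp [max_comm]
  surj := fun y hy => by
    obtain ⟨x, hx, hfx⟩ := hf.surj y hy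
    refine ⟨(x.2, x.1), ?_, hfx⟩
    rw [Prod.norm_def] at hx ⊢
    simpa [max_comm] using hx

/-- Oddness at the corners made of exposed points. -/
theorem odd_corner {f : A × B → Y} (hf : SphereMap f) {u : A} {v : B} (hu : IsExposedPt u)
    (hv : IsExposedPt v) : f (-u, -v) = -f (u, v) := by
  obtain ⟨τ, hτ⟩ := hf.exists_tau
  have hx : ‖(u, v)‖ = 1 := by
    rw [Prod.norm_def]; simp [hu.1, hv.1]
  have h1 := hτ _ hx
  obtain ⟨_, φ, hφ, hφu, hexu⟩ := hu
  obtain ⟨_, ψ, hψ, hψv, hexv⟩ := hv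
  have hfst : ‖φ.comp (ContinuousLinearMap.fst ℝ A B)‖ ≤ 1 := by
    apply ContinuousLinearMap.opNorm_le_bound _ zero_le_one
    intro x
    have h2 := φ.le_opNorm x.1
    have h3 := norm_fst_le x
    have h4 := norm_nonneg x.1
    simp only [ContinuousLinearMap.comp_apply, ContinuousLinearMap.coe_fst', one_mul]
    nlinarith
  have hsnd : ‖ψ.comp (ContinuousLinearMap.snd ℝ A B)‖ ≤ 1 := by
    apply ContinuousLinearMap.opNorm_le_bound _ zero_le_one
    intro x
    have h2 := ψ.le_opNorm x.2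
    have h3 := norm_snd_le x
    have h4 := norm_nonneg x.2
    simp only [ContinuousLinearMap.comp_apply, ContinuousLinearMap.coe_snd', one_mul]
    nlinarith
  have h5 := hf.tau_mem_face hτ hx _ hfst (by simpa using hφu)
  have h6 := hf.tau_mem_face hτ hx _ hsnd (by simpa using hψv)
  have h7 : ‖τ (u, v)‖ = 1 := h1.1
  have h8 : (τ (u, v)).1 = u := hexu _ ((norm_fst_le _).trans h7.le) (by simpa using h5)
  have h9 : (τ (u, v)).2 = v := hexv _ ((norm_snd_le _).trans h7.le) (by simpa using h6)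
  have h10 : τ (u, v) = (u, v) := Prod.ext h8 h9
  have h11 := h1.2
  rw [h10] at h11
  have h12 : (-(u, v) : A × B) = (-u, -v) := rfl
  rw [h12] at h11
  rw [h11, neg_neg]

theorem slice_affine_smooth [FiniteDimensional ℝ A] [FiniteDimensional ℝ B]
    [FiniteDimensional ℝ Y] {f : A × B → Y} (hf : SphereMap f) {u : A} (hu : ‖u‖ = 1)
    (hs : IsSmoothPt u) {b b' : B} (hb : ‖b‖ ≤ 1) (hb' : ‖b'‖ ≤ 1) {t : ℝ} (ht0 : 0 ≤ t)
    (ht1 : t ≤ 1) : f (u, (1 - t) • b + t • b') = (1 - t) • f (u, b) + t • f (u, b') := by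
  obtain ⟨φ, hφ, hφu⟩ := exists_functional u hu
  let Q : Set (A × B) := {x | ‖x.1‖ ≤ 1 ∧ φ x.1 = 1 ∧ ‖x.2‖ ≤ 1}
  let Good : Set (A × B) := {x | x ∈ Q ∧ IsSmoothPt x.1 ∧ ‖x.2‖ < 1}
  have hQ1 : ∀ z ∈ Q, ‖z‖ = 1 := by
    rintro ⟨a, c⟩ ⟨h1, h2, h3⟩
    simp only at h1 h2 h3
    have h4 : ‖a‖ = 1 := le_antisymm h1 (by
      have := functional_le φ hφ a
      rwa [h2] at this)
    rw [Prod.norm_def]
    simp [h4, h3]
  have hQc : IsClosed Q := by
    have c1 : IsClosed {x : A × B | ‖x.1‖ ≤ 1} :=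
      isClosed_le (by fun_prop) continuous_const
    have c2 : IsClosed {x : A × B | φ x.1 = 1} :=
      isClosed_eq (by fun_prop) continuous_const
    have c3 : IsClosed {x : A × B | ‖x.2‖ ≤ 1} :=
      isClosed_le (by fun_prop) continuous_const
    exact c1.inter (c2.inter c3)
  have hGQ : Good ⊆ Q := fun x hx => hx.1
  have hdense : ∀ p ∈ Q, ∀ ε > 0, ∃ z ∈ Good, ‖z - p‖ < ε := by
    rintro ⟨a, c⟩ ⟨h1, h2, h3⟩ ε hε
    simp only at h1 h2 h3
    set s : ℝ := min 1 (ε / 4) with hsdef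
    have hs0 : 0 < s := lt_min one_pos (by positivity)
    have hs1 : s ≤ 1 := min_le_left _ _
    have hs2 : s ≤ ε / 4 := min_le_right _ _
    have ha' : ‖(1 - s) • a + s • u‖ ≤ 1 := by
      have := norm_add_le ((1 - s) • a) (s • u)
      rw [norm_smul, norm_smul, hu, Real.norm_of_nonneg (by linarith),
        Real.norm_of_nonneg hs0.le] at this
      nlinarith
    have hφa' : φ ((1 - s) • a + s • u) = 1 := by
      rw [map_add, map_smul, map_smul, h2, hφu, smul_eq_mul, smul_eq_mul]; ring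
    have hc' : ‖(1 - s) • c‖ < 1 := by
      rw [norm_smul, Real.norm_of_nonneg (by linarith)]
      nlinarith [norm_nonneg c]
    refine ⟨((1 - s) • a + s • u, (1 - s) • c), ⟨⟨ha', hφa', hc'.le⟩, ?_, hc'⟩, ?_⟩
    · -- smoothness
      intro ψ χ hψ hχ hψa hχa
      simp only at hψa hχa
      have key : ∀ ξ : StrongDual ℝ A, ‖ξ‖ ≤ 1 → ξ ((1 - s) • a + s • u) = 1 → ξ u = 1 := by
        intro ξ hξ hξa
        rw [map_add, map_smul, map_smul, smul_eq_mul, smul_eq_mul] at hξa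
        have h4 := (functional_le ξ hξ a).trans h1
        have h5 := functional_le ξ hξ u
        rw [hu] at h5
        have h6 : s * ξ u ≥ s * 1 := by nlinarith
        have h7 : ξ u ≥ 1 := by
          have := le_of_mul_le_mul_left h6 hs0
          linarith
        linarith
      exact hs ψ χ hψ hχ (key ψ hψ hψa) (key χ hχ hχa)
    · have e1 : ((1 - s) • a + s • u, (1 - s) • c) - (a, c) = (s • (u - a), (-s) • c) := by
        ext <;> simp <;> module
      rw [e1, Prod.norm_def]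
      simp only
      rw [norm_smul, norm_smul, norm_neg, Real.norm_of_nonneg hs0.le]
      have h8 : ‖u - a‖ ≤ 2 := by
        have := norm_sub_le u a
        rw [hu] at this
        linarith
      apply max_lt
      · nlinarith
      · nlinarith
  have hgood : ∀ z ∈ Good, ∀ w : A × B, ‖w‖ = 1 → (‖w + z‖ = 2 ↔ w ∈ Q) := by
    rintro ⟨a, c⟩ ⟨⟨h1, h2, h3⟩, h4, h5⟩ ⟨a', c'⟩ hw
    simp only at h1 h2 h3 h4 h5
    have hw1 : ‖a'‖ ≤ 1 := by
      have := norm_fst_le ((a', c') : A × B)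
      simp only at this
      linarith
    have hw2 : ‖c'‖ ≤ 1 := by
      have := norm_snd_le ((a', c') : A × B)
      simp only at this
      linarith
    constructor
    · intro h
      rw [Prod.norm_def] at h
      simp only [Prod.mk_add_mk] at h
      have h6 : ‖c' + c‖ < 2 := by
        have := norm_add_le c' c
        linarith
      have h7 : ‖a' + a‖ = 2 := by
        rcases max_choice ‖a' + a‖ ‖c' + c‖ with h8 | h8
        · rw [← h8]; exact h
        · rw [h8] at h; linarith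
      obtain ⟨ψ, hψ, hψ1, hψ2⟩ := exists_common_functional hw1 h1 h7
      have h9 : ψ = φ := h4 ψ φ hψ hφ hψ2 h2
      rw [h9] at hψ1
      exact ⟨hw1, hψ1, hw2⟩
    · rintro ⟨_, h6, _⟩
      simp only at h6
      have h7 : ‖a' + a‖ = 2 := norm_add_eq_two hw1 h1 φ hφ h6 h2
      rw [Prod.norm_def]
      simp only [Prod.mk_add_mk]
      rw [h7]
      apply max_eq_left
      have := norm_add_le c' c
      linarith
  have hconv := hf.convex_image Q Good hQ1 hQc hGQ hdense hgood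
  have hQconv : Convex ℝ Q := by
    rintro ⟨a1, c1⟩ ⟨h1, h2, h3⟩ ⟨a2, c2⟩ ⟨h4, h5, h6⟩ r1 r2 hr1 hr2 hr
    simp only at h1 h2 h3 h4 h5 h6
    refine ⟨?_, ?_, ?_⟩
    · simp only [Prod.smul_mk, Prod.mk_add_mk]
      have := norm_add_le (r1 • a1) (r2 • a2)
      rw [norm_smul, norm_smul, Real.norm_of_nonneg hr1, Real.norm_of_nonneg hr2] at this
      nlinarith
    · simp only [Prod.smul_mk, Prod.mk_add_mk]
      rw [map_add, map_smul, map_smul, h2, h5, smul_eq_mul, smul_eq_mul]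
      linarith
    · simp only [Prod.smul_mk, Prod.mk_add_mk]
      have := norm_add_le (r1 • c1) (r2 • c2)
      rw [norm_smul, norm_smul, Real.norm_of_nonneg hr1, Real.norm_of_nonneg hr2] at this
      nlinarith
  have hiso : ∀ x ∈ Q, ∀ y ∈ Q, ‖f x - f y‖ = ‖x - y‖ := fun x hx y hy =>
    hf.dist_eq x y (hQ1 x hx) (hQ1 y hy)
  have hub : (u, b) ∈ Q := ⟨hu.le, hφu, hb⟩
  have hub' : (u, b') ∈ Q := ⟨hu.le, hφu, hb'⟩
  have hm := mankiewicz Q hQconv f hiso hconv hub hub' ht0 ht1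
  have e : (1 - t) • (u, b) + t • (u, b') = (u, (1 - t) • b + t • b') := by
    ext
    · simp only [Prod.fst_add, Prod.smul_fst]
      module
    · simp
  rw [e] at hm
  exact hm

theorem slice_affine [FiniteDimensional ℝ A] [FiniteDimensional ℝ B]
    [FiniteDimensional ℝ Y] {f : A × B → Y} (hf : SphereMap f) {u : A} (hu : ‖u‖ = 1)
    {b b' : B} (hb : ‖b‖ ≤ 1) (hb' : ‖b'‖ ≤ 1) {t : ℝ} (ht0 : 0 ≤ t)
    (ht1 : t ≤ 1) : f (u, (1 - t) • b + t • b') = (1 - t) • f (u, b) + t • f (u, b') := by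
  have hc : ‖(1 - t) • b + t • b'‖ ≤ 1 := by
    have := norm_add_le ((1 - t) • b) (t • b')
    rw [norm_smul, norm_smul, Real.norm_of_nonneg (by linarith), Real.norm_of_nonneg ht0] at this
    nlinarith
  have hnorm : ∀ (x : A) (y : B), ‖x‖ = 1 → ‖y‖ ≤ 1 → ‖((x, y) : A × B)‖ = 1 := by
    intro x y hx hy
    rw [Prod.norm_def]
    simp [hx, hy]
  have hbound : ∀ ε > 0, ‖f (u, (1 - t) • b + t • b') - ((1 - t) • f (u, b) + t • f (u, b'))‖ < ε := by
    intro ε hε
    obtain ⟨u', hu', hclose, hs⟩ := smooth_dense u hu (ε := ε / 3) (by positivity)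
    have hdist : ∀ y : B, ‖y‖ ≤ 1 → ‖f (u, y) - f (u', y)‖ = ‖u' - u‖ := by
      intro y hy
      rw [hf.dist_eq _ _ (hnorm u y hu hy) (hnorm u' y hu' hy), Prod.norm_def]
      simp only [Prod.mk_sub_mk, sub_self, norm_zero]
      rw [max_eq_left (norm_nonneg _), norm_sub_rev]
    have h1 := slice_affine_smooth hf hu' hs hb hb' ht0 ht1
    have h2 : f (u, (1 - t) • b + t • b') - ((1 - t) • f (u, b) + t • f (u, b')) =
        (f (u, (1 - t) • b + t • b') - f (u', (1 - t) • b + t • b'))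
          - ((1 - t) • (f (u, b) - f (u', b)) + t • (f (u, b') - f (u', b'))) := by
      rw [h1]; module
    rw [h2]
    have h3 := norm_sub_le (f (u, (1 - t) • b + t • b') - f (u', (1 - t) • b + t • b'))
      ((1 - t) • (f (u, b) - f (u', b)) + t • (f (u, b') - f (u', b')))
    have h4 := norm_add_le ((1 - t) • (f (u, b) - f (u', b))) (t • (f (u, b') - f (u', b')))
    rw [norm_smul, norm_smul, Real.norm_of_nonneg (by linarith), Real.norm_of_nonneg ht0,
      hdist b hb, hdist b' hb'] at h4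
    rw [hdist _ hc] at h3
    have h5 : (1 - t) * ‖u' - u‖ + t * ‖u' - u‖ = ‖u' - u‖ := by ring
    linarith
  have h0 : ‖f (u, (1 - t) • b + t • b') - ((1 - t) • f (u, b) + t • f (u, b'))‖ = 0 := by
    by_contra hne
    have hpos := lt_of_le_of_ne (norm_nonneg _) (Ne.symm hne)
    exact lt_irrefl _ (hbound _ hpos)
  exact sub_eq_zero.mp (norm_eq_zero.mp h0)

/-- A continuous linear map is determined by its values on a spanning set. -/
theorem clm_eq_of_span {E F : Type*} [NormedAddCommGroup E] [NormedSpace ℝ E]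
    [NormedAddCommGroup F] [NormedSpace ℝ F] {S : Set E} (hS : Submodule.span ℝ S = ⊤)
    {L M : E →L[ℝ] F} (h : ∀ x ∈ S, L x = M x) : L = M := by
  apply ContinuousLinearMap.coe_injective
  apply LinearMap.ext_on hS
  exact h

theorem aux_alg {X1 X2 s s' : Y} (o1 : X2 + -s' = -(X1 + s)) (o2 : X1 + -s = -(X2 + s')) :
    s' = s ∧ X2 = -X1 := by
  have h1 : (2:ℝ) • (s' - s) = 0 := by
    have : (2:ℝ) • (s' - s) = (X1 + -s - (-(X2 + s'))) - (X2 + -s' - (-(X1 + s))) := by module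
    rw [this, o1, o2]; simp
  have h2 : (2:ℝ) • (X2 + X1) = 0 := by
    have : (2:ℝ) • (X2 + X1) = (X1 + -s - (-(X2 + s'))) + (X2 + -s' - (-(X1 + s))) := by module
    rw [this, o1, o2]; simp
  constructor
  · rcases smul_eq_zero.mp h1 with h | h
    · norm_num at h
    · exact sub_eq_zero.mp h
  · rcases smul_eq_zero.mp h2 with h | h
    · norm_num at h
    · exact eq_neg_of_add_eq_zero_left h

/-- The algebraic step: slices are affine, corners made of exposed points are odd; then the map is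
linear. -/
theorem sup_final_half {f : A × B → Y}
    (hodd : ∀ u v, IsExposedPt u → IsExposedPt v → f (-u, -v) = -f (u, v))
    (hEA : Submodule.span ℝ {u : A | IsExposedPt u} = ⊤)
    {S : B → A →L[ℝ] Y}
    (hS : ∀ v, ‖v‖ = 1 → ∀ a, ‖a‖ ≤ 1 → f (a, v) = f (0, v) + S v a)
    {R : A → B →L[ℝ] Y}
    (hR : ∀ u, ‖u‖ = 1 → ∀ b, ‖b‖ ≤ 1 → f (u, b) = f (u, 0) + R u b)
    {u : A} (hu : ‖u‖ = 1) {v : B} (hv : IsExposedPt v) : R u v = f (0, v) := by
  have hv1 := hv.1
  have hnv : ‖-v‖ = 1 := by rw [norm_neg]; exact hv1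
  have key : ∀ x : A, IsExposedPt x → S (-v) x = S v x ∧ f (0, -v) = -f (0, v) := by
    intro x hx
    have hx1 : ‖x‖ = 1 := hx.1
    have hnx : ‖-x‖ = 1 := by rw [norm_neg]; exact hx1
    have o1 := hodd x v hx hv
    have o2 := hodd x (-v) hx hv.neg
    rw [neg_neg] at o2
    rw [hS (-v) hnv (-x) hnx.le, hS v hv1 x hx1.le] at o1
    rw [hS v hv1 (-x) hnx.le, hS (-v) hnv x hx1.le] at o2
    rw [map_neg] at o1 o2
    exact aux_alg o1 o2
  have hSsym : S (-v) = S v := clm_eq_of_span hEA fun x hx => (key x hx).1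
  have hex : ∃ x : A, IsExposedPt x := by
    by_contra hne
    push Not at hne
    have h0 : {u : A | IsExposedPt u} = ∅ := Set.eq_empty_of_forall_notMem hne
    rw [h0, Submodule.span_empty] at hEA
    have hum : u ∈ (⊥ : Submodule ℝ A) := by rw [hEA]; trivial
    rw [Submodule.mem_bot] at hum
    rw [hum, norm_zero] at hu
    exact zero_ne_one hu
  obtain ⟨x0, hx0⟩ := hex
  have hqodd := (key x0 hx0).2
  have e1 := hR u hu v hv1.le
  have e2 := hR u hu (-v) hnv.le
  rw [map_neg] at e2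
  have e3 := hS v hv1 u hu.le
  have e4 := hS (-v) hnv u hu.le
  rw [hSsym, hqodd] at e4
  have h1 : (2:ℝ) • (R u v - f (0, v)) = 0 := by
    have : (2:ℝ) • (R u v - f (0, v)) =
        (f (u, v) - f (u, -v)) - (f (u, v) - f (u, -v)) := by
      nth_rw 1 [e1]
      nth_rw 1 [e2]
      nth_rw 1 [e3]
      nth_rw 1 [e4]
      module
    rw [this, sub_self]
  rcases smul_eq_zero.mp h1 with h | h
  · norm_num at h
  · exact sub_eq_zero.mp h

/-- The algebra of the sup-sum. -/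
theorem sup_final {f : A × B → Y} (hf : SphereMap f)
    (hodd : ∀ u v, IsExposedPt u → IsExposedPt v → f (-u, -v) = -f (u, v))
    (hEA : Submodule.span ℝ {u : A | IsExposedPt u} = ⊤)
    (hEB : Submodule.span ℝ {u : B | IsExposedPt u} = ⊤)
    (h1 : ∀ u : A, ‖u‖ = 1 → ∀ b b' : B, ‖b‖ ≤ 1 → ‖b'‖ ≤ 1 → ∀ t : ℝ, 0 ≤ t → t ≤ 1 →
      f (u, (1 - t) • b + t • b') = (1 - t) • f (u, b) + t • f (u, b'))
    (h2 : ∀ v : B, ‖v‖ = 1 → ∀ a a' : A, ‖a‖ ≤ 1 → ‖a'‖ ≤ 1 → ∀ t : ℝ, 0 ≤ t → t ≤ 1 →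
      f ((1 - t) • a + t • a', v) = (1 - t) • f (a, v) + t • f (a', v))
    (u0 : A) (hu0 : IsExposedPt u0) (v0 : B) (hv0 : IsExposedPt v0) :
    ∃ (S : A →L[ℝ] Y) (R : B →L[ℝ] Y), ∀ x : A × B, ‖x‖ = 1 → f x = S x.1 + R x.2 := by
  have hn1 : ∀ (x : A) (y : B), ‖x‖ = 1 → ‖y‖ ≤ 1 → ‖((x, y) : A × B)‖ = 1 := by
    intro x y hx hy
    rw [Prod.norm_def]
    simp [hx, hy]
  have hn2 : ∀ (x : A) (y : B), ‖x‖ ≤ 1 → ‖y‖ = 1 → ‖((x, y) : A × B)‖ = 1 := by
    intro x y hx hy
    rw [Prod.norm_def]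
    simp [hx, hy]
  have exR : ∀ u : A, ∃ R : B →L[ℝ] Y, ‖u‖ = 1 → ∀ b, ‖b‖ ≤ 1 → f (u, b) = f (u, 0) + R b := by
    intro u
    by_cases hu : ‖u‖ = 1
    · obtain ⟨L, _, hL⟩ := linear_of_affine (fun b : B => f (u, b))
        (fun x y hx hy => by
          rw [hf.dist_eq _ _ (hn1 u x hu hx) (hn1 u y hu hy), Prod.norm_def]
          simp)
        (fun x y hx hy t ht0 ht1 => h1 u hu x y hx hy t ht0 ht1)
      exact ⟨L, fun _ b hb => hL b hb⟩
    · exact ⟨0, fun h => absurd h hu⟩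
  have exS : ∀ v : B, ∃ S : A →L[ℝ] Y, ‖v‖ = 1 → ∀ a, ‖a‖ ≤ 1 → f (a, v) = f (0, v) + S a := by
    intro v
    by_cases hv : ‖v‖ = 1
    · obtain ⟨L, _, hL⟩ := linear_of_affine (fun a : A => f (a, v))
        (fun x y hx hy => by
          rw [hf.dist_eq _ _ (hn2 x v hx hv) (hn2 y v hy hv), Prod.norm_def]
          simp)
        (fun x y hx hy t ht0 ht1 => h2 v hv x y hx hy t ht0 ht1)
      exact ⟨L, fun _ a ha => hL a ha⟩
    · exact ⟨0, fun h => absurd h hv⟩
  choose R hR using exR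
  choose S hS using exS
  have eq1 : ∀ u : A, ‖u‖ = 1 → ∀ v : B, IsExposedPt v → R u v = f (0, v) := fun u hu v hv =>
    sup_final_half hodd hEA hS hR hu hv
  have eq2 : ∀ v : B, ‖v‖ = 1 → ∀ u : A, IsExposedPt u → S v u = f (u, 0) := by
    intro v hv u hu
    exact sup_final_half (f := fun x : B × A => f (x.2, x.1)) (S := R) (R := S)
      (fun a b ha hb => hodd b a hb ha) hEB (fun a ha b hb => hR a ha b hb)
      (fun b hb a ha => hS b hb a ha) hv hu
  have hRu : ∀ u : A, ‖u‖ = 1 → R u = R u0 := by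
    intro u hu
    apply clm_eq_of_span hEB
    intro v hv
    rw [eq1 u hu v hv, eq1 u0 hu0.1 v hv]
  have hSv : ∀ v : B, ‖v‖ = 1 → S v = S v0 := by
    intro v hv
    apply clm_eq_of_span hEA
    intro u hu
    rw [eq2 v hv u hu, eq2 v0 hv0.1 u hu]
  have hfu : ∀ u : A, ‖u‖ = 1 → f (u, 0) = S v0 u := by
    intro u hu
    have e1 := hR u hu v0 hv0.1.le
    have e2 := hS v0 hv0.1 u hu.le
    rw [eq1 u hu v0 hv0] at e1
    rw [e2] at e1
    have e3 : S v0 u + f (0, v0) = f (u, 0) + f (0, v0) := by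
      rw [add_comm]; exact e1
    exact (add_right_cancel e3).symm
  have hfv : ∀ v : B, ‖v‖ = 1 → f (0, v) = R u0 v := by
    intro v hv
    have e1 := hR u0 hu0.1 v hv.le
    have e2 := hS v hv u0 hu0.1.le
    rw [eq2 v hv u0 hu0] at e2
    rw [e2] at e1
    have e3 : f (0, v) + f (u0, 0) = R u0 v + f (u0, 0) := by
      rw [add_comm (R u0 v)]; exact e1
    exact add_right_cancel e3
  refine ⟨S v0, R u0, ?_⟩
  rintro ⟨a, b⟩ hx
  rw [Prod.norm_def] at hx
  simp only at hx ⊢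
  have ha1 : ‖a‖ ≤ 1 := by rw [← hx]; exact le_max_left _ _
  have hb1 : ‖b‖ ≤ 1 := by rw [← hx]; exact le_max_right _ _
  rcases max_choice ‖a‖ ‖b‖ with h | h
  · have ha : ‖a‖ = 1 := by rw [← h]; exact hx
    rw [hR a ha b hb1, hRu a ha, hfu a ha]
  · have hb : ‖b‖ = 1 := by rw [← h]; exact hx
    rw [hS b hb a ha1, hSv b hb, hfv b hb, add_comm]

end sup

section transfer

variable {X Y : Type*} [NormedAddCommGroup X] [NormedSpace ℝ X]
  [NormedAddCommGroup Y] [NormedSpace ℝ Y]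

/-- The total map attached to a map between unit spheres. -/
theorem exists_total (f : sphere (0:X) 1 → sphere (0:Y) 1)
    (hiso : ∀ x y, ‖(f x : Y) - (f y : Y)‖ = ‖(x : X) - (y : X)‖)
    (hsurj : Function.Surjective f) :
    ∃ F : X → Y, SphereMap F ∧ ∀ x : sphere (0:X) 1, F x = f x := by
  classical
  have hmem : ∀ x : X, ‖x‖ = 1 → x ∈ sphere (0:X) 1 := fun x hx => by simpa using hx
  let F : X → Y := fun x => if h : ‖x‖ = 1 then (f ⟨x, hmem x h⟩ : Y) else 0
  have hF : ∀ x (h : ‖x‖ = 1), F x = f ⟨x, hmem x h⟩ := fun x h => dif_pos h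
  refine ⟨F, ⟨?_, ?_, ?_⟩, ?_⟩
  · intro x hx
    rw [hF x hx]
    simpa using (f ⟨x, hmem x hx⟩).2
  · intro x y hx hy
    rw [hF x hx, hF y hy, hiso]
  · intro y hy
    obtain ⟨x, hx⟩ := hsurj ⟨y, by simpa using hy⟩
    have hx1 : ‖(x : X)‖ = 1 := by simpa using x.2
    refine ⟨x, hx1, ?_⟩
    rw [hF _ hx1]
    rw [show (⟨(x : X), hmem _ hx1⟩ : sphere (0:X) 1) = x from Subtype.ext rfl, hx]
  · intro x
    have hx1 : ‖(x : X)‖ = 1 := by simpa using x.2
    rw [hF _ hx1]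

/-- A linear map agreeing with a surjective sphere map on the sphere gives a linear isometry
equivalence. -/
theorem exists_equiv_of_linear (f : sphere (0:X) 1 → sphere (0:Y) 1)
    (hsurj : Function.Surjective f) (L : X →L[ℝ] Y) (hL : ∀ x : sphere (0:X) 1, (f x : Y) = L x) :
    ∃ L' : X ≃ₗᵢ[ℝ] Y, ∀ x : sphere (0:X) 1, (f x : Y) = L' x := by
  have hunit : ∀ x : X, ‖x‖ = 1 → ‖L x‖ = 1 := by
    intro x hx
    have h1 := hL ⟨x, by simpa using hx⟩
    simp only at h1
    rw [← h1]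
    simpa using (f ⟨x, by simpa using hx⟩).2
  have hn : ∀ x : X, ‖L x‖ = ‖x‖ := by
    intro x
    by_cases hx : x = 0
    · simp [hx]
    · have hp : 0 < ‖x‖ := norm_pos_iff.mpr hx
      have h1 := hunit (‖x‖⁻¹ • x) (by rw [norm_smul, norm_inv, norm_norm, inv_mul_cancel₀ hp.ne'])
      rw [map_smul, norm_smul, norm_inv, norm_norm, inv_mul_eq_div, div_eq_one_iff_eq hp.ne'] at h1
      exact h1
  let L1 : X →ₗᵢ[ℝ] Y := ⟨(L : X →ₗ[ℝ] Y), hn⟩
  have hsurjL : Function.Surjective L1 := by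
    intro y
    by_cases hy : y = 0
    · exact ⟨0, by rw [hy, map_zero]⟩
    have hp : 0 < ‖y‖ := norm_pos_iff.mpr hy
    obtain ⟨x, hx⟩ := hsurj ⟨‖y‖⁻¹ • y, by
      simp [norm_smul, inv_mul_cancel₀ hp.ne']⟩
    refine ⟨‖y‖ • (x : X), ?_⟩
    have h1 : L1 (‖y‖ • (x : X)) = ‖y‖ • L (x : X) := by
      show L (‖y‖ • (x : X)) = _
      rw [map_smul]
    rw [h1, ← hL x, hx]
    simp only
    rw [smul_smul, mul_inv_cancel₀ hp.ne', one_smul]
  refine ⟨LinearIsometryEquiv.ofSurjective L1 hsurjL, fun x => ?_⟩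
  rw [hL x]
  rfl

end transfer

section main

variable {A B Y : Type*} [NormedAddCommGroup A] [NormedSpace ℝ A]
  [NormedAddCommGroup B] [NormedSpace ℝ B] [NormedAddCommGroup Y] [NormedSpace ℝ Y]

theorem exists_exposed [FiniteDimensional ℝ A] [Nontrivial A] : ∃ u : A, IsExposedPt u := by
  by_contra hne
  push Not at hne
  have h0 : {u : A | IsExposedPt u} = ∅ := Set.eq_empty_of_forall_notMem hne
  have h1 := exposed_span (E := A)
  rw [h0, Submodule.span_empty] at h1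
  exact bot_ne_top h1

/-- **The sup-sum theorem.** -/
theorem sup_sum_extends [FiniteDimensional ℝ A] [Nontrivial A] [FiniteDimensional ℝ B]
    [Nontrivial B] (f : sphere (0 : A × B) 1 → sphere (0 : Y) 1)
    (hiso : ∀ x y, ‖(f x : Y) - (f y : Y)‖ = ‖(x : A × B) - (y : A × B)‖)
    (hsurj : Function.Surjective f) :
    ∃ L : (A × B) ≃ₗᵢ[ℝ] Y, ∀ x, (f x : Y) = L x := by
  obtain ⟨F, hF, hFf⟩ := exists_total f hiso hsurj
  have : FiniteDimensional ℝ Y := finiteDimensional_target hF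
  obtain ⟨u0, hu0⟩ := exists_exposed (A := A)
  obtain ⟨v0, hv0⟩ := exists_exposed (A := B)
  obtain ⟨S, R, hSR⟩ := sup_final hF (fun u v hu hv => odd_corner hF hu hv) exposed_span exposed_span
    (fun u hu b b' hb hb' t ht0 ht1 => slice_affine hF hu hb hb' ht0 ht1)
    (fun v hv a a' ha ha' t ht0 ht1 => slice_affine hF.swap hv ha ha' ht0 ht1)
    u0 hu0 v0 hv0
  refine exists_equiv_of_linear f hsurj
    (S.comp (ContinuousLinearMap.fst ℝ A B) + R.comp (ContinuousLinearMap.snd ℝ A B)) ?_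
  intro x
  rw [← hFf x, hSR _ (by simpa using x.2)]
  rfl

end main

end Vale.Agent.Lib.P084
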