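import Mathlib
import Vale.Agent.Lib.P084.SupSum

/-!
The sup-sum theorem for two strictly convex spaces of arbitrary dimension.
-/

namespace Vale.Agent.Lib.P084

open Metric

variable {E : Type*} [NormedAddCommGroup E] [NormedSpace ℝ E]

/-- In a strictly convex space every unit vector is extreme. -/
theorem isExt_of_strictConvex [StrictConvexSpace ℝ E] {v : E} (hv : ‖v‖ = 1) : IsExt v := by
  refine ⟨hv, ?_⟩
  have hface := hasCompactFaces_of_strictConvex (E := E)
  rw [mem_extremePoints]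
  refine ⟨by simp [hv], ?_⟩
  intro x1 hx1 x2 hx2 hseg
  obtain ⟨a, b, ha, hb, hab, hc⟩ := hseg
  have hx1' : ‖x1‖ ≤ 1 := by simpa using hx1
  have hx2' : ‖x2‖ ≤ 1 := by simpa using hx2
  by_contra hne
  have hxne : x1 ≠ x2 := by
    rintro rfl
    have : v = x1 := by
      rw [← hc, ← add_smul, hab, one_smul]
    exact hne ⟨this.symm, this.symm⟩
  have hlt : ‖a • x1 + b • x2‖ < 1 := by
    by_cases h1 : ‖x1‖ = 1
    · by_cases h2 : ‖x2‖ = 1
      · -- strict convexity
        have h3 := strictConvex_closedBall ℝ (0:E) 1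
        have h4 := h3 hx1 hx2 hxne ha hb hab
        have h5 : interior (closedBall (0:E) 1) = ball 0 1 := interior_closedBall _ one_ne_zero
        rw [h5] at h4
        simpa using h4
      · have hn2 : ‖x2‖ < 1 := lt_of_le_of_ne hx2' h2
        have := norm_add_le (a • x1) (b • x2)
        rw [norm_smul, norm_smul, Real.norm_of_nonneg ha.le, Real.norm_of_nonneg hb.le] at this
        nlinarith
    · have hn1 : ‖x1‖ < 1 := lt_of_le_of_ne hx1' h1
      have := norm_add_le (a • x1) (b • x2)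
      rw [norm_smul, norm_smul, Real.norm_of_nonneg ha.le, Real.norm_of_nonneg hb.le] at this
      nlinarith
  rw [hc, hv] at hlt
  exact lt_irrefl _ hlt

/-- In a strictly convex space a functional of norm at most one attains the value one at most once
on the unit ball. -/
theorem strict_unique [StrictConvexSpace ℝ E] {u w : E} (φ : StrongDual ℝ E) (hφ : ‖φ‖ ≤ 1)
    (hu : ‖u‖ ≤ 1) (hw : ‖w‖ ≤ 1) (hφu : φ u = 1) (hφw : φ w = 1) : w = u := by
  have hu1 : ‖u‖ = 1 := le_antisymm hu (by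
    have := functional_le φ hφ u
    rwa [hφu] at this)
  have hw1 : ‖w‖ = 1 := le_antisymm hw (by
    have := functional_le φ hφ w
    rwa [hφw] at this)
  have h2 : ‖u + w‖ = ‖u‖ + ‖w‖ := by
    apply le_antisymm (norm_add_le u w)
    have := functional_le φ hφ (u + w)
    rw [map_add, hφu, hφw] at this
    rw [hu1, hw1]
    linarith
  have hr : SameRay ℝ u w := sameRay_iff_norm_add.mpr h2
  have := (sameRay_iff_inv_norm_smul_eq_of_ne (by
    intro h0; rw [h0, norm_zero] at hu1; exact zero_ne_one hu1) (by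
    intro h0; rw [h0, norm_zero] at hw1; exact zero_ne_one hw1)).mp hr
  rw [hu1, hw1] at this
  simpa using this.symm

/-- In a strictly convex space every unit vector is exposed. -/
theorem isExposedPt_of_strictConvex [StrictConvexSpace ℝ E] {u : E} (hu : ‖u‖ = 1) :
    IsExposedPt u := by
  obtain ⟨φ, hφ, hφu⟩ := exists_functional u hu
  exact ⟨hu, φ, hφ, hφu, fun w hw hφw => strict_unique φ hφ hu.le hw hφu hφw⟩

theorem exposed_span_of_strictConvex [StrictConvexSpace ℝ E] :
    Submodule.span ℝ {u : E | IsExposedPt u} = ⊤ := by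
  rw [eq_top_iff]
  intro x _
  by_cases hx : x = 0
  · rw [hx]; exact Submodule.zero_mem _
  · have hp : 0 < ‖x‖ := norm_pos_iff.mpr hx
    have h1 : (‖x‖⁻¹ • x) ∈ {u : E | IsExposedPt u} := isExposedPt_of_strictConvex (by
      rw [norm_smul, norm_inv, norm_norm, inv_mul_cancel₀ hp.ne'])
    have h2 := Submodule.smul_mem (Submodule.span ℝ {u : E | IsExposedPt u}) ‖x‖
      (Submodule.subset_span h1)
    rwa [smul_smul, mul_inv_cancel₀ hp.ne', one_smul] at h2

theorem exists_unit_vector [Nontrivial E] : ∃ u : E, ‖u‖ = 1 := by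
  obtain ⟨x, hx⟩ := exists_ne (0:E)
  have hp : 0 < ‖x‖ := norm_pos_iff.mpr hx
  exact ⟨‖x‖⁻¹ • x, by rw [norm_smul, norm_inv, norm_norm, inv_mul_cancel₀ hp.ne']⟩

variable {A B Y : Type*} [NormedAddCommGroup A] [NormedSpace ℝ A]
  [NormedAddCommGroup B] [NormedSpace ℝ B] [NormedAddCommGroup Y] [NormedSpace ℝ Y]

theorem slice_affine_strict [StrictConvexSpace ℝ A] [StrictConvexSpace ℝ B] {f : A × B → Y}
    (hf : SphereMap f) {u : A} (hu : ‖u‖ = 1) {b b' : B} (hb : ‖b‖ ≤ 1) (hb' : ‖b'‖ ≤ 1) {t : ℝ}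
    (ht0 : 0 ≤ t) (ht1 : t ≤ 1) :
    f (u, (1 - t) • b + t • b') = (1 - t) • f (u, b) + t • f (u, b') := by
  rcases ht0.eq_or_lt with h0 | h0
  · simp [← h0]
  rcases ht1.eq_or_lt with h1 | h1
  · simp [h1]
  by_cases hbb : b' = b
  · subst hbb
    have e1 : (1 - t) • b' + t • b' = b' := by
      rw [← add_smul]; simp
    have e2 : (1 - t) • f (u, b') + t • f (u, b') = f (u, b') := by
      rw [← add_smul]; simp
    rw [e1, e2]
  -- the set `{u} × ball`
  let Q : Set (A × B) := {x | x.1 = u ∧ ‖x.2‖ ≤ 1}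
  let Good : Set (A × B) := {x | x.1 = u ∧ ‖x.2‖ < 1}
  have hQ1 : ∀ z ∈ Q, ‖z‖ = 1 := by
    rintro ⟨a, c⟩ ⟨h1, h3⟩
    simp only at h1 h3
    rw [Prod.norm_def]
    simp [h1, hu, h3]
  have hQc : IsClosed Q := by
    have c1 : IsClosed {x : A × B | x.1 = u} := isClosed_eq (by fun_prop) continuous_const
    have c3 : IsClosed {x : A × B | ‖x.2‖ ≤ 1} := isClosed_le (by fun_prop) continuous_const
    exact c1.inter c3
  have hGQ : Good ⊆ Q := fun x hx => ⟨hx.1, hx.2.le⟩
  have hdense : ∀ p ∈ Q, ∀ ε > 0, ∃ z ∈ Good, ‖z - p‖ < ε := by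
    rintro ⟨a, c⟩ ⟨h1, h3⟩ ε hε
    simp only at h1 h3
    set s : ℝ := min 1 (ε / 2) with hsdef
    have hs0 : 0 < s := lt_min one_pos (by positivity)
    have hs1 : s ≤ 1 := min_le_left _ _
    have hs2 : s ≤ ε / 2 := min_le_right _ _
    refine ⟨(u, (1 - s) • c), ⟨rfl, ?_⟩, ?_⟩
    · simp only
      rw [norm_smul, Real.norm_of_nonneg (by linarith)]
      nlinarith [norm_nonneg c]
    · have e1 : ((u, (1 - s) • c) : A × B) - (a, c) = (0, (-s) • c) := by
        ext
        · simp [h1]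
        · simp only [Prod.mk_sub_mk]
          module
      rw [e1, Prod.norm_def]
      simp only [norm_zero]
      rw [max_eq_right (norm_nonneg _), norm_smul, norm_neg, Real.norm_of_nonneg hs0.le]
      nlinarith [norm_nonneg c]
  have hgood : ∀ z ∈ Good, ∀ w : A × B, ‖w‖ = 1 → (‖w + z‖ = 2 ↔ w ∈ Q) := by
    rintro ⟨a, c⟩ ⟨h1, h3⟩ ⟨a', c'⟩ hw
    simp only at h1 h3
    subst h1
    have hw1 : ‖a'‖ ≤ 1 := by
      have := norm_fst_le ((a', c') : A × B)
      simp only at this
      linarith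
    have hw2 : ‖c'‖ ≤ 1 := by
      have := norm_snd_le ((a', c') : A × B)
      simp only at this
      linarith
    constructor
    · intro h
      rw [Prod.norm_def] at h
      simp only [Prod.mk_add_mk] at h
      have h6 : ‖c' + c‖ < 2 := by
        have := norm_add_le c' c
        linarith
      have h7 : ‖a' + a‖ = 2 := by
        rcases max_choice ‖a' + a‖ ‖c' + c‖ with h8 | h8
        · rw [← h8]; exact h
        · rw [h8] at h; linarith
      obtain ⟨ψ, hψ, hψ1, hψ2⟩ := exists_common_functional hw1 hu.le h7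
      have h9 : a' = a := strict_unique ψ hψ hu.le hw1 hψ2 hψ1
      exact ⟨h9, hw2⟩
    · rintro ⟨h6, _⟩
      simp only at h6
      rw [Prod.norm_def]
      simp only [Prod.mk_add_mk]
      have h7 : ‖a' + a‖ = 2 := by
        rw [h6, ← two_smul ℝ a, norm_smul, hu]
        norm_num
      rw [h7]
      apply max_eq_left
      have := norm_add_le c' c
      linarith
  have hconv := hf.convex_image Q Good hQ1 hQc hGQ hdense hgood
  -- transport to the unit ball of `B`
  let g : B → Y := fun c => f (u, c)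
  have himg : g '' closedBall (0:B) 1 = f '' Q := by
    ext y
    constructor
    · rintro ⟨c, hc, rfl⟩
      exact ⟨(u, c), ⟨rfl, by simpa using hc⟩, rfl⟩
    · rintro ⟨⟨a, c⟩, ⟨h1, h3⟩, rfl⟩
      simp only at h1 h3
      subst h1
      exact ⟨c, by simpa using h3, rfl⟩
  have hmemu : ∀ c : B, ‖c‖ ≤ 1 → ‖((u, c) : A × B)‖ = 1 := by
    intro c hc
    rw [Prod.norm_def]
    simp [hu, hc]
  have hiso : ∀ x ∈ closedBall (0:B) 1, ∀ y ∈ closedBall (0:B) 1, ‖g x - g y‖ = ‖x - y‖ := by
    intro x hx y hy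
    have hx1 : ‖x‖ ≤ 1 := by simpa using hx
    have hy1 : ‖y‖ ≤ 1 := by simpa using hy
    simp only [g]
    rw [hf.dist_eq _ _ (hmemu x hx1) (hmemu y hy1), Prod.norm_def]
    simp
  have hne : b' - b ≠ 0 := sub_ne_zero.mpr hbb
  have hp : 0 < ‖b' - b‖ := norm_pos_iff.mpr hne
  have hext : IsExt (‖b' - b‖⁻¹ • (b' - b)) := isExt_of_strictConvex (by
    rw [norm_smul, norm_inv, norm_norm, inv_mul_cancel₀ hp.ne'])
  have hres := affine_along_ext (closedBall (0:B) 1) (f '' Q) hconv g hiso himg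
    (p := b) (q := b') (by simpa using hb) (by simpa using hb') hext hp
    (by rw [smul_smul, mul_inv_cancel₀ hp.ne', one_smul]) h0 h1
  have e : b + t • (b' - b) = (1 - t) • b + t • b' := by module
  rw [e] at hres
  exact hres

/-- The sup-sum theorem for two strictly convex spaces. -/
theorem sup_sum_extends_strict [StrictConvexSpace ℝ A] [Nontrivial A] [StrictConvexSpace ℝ B]
    [Nontrivial B] (f : sphere (0 : A × B) 1 → sphere (0 : Y) 1)
    (hiso : ∀ x y, ‖(f x : Y) - (f y : Y)‖ = ‖(x : A × B) - (y : A × B)‖)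
    (hsurj : Function.Surjective f) :
    ∃ L : (A × B) ≃ₗᵢ[ℝ] Y, ∀ x, (f x : Y) = L x := by
  obtain ⟨F, hF, hFf⟩ := exists_total f hiso hsurj
  obtain ⟨u0, hu0⟩ := exists_unit_vector (E := A)
  obtain ⟨v0, hv0⟩ := exists_unit_vector (E := B)
  obtain ⟨S, R, hSR⟩ := sup_final hF (fun u v hu hv => odd_corner hF hu hv)
    exposed_span_of_strictConvex exposed_span_of_strictConvex
    (fun u hu b b' hb hb' t ht0 ht1 => slice_affine_strict hF hu hb hb' ht0 ht1)
    (fun v hv a a' ha ha' t ht0 ht1 => slice_affine_strict hF.swap hv ha ha' ht0 ht1)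
    u0 (isExposedPt_of_strictConvex hu0) v0 (isExposedPt_of_strictConvex hv0)
  refine exists_equiv_of_linear f hsurj
    (S.comp (ContinuousLinearMap.fst ℝ A B) + R.comp (ContinuousLinearMap.snd ℝ A B)) ?_
  intro x
  rw [← hFf x, hSR _ (by simpa using x.2)]
  rfl

end Vale.Agent.Lib.P084
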